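import Vale.Agent.Lib.P105.Trig

/-!
The base element.
-/

open Real Finset

namespace Vale.Agent.Lib.P105

/-- The Pell numbers used: `(1 + √2)^35 = aP + bP √2`. -/
def aP : ℕ := 12477253282759
def bP : ℕ := 8822750406821

/-- `(1 + √2)^35 / (2 √2)`. -/
noncomputable def xB : ℝ := (bP : ℝ) / 2 + (aP : ℝ) * √2 / 4

/-- `-(1 - √2)^35 / (2 √2)`. -/
noncomputable def xC : ℝ := (bP : ℝ) / 2 - (aP : ℝ) * √2 / 4

theorem sqrt2_lo : (1414213562373095048801688724209698078569671875 : ℝ) / 10 ^ 45 ≤ √2 := by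
  apply Real.le_sqrt_of_sq_le
  norm_num

theorem sqrt2_hi : √2 ≤ (1414213562373095048801688724209698078569671876 : ℝ) / 10 ^ 45 := by
  rw [Real.sqrt_le_left (by norm_num)]
  norm_num

theorem xC_pos : 0 < xC := by
  have h := sqrt2_hi
  unfold xC aP bP
  push_cast
  nlinarith

theorem xC_le : xC ≤ 15 / 10 ^ 15 := by
  have h := sqrt2_lo
  unfold xC aP bP
  push_cast
  nlinarith

theorem xB_add_xC : xB + xC = bP := by
  unfold xB xC
  ring

theorem xB_le : xB ≤ 8822750406821 := by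
  have h1 := xB_add_xC
  have h2 := xC_pos
  have h3 : (bP : ℝ) = 8822750406821 := by norm_num [bP]
  linarith

theorem xB_ge : (8822750406821 * 10 ^ 14 - 2 : ℝ) / 10 ^ 14 ≤ xB := by
  have h1 := xB_add_xC
  have h2 := xC_le
  have h3 : (bP : ℝ) = 8822750406821 := by norm_num [bP]
  norm_num at h2 ⊢
  linarith

theorem xB_pos : 0 < xB := by
  have h := xB_ge
  norm_num at h
  linarith

theorem xB_tau : xB * (1 + √2) + xC * (1 - √2) = (aP : ℝ) + bP := by
  have h : √2 * √2 = 2 := Real.mul_self_sqrt (by norm_num)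
  unfold xB xC
  linear_combination ((aP : ℝ) / 2) * h

/-! The sequences of integer coordinates. -/

/-- Integer coordinates of `β^n + β^(-n)` in the basis `1, τ`. -/
def pq : ℕ → ℤ × ℤ
  | 0 => (2, 0)
  | 1 => (0, 1)
  | n + 2 => ((pq (n + 1)).2 - (pq n).1, (pq (n + 1)).1 + 2 * (pq (n + 1)).2 - (pq n).2)

theorem beta_ne : beta ≠ 0 := beta_pos.ne'

theorem sum_beta (n : ℕ) : beta ^ n + beta⁻¹ ^ n = ((pq n).1 : ℝ) + (pq n).2 * (1 + √2) ∧
    beta ^ (n + 1) + beta⁻¹ ^ (n + 1) = ((pq (n + 1)).1 : ℝ) + (pq (n + 1)).2 * (1 + √2) := by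
  have h2 : √2 * √2 = 2 := Real.mul_self_sqrt (by norm_num)
  have hb : beta * beta⁻¹ = 1 := mul_inv_cancel₀ beta_ne
  have hs := beta_add_inv
  induction n with
  | zero =>
    constructor
    · simp [pq]; norm_num
    · simp [pq, hs]
  | succ n ih =>
    refine ⟨ih.2, ?_⟩
    have e : beta ^ (n + 1 + 1) + beta⁻¹ ^ (n + 1 + 1) =
        (beta + beta⁻¹) * (beta ^ (n + 1) + beta⁻¹ ^ (n + 1)) -
          (beta * beta⁻¹) * (beta ^ n + beta⁻¹ ^ n) := by ring
    rw [e, hs, hb, ih.1, ih.2]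
    simp only [pq]
    push_cast
    linear_combination ((pq (n + 1)).2 : ℝ) * h2

theorem sum_omega (n : ℕ) : omega ^ n + omega⁻¹ ^ n =
      (((pq n).1 : ℝ) + (pq n).2 * (1 - √2) : ℝ) ∧
    omega ^ (n + 1) + omega⁻¹ ^ (n + 1) =
      (((pq (n + 1)).1 : ℝ) + (pq (n + 1)).2 * (1 - √2) : ℝ) := by
  have h2 : √2 * √2 = 2 := Real.mul_self_sqrt (by norm_num)
  have h2' : ((√2 : ℝ) : ℂ) * ((√2 : ℝ) : ℂ) = 2 := by
    rw [← Complex.ofReal_mul, h2]
    norm_num
  have hb : omega * omega⁻¹ = 1 := mul_inv_cancel₀ omega_ne_zero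
  have hs := omega_add_inv
  induction n with
  | zero =>
    constructor
    · simp [pq]; norm_num
    · simp [pq, hs]
  | succ n ih =>
    refine ⟨ih.2, ?_⟩
    have e : omega ^ (n + 1 + 1) + omega⁻¹ ^ (n + 1 + 1) =
        (omega + omega⁻¹) * (omega ^ (n + 1) + omega⁻¹ ^ (n + 1)) -
          (omega * omega⁻¹) * (omega ^ n + omega⁻¹ ^ n) := by ring
    rw [e, hs, hb, ih.1, ih.2]
    simp only [pq]
    push_cast
    linear_combination ((pq (n + 1)).2 : ℂ) * h2'

/-- The real part of a power of `ω`. -/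
theorem two_re_omega (n : ℕ) :
    2 * (omega ^ n).re = ((pq n).1 : ℝ) + (pq n).2 * (1 - √2) := by
  have h := (sum_omega n).1
  have hc : omega⁻¹ ^ n = (starRingEnd ℂ) (omega ^ n) := by
    rw [Complex.inv_eq_conj norm_omega, map_pow]
  rw [hc, Complex.add_conj] at h
  have h3 := congrArg Complex.re h
  simp only [Complex.ofReal_re] at h3
  rw [← h3]

theorem omega_re_neg (i : ℤ) : (omega ^ (-i)).re = (omega ^ i).re := by
  rw [zpow_neg]
  have h1 : ‖omega ^ i‖ = 1 := by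
    rw [norm_zpow, norm_omega, one_zpow]
  rw [Complex.inv_eq_conj h1, Complex.conj_re]

/-- Lattice element for natural exponents. -/
theorem elt_nat (n : ℕ) : ∃ m : ℤ, xB * (beta ^ n + beta⁻¹ ^ n) + xC * (2 * (omega ^ n).re) = m := by
  refine ⟨(pq n).1 * bP + (pq n).2 * (aP + bP), ?_⟩
  rw [(sum_beta n).1, two_re_omega]
  push_cast
  have h1 := xB_add_xC
  have h2 := xB_tau
  linear_combination ((pq n).1 : ℝ) * h1 + ((pq n).2 : ℝ) * h2

theorem isElt_base : IsElt xB xB (xC : ℂ) := by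
  intro i
  unfold Th Nn
  have hre : ∀ j : ℤ, ((xC : ℂ) * omega ^ j).re = xC * (omega ^ j).re := by
    intro j
    simp [Complex.mul_re]
  obtain ⟨n, rfl | rfl⟩ := i.eq_nat_or_neg
  · obtain ⟨m, hm⟩ := elt_nat n
    refine ⟨m, ?_⟩
    rw [hre]
    simp only [zpow_natCast, zpow_neg, inv_pow] at hm ⊢
    rw [← hm]
    ring
  · obtain ⟨m, hm⟩ := elt_nat n
    refine ⟨m, ?_⟩
    rw [hre, omega_re_neg]
    simp only [zpow_natCast, zpow_neg, inv_pow, neg_neg] at hm ⊢
    rw [← hm]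
    ring

/-! Bounds on the inverse of `β`. -/

theorem gamma_pos : 0 < beta⁻¹ := inv_pos.mpr beta_pos

theorem gamma_lt_one : beta⁻¹ < 1 := inv_lt_one_of_one_lt₀ one_lt_beta

theorem gamma_le : beta⁻¹ ≤ 8 / 15 := by
  have h := beta_gt
  rw [inv_le_comm₀ beta_pos (by norm_num)]
  norm_num
  linarith

/-- A number `g` in `(0, 1)` with `g + 1/g ≥ τ` is at most `1/β`. -/
theorem le_gamma_of {g : ℝ} (h0 : 0 < g) (h1 : g < 1) (h : 1 + √2 ≤ g + g⁻¹) : g ≤ beta⁻¹ := by
  by_contra hc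
  push Not at hc
  have hs := gamma_pos
  have hs1 := gamma_lt_one
  have e : beta + beta⁻¹ = 1 + √2 := beta_add_inv
  have hbeta : beta = (beta⁻¹)⁻¹ := (inv_inv beta).symm
  set s := beta⁻¹ with hsdef
  have h2 : g⁻¹ + (g - s) < s⁻¹ := by
    have h3 : s⁻¹ - g⁻¹ = (g - s) / (s * g) := by
      field_simp
    have h4 : s * g < 1 := by nlinarith
    have h5 : 0 < s * g := by positivity
    have h6 : g - s < (g - s) / (s * g) := by
      rw [lt_div_iff₀ h5]
      nlinarith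
    linarith
  rw [hbeta] at e
  linarith

/-- A number `g` in `(0, 1)` with `g + 1/g ≤ τ` is at least `1/β`. -/
theorem gamma_le_of {g : ℝ} (h0 : 0 < g) (h : g + g⁻¹ ≤ 1 + √2) : beta⁻¹ ≤ g := by
  by_contra hc
  push Not at hc
  have hs := gamma_pos
  have hs1 := gamma_lt_one
  have e : beta + beta⁻¹ = 1 + √2 := beta_add_inv
  have hbeta : beta = (beta⁻¹)⁻¹ := (inv_inv beta).symm
  set s := beta⁻¹ with hsdef
  have h2 : s⁻¹ + (s - g) < g⁻¹ := by
    have h3 : g⁻¹ - s⁻¹ = (s - g) / (s * g) := by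
      field_simp
    have h4 : s * g < 1 := by nlinarith
    have h5 : 0 < s * g := by positivity
    have h6 : s - g < (s - g) / (s * g) := by
      rw [lt_div_iff₀ h5]
      nlinarith
    linarith
  rw [hbeta] at e
  linarith

def g1N : ℕ := 531010056459569184632741258847
def g2N : ℕ := 531010056459569184632741258848

theorem gamma_lo : (g1N : ℝ) / 10 ^ 30 ≤ beta⁻¹ := by
  apply le_gamma_of
  · norm_num [g1N]
  · norm_num [g1N]
  · have h := sqrt2_hi
    have h3 : (1 + (1414213562373095048801688724209698078569671876 : ℝ) / 10 ^ 45) ≤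
        (g1N : ℝ) / 10 ^ 30 + ((g1N : ℝ) / 10 ^ 30)⁻¹ := by
      norm_num [g1N]
    linarith

theorem gamma_hi : beta⁻¹ ≤ (g2N : ℝ) / 10 ^ 30 := by
  apply gamma_le_of
  · norm_num [g2N]
  · have h := sqrt2_lo
    have h3 : (g2N : ℝ) / 10 ^ 30 + ((g2N : ℝ) / 10 ^ 30)⁻¹ ≤
        (1 + (1414213562373095048801688724209698078569671875 : ℝ) / 10 ^ 45) := by
      norm_num [g2N]
    linarith

/-! The numerical table. -/

/-- The nearest integers to `x β^(-r)`. -/
def kT : List ℕ := [8822750406821, 4684969191655, 2487765754972, 1321028634006, 701479489528,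
  372492663340, 197797350191, 105032382092, 55773251145, 29616157239, 15726477328, 8350917614,
  4434421234, 2354722270, 1250381205, 663964994, 352572089, 187219325, 99415344, 52790548, 28032312,
  14885439, 7904318, 4197272, 2228794, 1183512, 628457, 333717, 177207, 94099, 49967, 26533, 14089,
  7482, 3973, 2110, 1120, 595, 316, 168, 89, 47, 25, 13, 7, 4, 2, 1, 1, 0, 0]

/-- The check for one exponent. -/
def chkY (r k : ℕ) : Bool :=
  Nat.ble (100 * k * (10 ^ 30) ^ r * 10 ^ 14)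
      (44 * (10 ^ 30) ^ r * 10 ^ 14 + 100 * (8822750406821 * 10 ^ 14 - 2) * g1N ^ r) &&
    Nat.ble (100 * 8822750406821 * g2N ^ r) ((100 * k + 44) * (10 ^ 30) ^ r)

theorem chkY_all : ∀ r : Fin 51, chkY r.val (kT.getD r.val 0) = true := by
  decide +kernel

theorem chk51 : 100 * 8822750406821 * g2N ^ 51 ≤ 9 * (10 ^ 30) ^ 51 := by
  decide +kernel

/-- The sequence `x β^(-r)`. -/
noncomputable def yBase (r : ℕ) : ℝ := xB * beta⁻¹ ^ r

theorem yS_pos (r : ℕ) : 0 < yBase r := mul_pos xB_pos (pow_pos gamma_pos r)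

theorem yS_lo (r : ℕ) : (8822750406821 * 10 ^ 14 - 2 : ℝ) / 10 ^ 14 * ((g1N : ℝ) ^ r / (10 ^ 30) ^ r) ≤
    yBase r := by
  unfold yBase
  rw [← div_pow]
  apply mul_le_mul xB_ge (pow_le_pow_left₀ (by positivity) gamma_lo r) (by positivity) xB_pos.le

theorem yS_hi (r : ℕ) : yBase r ≤ 8822750406821 * ((g2N : ℝ) ^ r / (10 ^ 30) ^ r) := by
  unfold yBase
  rw [← div_pow]
  apply mul_le_mul xB_le (pow_le_pow_left₀ gamma_pos.le gamma_hi r) (pow_pos gamma_pos r).le (by norm_num)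

theorem yS_near (r : ℕ) (hr : r < 51) : |yBase r - (kT.getD r 0 : ℝ)| ≤ 44 / 100 := by
  have h := chkY_all ⟨r, hr⟩
  simp only [chkY, Bool.and_eq_true] at h
  set k := kT.getD r 0 with hk
  have h1 := Nat.le_of_ble_eq_true h.1
  have h2 := Nat.le_of_ble_eq_true h.2
  have h1' : (100 * (k : ℝ) * (10 ^ 30) ^ r * 10 ^ 14) ≤
      44 * (10 ^ 30) ^ r * 10 ^ 14 + 100 * (8822750406821 * 10 ^ 14 - 2) * (g1N : ℝ) ^ r := by
    have := (Nat.cast_le (α := ℝ)).mpr h1
    push_cast at this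
    norm_num at this ⊢
    linarith
  have h2' : (100 * 8822750406821 * (g2N : ℝ) ^ r) ≤ (100 * (k : ℝ) + 44) * (10 ^ 30) ^ r := by
    have := (Nat.cast_le (α := ℝ)).mpr h2
    push_cast at this
    norm_num at this ⊢
    linarith
  have hD : (0 : ℝ) < (10 ^ 30) ^ r := by positivity
  set D : ℝ := (10 ^ 30) ^ r with hDdef
  have h3 := yS_lo r
  have h4 := yS_hi r
  rw [← hDdef] at h3 h4
  rw [abs_le]
  constructor
  · have h5 : (k : ℝ) - 44 / 100 ≤
        (8822750406821 * 10 ^ 14 - 2 : ℝ) / 10 ^ 14 * ((g1N : ℝ) ^ r / D) := by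
      rw [div_mul_div_comm, le_div_iff₀ (by positivity)]
      nlinarith
    linarith
  · have h5 : 8822750406821 * ((g2N : ℝ) ^ r / D) ≤ (k : ℝ) + 44 / 100 := by
      rw [mul_div_assoc', div_le_iff₀ hD]
      nlinarith
    linarith

theorem yS51 : yBase 51 ≤ 9 / 100 := by
  have h := yS_hi 51
  have h2 := (Nat.cast_le (α := ℝ)).mpr chk51
  push_cast at h2
  have hD : (0 : ℝ) < (10 ^ 30) ^ 51 := by positivity
  have h5 : 8822750406821 * ((g2N : ℝ) ^ 51 / (10 ^ 30) ^ 51) ≤ 9 / 100 := by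
    rw [mul_div_assoc', div_le_iff₀ hD]
    nlinarith
  linarith

theorem yS_tail (k : ℕ) : yBase (51 + k) ≤ 9 / 100 * (8 / 15) ^ k := by
  have h : yBase (51 + k) = yBase 51 * beta⁻¹ ^ k := by
    unfold yBase
    rw [pow_add]
    ring
  rw [h]
  apply mul_le_mul yS51 (pow_le_pow_left₀ gamma_pos.le gamma_le k) (pow_pos gamma_pos k).le (by norm_num)

/-! Bounds on the factors. -/

theorem G_ge_of_abs {θ : ℝ} (h : |θ| ≤ 1 / 2) : 1 - 2 * |θ| ≤ G θ := by
  have hpi := Real.pi_pos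
  have h1 : 0 ≤ π / 2 - π * |θ| := by nlinarith
  have h2 : π / 2 - π * |θ| ≤ π / 2 := by nlinarith [abs_nonneg θ]
  have h3 := Real.mul_le_sin h1 h2
  rw [Real.sin_pi_div_two_sub] at h3
  have h4 : 2 / π * (π / 2 - π * |θ|) = 1 - 2 * |θ| := by
    field_simp
  rw [h4] at h3
  have h5 : cos (π * |θ|) = cos (π * θ) := by
    rw [← Real.cos_abs (π * θ), abs_mul, abs_of_pos hpi]
  rw [h5] at h3
  exact h3.trans (le_abs_self _)

theorem G_near_int (k : ℤ) (θ : ℝ) (h : |θ| ≤ 44 / 100) : 12 / 100 ≤ G (k + θ) := by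
  rw [add_comm, G_add_int]
  have h1 := G_ge_of_abs (θ := θ) (by linarith)
  linarith

theorem G_yS_near (r : ℕ) (hr : r < 51) : 12 / 100 ≤ G (yBase r) := by
  have h := yS_near r hr
  have h1 := G_near_int ((kT.getD r 0 : ℕ) : ℤ) (yBase r - (kT.getD r 0 : ℝ)) h
  have e : ((((kT.getD r 0 : ℕ) : ℤ) : ℝ)) + (yBase r - (kT.getD r 0 : ℝ)) = yBase r := by
    push_cast
    ring
  rwa [e] at h1

/-- The oscillating term. -/
noncomputable def dC (n : ℕ) : ℝ := 2 * ((xC : ℂ) * omega ^ (n : ℤ)).re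

theorem dC_abs (n : ℕ) : |dC n| ≤ 3 / 10 ^ 14 := by
  have h1 : |((xC : ℂ) * omega ^ (n : ℤ)).re| ≤ ‖(xC : ℂ) * omega ^ (n : ℤ)‖ := Complex.abs_re_le_norm _
  rw [norm_mul, norm_zpow, norm_omega, one_zpow, mul_one, Complex.norm_real, Real.norm_eq_abs,
    abs_of_pos xC_pos] at h1
  have h2 := xC_le
  have h3 : |dC n| = 2 * |((xC : ℂ) * omega ^ (n : ℤ)).re| := by
    unfold dC
    rw [abs_mul, abs_of_pos (by norm_num : (0 : ℝ) < 2)]
  rw [h3]
  calc 2 * |((xC : ℂ) * omega ^ (n : ℤ)).re| ≤ 2 * xC := by linarith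
    _ ≤ 3 / 10 ^ 14 := by
      norm_num at h2 ⊢
      linarith

theorem Nn_nat (n : ℕ) : Nn xB (xC : ℂ) (n : ℤ) = yBase n + dC n := by
  unfold Nn yBase dC
  simp only [zpow_neg, zpow_natCast, inv_pow]

theorem Th_neg (r : ℕ) : Th xB (-(r : ℤ)) = yBase r := by
  unfold Th yBase
  simp only [zpow_neg, zpow_natCast, inv_pow]

theorem cong_Th (i : ℤ) : Cong (Th xB i) (Nn xB (xC : ℂ) i) := by
  obtain ⟨m, hm⟩ := isElt_base i
  exact ⟨m, Or.inr (by linarith)⟩

theorem G_Th_nat (n : ℕ) : G (Th xB (n : ℤ)) = G (yBase n + dC n) := by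
  rw [G_cong (cong_Th _), Nn_nat]

theorem V_Th_nat (n : ℕ) : V (Th xB (n : ℤ)) = V (yBase n + dC n) := by
  rw [V_cong (cong_Th _), Nn_nat]

theorem pi_le : π ≤ 315 / 100 := by
  have := Real.pi_lt_d2
  norm_num at this ⊢
  linarith

theorem G_small_bd {θ : ℝ} (h : |θ| ≤ 1 / 10) : 9 / 10 ≤ G θ := by
  have h1 := G_small θ
  have h2 := pi_le
  have hpi := Real.pi_pos
  have h3 : (π * θ) ^ 2 ≤ (315 / 100 * (1 / 10)) ^ 2 := by
    rw [mul_pow, mul_pow]
    have h4 : θ ^ 2 ≤ (1 / 10) ^ 2 := by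
      rw [sq_le_sq, abs_of_pos (by norm_num : (0 : ℝ) < 1 / 10)]
      exact h
    have h5 : π ^ 2 ≤ (315 / 100) ^ 2 := by
      apply pow_le_pow_left₀ hpi.le h2
    have h6 : 0 ≤ θ ^ 2 := sq_nonneg _
    nlinarith
  norm_num at h3
  linarith

theorem yS_tail_abs (k : ℕ) : |yBase (51 + k)| ≤ 9 / 100 := by
  rw [abs_of_pos (yS_pos _)]
  have h := yS_tail k
  have h2 : ((8 : ℝ) / 15) ^ k ≤ 1 := pow_le_one₀ (by norm_num) (by norm_num)
  nlinarith

/-- Every factor is at least `11 / 100`. -/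
theorem g_lb (j : ℕ) : 11 / 100 ≤ G (Th xB ((98 : ℤ) - j)) := by
  by_cases hj : j ≤ 98
  · obtain ⟨n, hn⟩ : ∃ n : ℕ, n + j = 98 := ⟨98 - j, by omega⟩
    have e : (98 : ℤ) - j = (n : ℤ) := by omega
    rw [e, G_Th_nat]
    by_cases h51 : n < 51
    · have h1 := G_lipschitz (yBase n) (dC n)
      have h2 := G_yS_near n h51
      have h3 := dC_abs n
      have h4 := pi_le
      have h5 : π * |dC n| ≤ 315 / 100 * (3 / 10 ^ 14) := by
        apply mul_le_mul h4 h3 (abs_nonneg _) (by norm_num)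
      norm_num at h5
      linarith
    · obtain ⟨k, rfl⟩ : ∃ k, n = 51 + k := ⟨n - 51, by omega⟩
      have h1 := yS_tail_abs k
      have h2 := dC_abs (51 + k)
      have h3 : |yBase (51 + k) + dC (51 + k)| ≤ 1 / 10 := by
        refine (abs_add_le _ _).trans ?_
        norm_num at h2 ⊢
        linarith
      have h4 := G_small_bd h3
      linarith
  · obtain ⟨r, hr⟩ : ∃ r : ℕ, 98 + r = j := ⟨j - 98, by omega⟩
    have e : (98 : ℤ) - j = -(r : ℤ) := by omega
    rw [e, Th_neg]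
    by_cases h51 : r < 51
    · have h2 := G_yS_near r h51
      linarith
    · obtain ⟨k, rfl⟩ : ∃ k, r = 51 + k := ⟨r - 51, by omega⟩
      have h1 := yS_tail_abs k
      have h4 := G_small_bd (θ := yBase (51 + k)) (by linarith)
      linarith

theorem Th_tail (k : ℕ) : Th xB ((98 : ℤ) - ((149 + k : ℕ) : ℤ)) = yBase (51 + k) := by
  have e : (98 : ℤ) - ((149 + k : ℕ) : ℤ) = -((51 + k : ℕ) : ℤ) := by
    push_cast
    ring
  rw [e, Th_neg]

theorem geom_bound (C r : ℝ) (hC : 0 ≤ C) (h0 : 0 < r) (h1 : r < 1) (m : ℕ) :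
    ∑ k ∈ range m, C * r ^ k ≤ C / (1 - r) := by
  rw [← Finset.mul_sum, div_eq_mul_inv]
  apply mul_le_mul_of_nonneg_left _ hC
  have h2 : 0 < 1 - r := by linarith
  have h3 := mul_neg_geom_sum r m
  have h4 : 0 ≤ r ^ m := by positivity
  rw [← one_div, le_div_iff₀ h2, mul_comm, h3]
  linarith

theorem gamma50 : beta⁻¹ ^ 50 ≤ 1 / 1000 := by
  calc beta⁻¹ ^ 50 ≤ ((8 : ℝ) / 15) ^ 50 := pow_le_pow_left₀ gamma_pos.le gamma_le 50
    _ ≤ 1 / 1000 := by norm_num

/-- The tail of the product. -/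
theorem tail_prod (m : ℕ) : 1 / 2 ≤ ∏ k ∈ range m, G (yBase (51 + k)) := by
  let w : ℕ → ℝ := fun k => (π * yBase (51 + k)) ^ 2 / 2
  have hpi := Real.pi_pos
  have hpi2 := pi_le
  have hw0 : ∀ k, 0 ≤ w k := fun k => by positivity
  have hwC : ∀ k, w k ≤ 6 / 100 * (64 / 225) ^ k := by
    intro k
    have h1 := yS_tail k
    have h2 := yS_pos (51 + k)
    have h3 : π * yBase (51 + k) ≤ 315 / 100 * (9 / 100 * (8 / 15) ^ k) :=
      mul_le_mul hpi2 h1 h2.le (by norm_num)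
    have h4 : (π * yBase (51 + k)) ^ 2 ≤ (315 / 100 * (9 / 100 * (8 / 15) ^ k)) ^ 2 :=
      pow_le_pow_left₀ (by positivity) h3 2
    have h5 : ((315 : ℝ) / 100 * (9 / 100 * (8 / 15) ^ k)) ^ 2 =
        (315 / 100 * (9 / 100)) ^ 2 * (64 / 225) ^ k := by
      have h6 : ((64 : ℝ) / 225) ^ k = ((8 / 15) ^ k) ^ 2 := by
        rw [← pow_mul, mul_comm, pow_mul]
        norm_num
      rw [h6]
      ring
    rw [h5] at h4
    have h7 : (0 : ℝ) ≤ (64 / 225) ^ k := by positivity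
    show (π * yBase (51 + k)) ^ 2 / 2 ≤ _
    nlinarith
  have hsum : ∑ k ∈ range m, w k ≤ 1 / 2 := by
    calc ∑ k ∈ range m, w k ≤ ∑ k ∈ range m, (6 / 100 : ℝ) * (64 / 225) ^ k :=
          Finset.sum_le_sum fun k _ => hwC k
      _ ≤ (6 / 100) / (1 - 64 / 225) := geom_bound _ _ (by norm_num) (by norm_num) (by norm_num) m
      _ ≤ 1 / 2 := by norm_num
  have h1 := one_sub_sum_le_prod w m (fun j _ => hw0 j) (by linarith)
  have h2 : ∏ k ∈ range m, (1 - w k) ≤ ∏ k ∈ range m, G (yBase (51 + k)) := by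
    apply Finset.prod_le_prod
    · intro k hk
      have : w k ≤ ∑ k ∈ range m, w k := Finset.single_le_sum (fun j _ => hw0 j) hk
      linarith
    · intro k _
      exact G_small _
  linarith

/-- The tail of the sum. -/
theorem tail_sum (m : ℕ) : ∑ k ∈ range m, V (yBase (51 + k)) ≤ 2 := by
  have hpi := Real.pi_pos
  have hpi2 := pi_le
  have h1 : ∀ k, V (yBase (51 + k)) ≤ 6 / 10 * (8 / 15) ^ k := by
    intro k
    have h2 := yS_tail k
    have h3 := yS_pos (51 + k)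
    have h4 := yS_tail_abs k
    have h5 : π * |yBase (51 + k)| ≤ 1 := by
      calc π * |yBase (51 + k)| ≤ 315 / 100 * (9 / 100) :=
            mul_le_mul hpi2 h4 (abs_nonneg _) (by norm_num)
        _ ≤ 1 := by norm_num
    have h6 := V_small (yBase (51 + k)) h5
    rw [abs_of_pos h3] at h6
    have h7 : 2 * π * yBase (51 + k) ≤ 2 * (315 / 100) * (9 / 100 * (8 / 15) ^ k) := by
      apply mul_le_mul (by linarith) h2 h3.le (by norm_num)
    have h8 : (0 : ℝ) ≤ (8 / 15) ^ k := by positivity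
    nlinarith
  calc ∑ k ∈ range m, V (yBase (51 + k)) ≤ ∑ k ∈ range m, (6 / 10 : ℝ) * (8 / 15) ^ k :=
        Finset.sum_le_sum fun k _ => h1 k
    _ ≤ (6 / 10) / (1 - 8 / 15) := geom_bound _ _ (by norm_num) (by norm_num) (by norm_num) m
    _ ≤ 2 := by norm_num

/-- The base element: level `98`, `ρ = β^(-50)`, `T = β^48`, `c = 1/10 + 10 ρ`. -/
theorem base_elt : ∃ (t u : ℝ) (z : ℂ) (a : ℝ), 0 < a ∧ a ≤ 1 ∧ IsElt t u z ∧ 1 ≤ |t| ∧
    Inv t u z 98 (beta ^ 48) (beta⁻¹ ^ 50) (1 / 10 + 10 * beta⁻¹ ^ 50) a 2000 := by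
  have hb48 : xB ≤ beta ^ 48 := by
    have h1 : ((15 : ℝ) / 8) ^ 48 ≤ beta ^ 48 := pow_le_pow_left₀ (by norm_num) beta_gt.le 48
    have h2 := xB_le
    have h3 : (8822750406821 : ℝ) ≤ ((15 : ℝ) / 8) ^ 48 := by norm_num
    linarith
  have hbB : ∀ r, beta ^ r * beta⁻¹ ^ r = 1 := by
    intro r
    rw [← mul_pow, mul_inv_cancel₀ beta_ne, one_pow]
  have hgl : ∀ j : ℕ, 1 / 10 ≤ G (Th xB ((98 : ℤ) - j)) := fun j => by
    have := g_lb j
    norm_num at this ⊢
    linarith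
  refine ⟨xB, xB, (xC : ℂ), (1 / 10) ^ 149 * (1 / 2), by positivity, ?_, isElt_base, ?_, ?_⟩
  · have : ((1 : ℝ) / 10) ^ 149 ≤ 1 := pow_le_one₀ (by norm_num) (by norm_num)
    linarith
  · rw [abs_of_pos xB_pos]
    have h := xB_ge
    norm_num at h
    linarith
  · refine ⟨?_, ?_, ?_, ?_, ?_, ?_⟩
    · rw [abs_of_pos xB_pos]
      exact hb48
    · rw [abs_of_pos xB_pos]
      have e : beta ^ (-((98 : ℕ) : ℤ)) = beta⁻¹ ^ 48 * beta⁻¹ ^ 50 := by
        rw [zpow_neg, zpow_natCast, ← pow_add, inv_pow]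
      rw [e, ← mul_assoc]
      have h1 : xB * beta⁻¹ ^ 48 ≤ 1 := by
        have h2 := hbB 48
        have h3 : 0 < beta⁻¹ ^ 48 := pow_pos gamma_pos 48
        nlinarith
      have h3 : 0 < beta⁻¹ ^ 50 := pow_pos gamma_pos 50
      nlinarith
    · rw [Complex.norm_real, Real.norm_eq_abs, abs_of_pos xC_pos]
      have h1 : ((531 : ℝ) / 1000) ^ 50 ≤ beta⁻¹ ^ 50 := by
        apply pow_le_pow_left₀ (by norm_num)
        have h2 := gamma_lo
        have h3 : (531 : ℝ) / 1000 ≤ (g1N : ℝ) / 10 ^ 30 := by norm_num [g1N]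
        linarith
      have h4 : (15 : ℝ) / 10 ^ 15 ≤ ((531 : ℝ) / 1000) ^ 50 := by norm_num
      have h5 := xC_le
      linarith
    · intro j
      have h1 := g_lb j
      have h2 := gamma50
      have e : ((98 : ℕ) : ℤ) - (j : ℤ) = (98 : ℤ) - j := by norm_num
      rw [e]
      linarith
    · intro n
      have e : ∀ j : ℕ, ((98 : ℕ) : ℤ) - (j : ℤ) = (98 : ℤ) - j := fun j => by norm_num
      simp only [e]
      have hfirst : ∀ n : ℕ, (1 / 10 : ℝ) ^ n ≤ ∏ j ∈ range n, G (Th xB ((98 : ℤ) - j)) := by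
        intro n
        calc (1 / 10 : ℝ) ^ n = ∏ j ∈ range n, (1 / 10 : ℝ) := by
              rw [Finset.prod_const, Finset.card_range]
          _ ≤ _ := Finset.prod_le_prod (fun _ _ => by norm_num) (fun j _ => hgl j)
      by_cases hn : n ≤ 149
      · have h1 := hfirst n
        have h2 : ((1 : ℝ) / 10) ^ 149 ≤ (1 / 10) ^ n :=
          pow_le_pow_of_le_one (by norm_num) (by norm_num) hn
        have h3 : (0 : ℝ) < (1 / 10) ^ 149 := by positivity
        linarith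
      · obtain ⟨m, rfl⟩ : ∃ m, n = 149 + m := ⟨n - 149, by omega⟩
        rw [Finset.prod_range_add]
        have h1 := hfirst 149
        have h2 := tail_prod m
        have h3 : ∏ k ∈ range m, G (Th xB ((98 : ℤ) - ((149 + k : ℕ) : ℤ))) =
            ∏ k ∈ range m, G (yBase (51 + k)) := by
          apply Finset.prod_congr rfl
          intro k _
          rw [Th_tail]
        rw [h3]
        have h4 : (0 : ℝ) < (1 / 10) ^ 149 := by positivity
        exact mul_le_mul h1 h2 (by norm_num) (by linarith)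
    · intro n
      have e : ∀ j : ℕ, ((98 : ℕ) : ℤ) - (j : ℤ) = (98 : ℤ) - j := fun j => by norm_num
      simp only [e]
      have hv : ∀ j : ℕ, V (Th xB ((98 : ℤ) - j)) ≤ 10 := by
        intro j
        have h1 := hgl j
        have h2 : G (Th xB ((98 : ℤ) - j)) ≠ 0 := by linarith
        have h3 := V_le_inv_G _ h2
        have h4 : 1 / G (Th xB ((98 : ℤ) - j)) ≤ 10 := by
          rw [div_le_iff₀ (by linarith)]
          linarith
        linarith
      have hfirst : ∀ n : ℕ, ∑ j ∈ range n, V (Th xB ((98 : ℤ) - j)) ≤ n * 10 := by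
        intro n
        calc ∑ j ∈ range n, V (Th xB ((98 : ℤ) - j)) ≤ ∑ j ∈ range n, (10 : ℝ) :=
              Finset.sum_le_sum fun j _ => hv j
          _ = n * 10 := by
              rw [Finset.sum_const, Finset.card_range, nsmul_eq_mul]
      by_cases hn : n ≤ 149
      · have h1 := hfirst n
        have h2 : (n : ℝ) ≤ 149 := by exact_mod_cast hn
        linarith
      · obtain ⟨m, rfl⟩ : ∃ m, n = 149 + m := ⟨n - 149, by omega⟩
        rw [Finset.sum_range_add]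
        have h1 := hfirst 149
        have h2 := tail_sum m
        have h3 : ∑ k ∈ range m, V (Th xB ((98 : ℤ) - ((149 + k : ℕ) : ℤ))) =
            ∑ k ∈ range m, V (yBase (51 + k)) := by
          apply Finset.sum_congr rfl
          intro k _
          rw [Th_tail]
        rw [h3]
        push_cast at h1
        linarith

end Vale.Agent.Lib.P105
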