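import Mathlib

/-!
Definitions used by the statement of the hand-in on problem P105.
-/

open MeasureTheory Measure

namespace Vale.Agent.Lib.P105

/-- The fair coin: the uniform probability measure on `Bool`. -/
noncomputable def coin : Measure Bool :=
  (2⁻¹ : ENNReal) • dirac true + (2⁻¹ : ENNReal) • dirac false

instance coin_isProb : IsProbabilityMeasure coin := by
  constructor
  simp [coin, ENNReal.inv_two_add_inv_two]

/-- The sign attached to a coin value: `true ↦ 1`, `false ↦ -1`. -/
noncomputable def coinSign (b : Bool) : ℝ := if b then 1 else -1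

/-- The random series `∑ ε_n λ^n`, on the sample space of coin sequences. -/
noncomputable def bcSeries (lam : ℝ) (w : ℕ → Bool) : ℝ :=
  ∑' n, coinSign (w n) * lam ^ n

/-- The Bernoulli convolution `ν_λ`: the law of `∑ ε_n λ^n` for independent fair signs `ε_n`. -/
noncomputable def bernoulliConvolution (lam : ℝ) : Measure ℝ :=
  (Measure.infinitePi fun _ : ℕ => coin).map (bcSeries lam)

/-- `b` is a Pisot number: a real algebraic integer `> 1` all of whose other Galois conjugates
(the other complex roots of its minimal polynomial over `ℚ`) have modulus `< 1`. -/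
def IsPisot (b : ℝ) : Prop :=
  1 < b ∧ IsIntegral ℤ b ∧
    ∀ w : ℂ, Polynomial.aeval w (minpoly ℚ b) = 0 → w ≠ (b : ℂ) → ‖w‖ < 1

/-- The degree four Salem number `β ≈ 1.8832`, the largest real root of
`x^4 - 2 x^3 + x^2 - 2 x + 1`; it satisfies `β + 1/β = 1 + √2`. -/
noncomputable def beta : ℝ := (1 + √2 + √(2 * √2 - 1)) / 2

end Vale.Agent.Lib.P105
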