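import Vale.Agent.Lib.P105.Trig

/-!
From the level invariant to the Fourier coefficients: lower bound and near independence.
-/

open Real Finset Filter Topology

namespace Vale.Agent.Lib.P105

/-- The partial product `∏_{j<n} cos (s λ^j)`, with `λ = β⁻¹`. -/
noncomputable def PP (n : ℕ) (s : ℝ) : ℝ := ∏ j ∈ range n, cos (s * beta⁻¹ ^ j)

theorem abs_PP_eq (t : ℝ) (N : ℕ) (n : ℕ) :
    |PP n (π * Th t N)| = ∏ j ∈ range n, G (Th t ((N : ℤ) - j)) := by
  unfold PP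
  rw [Finset.abs_prod]
  refine Finset.prod_congr rfl fun j _ => ?_
  unfold G Th
  have hb : beta ≠ 0 := beta_pos.ne'
  have : (π * (t * beta ^ ((N : ℕ) : ℤ))) * beta⁻¹ ^ j = π * (t * beta ^ ((N : ℤ) - j)) := by
    rw [zpow_sub₀ hb, zpow_natCast, zpow_natCast, inv_pow]
    field_simp
  rw [this]

/-- For `i ≥ J`, `|Nn u z i| ≤ 3 ρ`. -/
theorem Inv.nn_le {t u : ℝ} {z : ℂ} {J : ℕ} {T ρ c a D : ℝ} (hI : Inv t u z J T ρ c a D)
    (i : ℤ) (hi : (J : ℤ) ≤ i) : |Nn u z i| ≤ 3 * ρ := by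
  unfold Nn
  have h1 : |u * beta ^ (-i)| ≤ ρ := by
    rw [abs_mul, abs_of_pos (zpow_pos beta_pos _)]
    refine le_trans ?_ hI.u_le
    refine mul_le_mul_of_nonneg_left ?_ (abs_nonneg _)
    exact zpow_le_zpow_right₀ one_lt_beta.le (by omega)
  have h2 : |2 * (z * omega ^ i).re| ≤ 2 * ρ := by
    rw [abs_mul, abs_of_pos (by norm_num : (0 : ℝ) < 2)]
    refine mul_le_mul_of_nonneg_left ?_ (by norm_num)
    refine le_trans (Complex.abs_re_le_norm _) ?_
    rw [norm_mul, norm_zpow, norm_omega, one_zpow, mul_one]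
    exact hI.z_le
  calc |u * beta ^ (-i) + 2 * (z * omega ^ i).re|
      ≤ |u * beta ^ (-i)| + |2 * (z * omega ^ i).re| := abs_add_le _ _
    _ ≤ 3 * ρ := by linarith

theorem IsElt.cong {t u : ℝ} {z : ℂ} (hE : IsElt t u z) (i : ℤ) :
    Cong (Th t i) (Nn u z i) := by
  obtain ⟨m, hm⟩ := hE i
  exact ⟨m, Or.inr (by linarith)⟩

/-- For `Inv`, `a ≤ 1`. -/
theorem Inv.a_le_one {t u : ℝ} {z : ℂ} {J : ℕ} {T ρ c a D : ℝ} (hI : Inv t u z J T ρ c a D) :
    a ≤ 1 := by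
  simpa using hI.prod_ge 0

/-- Lower bound for the partial products at `s = π t β^N`, `N ≥ J`. -/
theorem level_lower {t u : ℝ} {z : ℂ} {J : ℕ} {T ρ c a D : ℝ} (hE : IsElt t u z)
    (hI : Inv t u z J T ρ c a D) (ha : 0 ≤ a) (hρ : 3 * π * ρ ≤ 1) (N : ℕ) (hN : J ≤ N) (n : ℕ) :
    a * (1 - 9 / 2 * π ^ 2 * ρ ^ 2 * N) ≤ |PP n (π * Th t N)| := by
  rw [abs_PP_eq]
  have hρ0 : 0 ≤ ρ := by
    have := hI.z_le
    exact le_trans (norm_nonneg _) this
  -- the block of small angles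
  have hblock : ∀ m : ℕ, m ≤ N - J →
      1 - 9 / 2 * π ^ 2 * ρ ^ 2 * N ≤ ∏ j ∈ range m, G (Th t ((N : ℤ) - j)) := by
    intro m hm
    have h := (block_small m (fun j => Nn u z ((N : ℤ) - j)) (3 * ρ) (by linarith [mul_assoc 3 π ρ, mul_comm π (3 * ρ), mul_assoc π 3 ρ, mul_comm (3 : ℝ) π]) (by
      intro j hj
      refine hI.nn_le _ ?_
      have : (j : ℤ) < (N : ℤ) - J := by omega
      omega)).1
    have heq : ∏ j ∈ range m, G (Th t ((N : ℤ) - j))
        = ∏ j ∈ range m, G (Nn u z ((N : ℤ) - j)) :=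
      Finset.prod_congr rfl fun j _ => G_cong (hE.cong _)
    rw [heq]
    refine le_trans ?_ h
    have hmN : (m : ℝ) ≤ N := by
      have : m ≤ N := le_trans hm (Nat.sub_le _ _)
      exact_mod_cast this
    have : (m : ℝ) * (π * (3 * ρ)) ^ 2 / 2 ≤ 9 / 2 * π ^ 2 * ρ ^ 2 * N := by
      have h2 : 0 ≤ π ^ 2 * ρ ^ 2 := by positivity
      nlinarith [mul_le_mul_of_nonneg_right hmN h2]
    linarith
  have hprod_nonneg : ∀ m : ℕ, 0 ≤ ∏ j ∈ range m, G (Th t ((N : ℤ) - j)) := fun m =>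
    Finset.prod_nonneg fun j _ => G_nonneg _
  by_cases hneg : 1 - 9 / 2 * π ^ 2 * ρ ^ 2 * N ≤ 0
  · exact le_trans (mul_nonpos_of_nonneg_of_nonpos ha hneg) (hprod_nonneg n)
  push Not at hneg
  by_cases hn : n ≤ N - J
  · have h1 := hblock n hn
    have h2 : a * (1 - 9 / 2 * π ^ 2 * ρ ^ 2 * N) ≤ 1 * (1 - 9 / 2 * π ^ 2 * ρ ^ 2 * N) :=
      mul_le_mul_of_nonneg_right hI.a_le_one hneg.le
    linarith
  · push Not at hn
    obtain ⟨r, rfl⟩ : ∃ r, n = (N - J) + r := ⟨n - (N - J), by omega⟩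
    rw [Finset.prod_range_add]
    have h1 := hblock (N - J) le_rfl
    have h2 : a ≤ ∏ x ∈ range r, G (Th t ((N : ℤ) - ((N - J + x : ℕ) : ℤ))) := by
      have := hI.prod_ge r
      refine le_of_le_of_eq this (Finset.prod_congr rfl fun x _ => ?_)
      congr 2
      omega
    rw [mul_comm a]
    exact mul_le_mul h1 h2 ha (hprod_nonneg _)

/-- All the cosines along the orbit are nonzero. -/
theorem level_cos_ne {t u : ℝ} {z : ℂ} {J : ℕ} {T ρ c a D : ℝ} (hE : IsElt t u z)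
    (hI : Inv t u z J T ρ c a D) (hc : 0 < c) (hρ : 3 * π * ρ < 1) (i : ℤ) :
    G (Th t i) ≠ 0 := by
  by_cases hi : (J : ℤ) ≤ i
  · rw [G_cong (hE.cong i)]
    have h1 := hI.nn_le i hi
    have h2 := G_small (Nn u z i)
    have hρ0 : 0 ≤ ρ := le_trans (norm_nonneg _) hI.z_le
    have h3 : (π * Nn u z i) ^ 2 ≤ (3 * π * ρ) ^ 2 := by
      have : |π * Nn u z i| ≤ 3 * π * ρ := by
        rw [abs_mul, abs_of_pos pi_pos]
        nlinarith [pi_pos]
      exact sq_le_sq' (by linarith [(abs_le.mp this).1]) (abs_le.mp this).2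
    have h4 : (3 * π * ρ) ^ 2 < 1 := by
      have h5 : 0 ≤ 3 * π * ρ := by positivity
      nlinarith
    have : 0 < G (Nn u z i) := by linarith
    exact this.ne'
  · push Not at hi
    obtain ⟨j, hj⟩ : ∃ j : ℕ, i = (J : ℤ) - j := ⟨((J : ℤ) - i).toNat, by omega⟩
    have := hI.cos_ge j
    rw [hj]
    exact (lt_of_lt_of_le hc this).ne'

/-- `β⁻¹ ≤ 8/15`. -/
theorem beta_inv_le : beta⁻¹ ≤ 8 / 15 := by
  have h := beta_gt
  rw [inv_le_comm₀ beta_pos (by norm_num)]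
  norm_num
  linarith

/-- The sum of products of tangents for two well separated frequencies. -/
theorem level_tan_sum {t u : ℝ} {z : ℂ} {J : ℕ} {T ρ c a D : ℝ} (hE : IsElt t u z)
    (hI : Inv t u z J T ρ c a D) (hc : 0 < c) (hρ0 : 0 < ρ) (hρ : 3 * π * ρ ≤ 1)
    (l : ℕ) (hl : T * beta ^ (-(l : ℤ)) ≤ ρ) (N N' : ℕ) (hN' : J ≤ N') (hgap : N' + (J + l + 1) ≤ N)
    (n : ℕ) :
    ∑ j ∈ range n, V (Th t ((N : ℤ) - j)) * V (Th t ((N' : ℤ) - j)) ≤
      36 * π ^ 2 * ρ ^ 2 * N' + 6 * π * ρ * D + 8 * ρ / c := by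
  set f : ℕ → ℝ := fun j => V (Th t ((N : ℤ) - j)) * V (Th t ((N' : ℤ) - j)) with hf
  have hf0 : ∀ j, 0 ≤ f j := fun j => mul_nonneg (V_nonneg _) (V_nonneg _)
  -- small angle bound for `V` at levels `≥ J`
  have hVs : ∀ i : ℤ, (J : ℤ) ≤ i → V (Th t i) ≤ 6 * π * ρ := by
    intro i hi
    rw [V_cong (hE.cong i)]
    have h1 := hI.nn_le i hi
    have h2 : π * |Nn u z i| ≤ 1 := by nlinarith [pi_pos]
    have h3 := V_small _ h2
    nlinarith [pi_pos]
  obtain ⟨d, rfl⟩ : ∃ d, N = N' + d := ⟨N - N', by omega⟩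
  have hd : J + l + 1 ≤ d := by omega
  -- reduce to a long range
  have hreduce : ∑ j ∈ range n, f j ≤ ∑ j ∈ range ((N' - J) + d + n), f j := by
    refine Finset.sum_le_sum_of_subset_of_nonneg ?_ fun j _ _ => hf0 j
    intro j hj
    simp only [Finset.mem_range] at hj ⊢
    omega
  refine le_trans hreduce ?_
  rw [Finset.sum_range_add, Finset.sum_range_add]
  -- first block
  have hb1 : ∑ j ∈ range (N' - J), f j ≤ 36 * π ^ 2 * ρ ^ 2 * N' := by
    have : ∀ j ∈ range (N' - J), f j ≤ 36 * π ^ 2 * ρ ^ 2 := by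
      intro j hj
      have hj' := Finset.mem_range.mp hj
      have h1 := hVs ((N' + d : ℕ) - j) (by push_cast; omega)
      have h2 := hVs ((N' : ℤ) - j) (by omega)
      have h3 : f j ≤ (6 * π * ρ) * (6 * π * ρ) :=
        mul_le_mul h1 h2 (V_nonneg _) (by positivity)
      nlinarith
    have h := Finset.sum_le_card_nsmul _ _ _ this
    rw [Finset.card_range, nsmul_eq_mul] at h
    refine le_trans h ?_
    have hm : ((N' - J : ℕ) : ℝ) ≤ N' := by
      exact_mod_cast Nat.sub_le _ _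
    have h0 : 0 ≤ 36 * π ^ 2 * ρ ^ 2 := by positivity
    nlinarith [mul_le_mul_of_nonneg_right hm h0]
  -- second block
  have hb2 : ∑ j ∈ range d, f ((N' - J) + j) ≤ 6 * π * ρ * D := by
    have h1 : ∀ j ∈ range d, f ((N' - J) + j) ≤
        6 * π * ρ * V (Th t ((J : ℤ) - j)) := by
      intro j hj
      have hj' := Finset.mem_range.mp hj
      have h2 : (J : ℤ) ≤ ((N' + d : ℕ) : ℤ) - ((N' - J + j : ℕ) : ℤ) := by
        push_cast
        omega
      have h3 := hVs _ h2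
      have h4 : ((N' : ℤ) - ((N' - J + j : ℕ) : ℤ)) = (J : ℤ) - j := by
        push_cast
        omega
      simp only [hf]
      rw [h4]
      exact mul_le_mul_of_nonneg_right h3 (V_nonneg _)
    refine le_trans (Finset.sum_le_sum h1) ?_
    rw [← Finset.mul_sum]
    exact mul_le_mul_of_nonneg_left (hI.tan_le d) (by positivity)
  -- third block
  have hb3 : ∑ j ∈ range n, f ((N' - J) + d + j) ≤ 8 * ρ / c := by
    have hlam0 : 0 < beta⁻¹ := inv_pos.mpr beta_pos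
    have hlam1 := beta_inv_le
    have h1 : ∀ j ∈ range n, f ((N' - J) + d + j) ≤
        (2 * π * ρ / c) * (beta⁻¹ * beta⁻¹ ^ j) := by
      intro j _
      have hi : ((N' + d : ℕ) : ℤ) - ((N' - J + d + j : ℕ) : ℤ) = (J : ℤ) - j := by
        push_cast
        omega
      have hi' : (N' : ℤ) - ((N' - J + d + j : ℕ) : ℤ) = (J : ℤ) - d - j := by
        push_cast
        omega
      simp only [hf]
      rw [hi, hi']
      -- first factor
      have hG := hI.cos_ge j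
      have hGne : G (Th t ((J : ℤ) - j)) ≠ 0 := (lt_of_lt_of_le hc hG).ne'
      have hV1 : V (Th t ((J : ℤ) - j)) ≤ 1 / c := by
        refine le_trans (V_le_inv_G _ hGne) ?_
        exact one_div_le_one_div_of_le hc hG
      -- second factor
      have hth : |Th t ((J : ℤ) - d - j)| ≤ ρ * (beta⁻¹ * beta⁻¹ ^ j) := by
        unfold Th
        rw [abs_mul, abs_of_pos (zpow_pos beta_pos _)]
        have h5 : beta ^ ((J : ℤ) - d - j) ≤ beta ^ (-(l : ℤ)) * (beta⁻¹ * beta⁻¹ ^ j) := by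
          have h6 : beta ^ (-(l : ℤ)) * (beta⁻¹ * beta⁻¹ ^ j) = beta ^ (-(l : ℤ) - 1 - j) := by
            rw [zpow_sub₀ beta_pos.ne', zpow_sub₀ beta_pos.ne', zpow_one, zpow_natCast, inv_pow]
            field_simp
          rw [h6]
          exact zpow_le_zpow_right₀ one_lt_beta.le (by omega)
        have h7 : |t| * beta ^ (-(l : ℤ)) ≤ ρ :=
          le_trans (mul_le_mul_of_nonneg_right hI.t_le (zpow_pos beta_pos _).le) hl
        have h8 : 0 ≤ beta⁻¹ * beta⁻¹ ^ j := by positivity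
        calc |t| * beta ^ ((J : ℤ) - d - j)
            ≤ |t| * (beta ^ (-(l : ℤ)) * (beta⁻¹ * beta⁻¹ ^ j)) :=
              mul_le_mul_of_nonneg_left h5 (abs_nonneg _)
          _ = (|t| * beta ^ (-(l : ℤ))) * (beta⁻¹ * beta⁻¹ ^ j) := by ring
          _ ≤ ρ * (beta⁻¹ * beta⁻¹ ^ j) := mul_le_mul_of_nonneg_right h7 h8
      have hpow : beta⁻¹ * beta⁻¹ ^ j ≤ 1 := by
        have h9 : beta⁻¹ ^ j ≤ 1 := pow_le_one₀ hlam0.le (by linarith)
        have h10 : beta⁻¹ ≤ 1 := by linarith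
        calc beta⁻¹ * beta⁻¹ ^ j ≤ 1 * 1 := mul_le_mul h10 h9 (by positivity) (by norm_num)
          _ = 1 := by norm_num
      have hV2 : V (Th t ((J : ℤ) - d - j)) ≤ 2 * π * (ρ * (beta⁻¹ * beta⁻¹ ^ j)) := by
        have h11 : π * |Th t ((J : ℤ) - d - j)| ≤ 1 := by
          have h12 : ρ * (beta⁻¹ * beta⁻¹ ^ j) ≤ ρ * 1 := mul_le_mul_of_nonneg_left hpow hρ0.le
          have h13 : 3 * π * ρ = 3 * (π * ρ) := by ring
          have h14 : 0 ≤ π * ρ := by positivity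
          calc π * |Th t ((J : ℤ) - d - j)| ≤ π * (ρ * 1) :=
                mul_le_mul_of_nonneg_left (le_trans hth h12) pi_pos.le
            _ = π * ρ := by ring
            _ ≤ 1 := by linarith
        refine le_trans (V_small _ h11) ?_
        have : 2 * π * |Th t ((J : ℤ) - d - j)| ≤ 2 * π * (ρ * (beta⁻¹ * beta⁻¹ ^ j)) :=
          mul_le_mul_of_nonneg_left hth (by positivity)
        exact this
      calc V (Th t ((J : ℤ) - j)) * V (Th t ((J : ℤ) - d - j))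
          ≤ (1 / c) * (2 * π * (ρ * (beta⁻¹ * beta⁻¹ ^ j))) :=
            mul_le_mul hV1 hV2 (V_nonneg _) (by positivity)
        _ = (2 * π * ρ / c) * (beta⁻¹ * beta⁻¹ ^ j) := by ring
    refine le_trans (Finset.sum_le_sum h1) ?_
    rw [← Finset.mul_sum, ← Finset.mul_sum]
    -- geometric series
    have hgeom : beta⁻¹ * ∑ j ∈ range n, beta⁻¹ ^ j ≤ 8 / 7 := by
      have h15 : (1 - beta⁻¹) * ∑ j ∈ range n, beta⁻¹ ^ j = 1 - beta⁻¹ ^ n :=
        mul_neg_geom_sum _ _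
      have h16 : 0 ≤ beta⁻¹ ^ n := by positivity
      have h17 : 0 ≤ ∑ j ∈ range n, beta⁻¹ ^ j := Finset.sum_nonneg fun j _ => by positivity
      have h18 : (7 / 15 : ℝ) * ∑ j ∈ range n, beta⁻¹ ^ j ≤ 1 := by
        have : (7 / 15 : ℝ) ≤ 1 - beta⁻¹ := by linarith
        nlinarith [mul_le_mul_of_nonneg_right this h17]
      nlinarith [mul_le_mul_of_nonneg_right hlam1 h17]
    have hpi := pi_lt_d2
    have h20 : 0 ≤ 2 * π * ρ / c := by positivity
    calc 2 * π * ρ / c * (beta⁻¹ * ∑ j ∈ range n, beta⁻¹ ^ j)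
        ≤ 2 * π * ρ / c * (8 / 7) := mul_le_mul_of_nonneg_left hgeom h20
      _ = (16 / 7 * π) * ρ / c := by ring
      _ ≤ 8 * ρ / c := by
        refine div_le_div_of_nonneg_right ?_ hc.le
        refine mul_le_mul_of_nonneg_right ?_ hρ0.le
        linarith
  linarith

/-- `|∏ (1 + y j) - 1| ≤ exp (∑ |y j|) - 1`. -/
theorem abs_prod_one_add_sub_one_le (y : ℕ → ℝ) (n : ℕ) :
    |∏ j ∈ range n, (1 + y j) - 1| ≤ exp (∑ j ∈ range n, |y j|) - 1 := by
  induction n with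
  | zero => simp
  | succ n ih =>
    rw [Finset.prod_range_succ, Finset.sum_range_succ, exp_add]
    set P := ∏ j ∈ range n, (1 + y j)
    set s := ∑ j ∈ range n, |y j|
    have h1 : P * (1 + y n) - 1 = (P - 1) * (1 + y n) + y n := by ring
    rw [h1]
    have hexp : 1 + |y n| ≤ exp |y n| := by
      have := Real.add_one_le_exp |y n|
      linarith
    have hs : 1 ≤ exp s := Real.one_le_exp (Finset.sum_nonneg fun j _ => abs_nonneg _)
    have h2 : |(P - 1) * (1 + y n) + y n| ≤ |P - 1| * (1 + |y n|) + |y n| := by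
      refine le_trans (abs_add_le _ _) ?_
      rw [abs_mul]
      have h3 : |1 + y n| ≤ 1 + |y n| := by
        refine le_trans (abs_add_le _ _) ?_
        simp
      have := mul_le_mul_of_nonneg_left h3 (abs_nonneg (P - 1))
      linarith
    refine le_trans h2 ?_
    have h4 : |P - 1| * (1 + |y n|) ≤ (exp s - 1) * (1 + |y n|) :=
      mul_le_mul_of_nonneg_right ih (by positivity)
    have h5 : exp s * (1 + |y n|) ≤ exp s * exp |y n| :=
      mul_le_mul_of_nonneg_left hexp (exp_pos s).le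
    nlinarith

theorem exp_sub_one_le_two_mul (x : ℝ) (h0 : 0 ≤ x) (h1 : x ≤ 1) : exp x - 1 ≤ 2 * x := by
  have h := Real.abs_exp_sub_one_sub_id_le (x := x) (by rw [abs_of_nonneg h0]; exact h1)
  have h2 := (abs_le.mp h).2
  nlinarith

theorem cos_sub_eq_tan (a b : ℝ) (ha : cos a ≠ 0) (hb : cos b ≠ 0) :
    cos (a - b) = cos a * cos b * (1 + tan a * tan b) := by
  rw [cos_sub, tan_eq_sin_div_cos, tan_eq_sin_div_cos]
  field_simp

theorem cos_add_eq_tan (a b : ℝ) (ha : cos a ≠ 0) (hb : cos b ≠ 0) :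
    cos (a + b) = cos a * cos b * (1 + -(tan a * tan b)) := by
  rw [cos_add, tan_eq_sin_div_cos, tan_eq_sin_div_cos]
  field_simp
  ring

/-- Near independence of the partial products. -/
theorem PP_corr (A A' x : ℝ) (n : ℕ) (hx : x ≤ 1)
    (h1 : ∀ j < n, cos (A * beta⁻¹ ^ j) ≠ 0) (h2 : ∀ j < n, cos (A' * beta⁻¹ ^ j) ≠ 0)
    (hs : ∑ j ∈ range n, |tan (A * beta⁻¹ ^ j) * tan (A' * beta⁻¹ ^ j)| ≤ x) :
    |(1 / 2) * PP n (A - A') + (1 / 2) * PP n (A + A') - PP n A * PP n A'| ≤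
      2 * x * |PP n A * PP n A'| := by
  set τ : ℕ → ℝ := fun j => tan (A * beta⁻¹ ^ j) * tan (A' * beta⁻¹ ^ j) with hτ
  have hminus : PP n (A - A') = PP n A * PP n A' * ∏ j ∈ range n, (1 + τ j) := by
    unfold PP
    rw [← Finset.prod_mul_distrib, ← Finset.prod_mul_distrib]
    refine Finset.prod_congr rfl fun j hj => ?_
    have hj' := Finset.mem_range.mp hj
    have hc1 := h1 j hj'
    have hc2 := h2 j hj'
    simp only [hτ]
    rw [show (A - A') * beta⁻¹ ^ j = A * beta⁻¹ ^ j - A' * beta⁻¹ ^ j by ring]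
    exact cos_sub_eq_tan _ _ hc1 hc2
  have hplus : PP n (A + A') = PP n A * PP n A' * ∏ j ∈ range n, (1 + (-τ j)) := by
    unfold PP
    rw [← Finset.prod_mul_distrib, ← Finset.prod_mul_distrib]
    refine Finset.prod_congr rfl fun j hj => ?_
    have hj' := Finset.mem_range.mp hj
    have hc1 := h1 j hj'
    have hc2 := h2 j hj'
    simp only [hτ]
    rw [show (A + A') * beta⁻¹ ^ j = A * beta⁻¹ ^ j + A' * beta⁻¹ ^ j by ring]
    exact cos_add_eq_tan _ _ hc1 hc2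
  have hs0 : 0 ≤ ∑ j ∈ range n, |τ j| := Finset.sum_nonneg fun j _ => abs_nonneg _
  have hx0 : 0 ≤ x := le_trans hs0 hs
  have hb1 := abs_prod_one_add_sub_one_le τ n
  have hb2 := abs_prod_one_add_sub_one_le (fun j => -τ j) n
  simp only [abs_neg] at hb2
  have hexp : exp (∑ j ∈ range n, |τ j|) - 1 ≤ 2 * x :=
    le_trans (exp_sub_one_le_two_mul _ hs0 (le_trans hs hx)) (by linarith)
  rw [hminus, hplus]
  have hid : (1 / 2) * (PP n A * PP n A' * ∏ j ∈ range n, (1 + τ j)) +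
      (1 / 2) * (PP n A * PP n A' * ∏ j ∈ range n, (1 + (-τ j))) - PP n A * PP n A' =
      (PP n A * PP n A') * ((1 / 2) * (∏ j ∈ range n, (1 + τ j) - 1) +
        (1 / 2) * (∏ j ∈ range n, (1 + (-τ j)) - 1)) := by ring
  rw [hid, abs_mul, mul_comm]
  refine mul_le_mul_of_nonneg_right ?_ (abs_nonneg _)
  refine le_trans (abs_add_le _ _) ?_
  rw [abs_mul, abs_mul, abs_of_pos (by norm_num : (0 : ℝ) < 1 / 2)]
  linarith

end Vale.Agent.Lib.P105
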