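import Vale.Agent.Lib.P105.Numbers

/-!
Dirichlet approximation for the angle of `omega`: the first hitting index.
-/

open Real

namespace Vale.Agent.Lib.P105

lemma omega_pow_sub (k : ℕ) (m : ℤ) (ξ : ℝ) (hξ : ξ = Complex.arg omega / (2 * π)) :
    omega ^ k = Complex.exp (Complex.I * ((2 * π * (k * ξ - m) : ℝ) : ℂ)) := by
  have h1 : omega = Complex.exp (Complex.I * (Complex.arg omega : ℂ)) := by
    have := Complex.norm_mul_exp_arg_mul_I omega
    rw [norm_omega, Complex.ofReal_one, one_mul] at this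
    rw [mul_comm]
    exact this.symm
  have h2 : ((2 * π * (k * ξ - m) : ℝ) : ℂ)
      = (k : ℂ) * (Complex.arg omega : ℂ) - (m : ℂ) * (2 * π) := by
    rw [hξ]
    have hpi : ((π : ℝ) : ℂ) ≠ 0 := by exact_mod_cast Real.pi_ne_zero
    push_cast
    field_simp
  rw [h2, mul_sub, Complex.exp_sub]
  have h3 : Complex.exp (Complex.I * ((m : ℂ) * (2 * π))) = 1 := by
    have : Complex.I * ((m : ℂ) * (2 * π)) = (m : ℂ) * (2 * π * Complex.I) := by ring
    rw [this]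
    exact Complex.exp_int_mul_two_pi_mul_I m
  rw [h3, div_one]
  have h4 : Complex.I * ((k : ℂ) * (Complex.arg omega : ℂ))
      = (k : ℂ) * (Complex.I * (Complex.arg omega : ℂ)) := by ring
  rw [h4, Complex.exp_nat_mul, ← h1]

lemma exists_hit_le (K : ℕ) (hK : 1 ≤ K) :
    ∃ k : ℕ, 0 < k ∧ k ≤ K ∧ ‖1 - omega ^ k‖ ≤ 2 * π / (K + 1) := by
  set ξ : ℝ := Complex.arg omega / (2 * π) with hξ
  obtain ⟨k, hk0, hkK, hk⟩ := Real.exists_nat_abs_mul_sub_round_le ξ (n := K) hK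
  refine ⟨k, hk0, hkK, ?_⟩
  rw [omega_pow_sub k (round ((k : ℝ) * ξ)) ξ hξ, norm_sub_rev]
  refine Real.norm_exp_I_mul_ofReal_sub_one_le.trans ?_
  rw [Real.norm_eq_abs, abs_mul, abs_of_pos (by positivity : (0 : ℝ) < 2 * π)]
  have : 2 * π * (1 / ((K : ℝ) + 1)) = 2 * π / ((K : ℝ) + 1) := by ring
  rw [← this]
  exact mul_le_mul_of_nonneg_left hk (by positivity)

theorem exists_hit (K : ℕ) : ∃ k : ℕ, 0 < k ∧ ‖1 - omega ^ k‖ ≤ 2 * π / (K + 1) := by
  rcases Nat.eq_zero_or_pos K with rfl | hK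
  · refine ⟨1, one_pos, ?_⟩
    rw [pow_one]
    have h1 : ‖1 - omega‖ ≤ ‖(1 : ℂ)‖ + ‖omega‖ := norm_sub_le _ _
    rw [norm_one, norm_omega] at h1
    have h2 := Real.pi_gt_three
    norm_num
    linarith
  · obtain ⟨k, h1, -, h2⟩ := exists_hit_le K hK
    exact ⟨k, h1, h2⟩

/-- The first `k ≥ 1` with `‖1 - ω^k‖ ≤ 2 π / (K + 1)`. -/
noncomputable def hit (K : ℕ) : ℕ := by
  classical exact Nat.find (exists_hit K)

lemma hit_spec (K : ℕ) : 0 < hit K ∧ ‖1 - omega ^ hit K‖ ≤ 2 * π / (K + 1) := by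
  classical
  exact Nat.find_spec (exists_hit K)

lemma hit_min (K : ℕ) {k : ℕ} (h0 : 0 < k) (hk : ‖1 - omega ^ k‖ ≤ 2 * π / (K + 1)) :
    hit K ≤ k := by
  classical
  exact Nat.find_min' (exists_hit K) ⟨h0, hk⟩

theorem hit_pos (K : ℕ) : 1 ≤ hit K := (hit_spec K).1

theorem hit_le (K : ℕ) (hK : 1 ≤ K) : hit K ≤ K := by
  obtain ⟨k, h0, hkK, hk⟩ := exists_hit_le K hK
  exact (hit_min K h0 hk).trans hkK

theorem hit_mono {K K' : ℕ} (h : K ≤ K') : hit K ≤ hit K' := by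
  obtain ⟨h0, h1⟩ := hit_spec K'
  apply hit_min K h0
  refine h1.trans ?_
  have hK : (K : ℝ) ≤ K' := by exact_mod_cast h
  apply div_le_div_of_nonneg_left (by positivity) (by positivity)
  linarith

theorem norm_one_sub_hit (K : ℕ) : ‖1 - omega ^ hit K‖ ≤ 2 * π / (K + 1) := (hit_spec K).2

/-- `‖1 - ω^(-(n h))‖ ≤ n ‖1 - ω^h‖`. -/
theorem norm_one_sub_zpow_mul (n h : ℕ) :
    ‖1 - omega ^ (-((n * h : ℕ) : ℤ))‖ ≤ n * ‖1 - omega ^ h‖ := by
  set w := omega ^ h with hw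
  have hwn : ‖w‖ = 1 := by rw [hw, norm_pow, norm_omega, one_pow]
  have hind : ∀ n : ℕ, ‖1 - w ^ n‖ ≤ n * ‖1 - w‖ := by
    intro n
    induction n with
    | zero => simp
    | succ n ih =>
      have h1 : 1 - w ^ (n + 1) = (1 - w ^ n) + w ^ n * (1 - w) := by ring
      rw [h1]
      refine (norm_add_le _ _).trans ?_
      rw [norm_mul, norm_pow, hwn, one_pow, one_mul]
      push_cast
      linarith
  have hne : omega ^ (n * h) ≠ 0 := pow_ne_zero _ omega_ne_zero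
  have h1 : omega ^ (-((n * h : ℕ) : ℤ)) = (omega ^ (n * h))⁻¹ := by
    rw [zpow_neg, zpow_natCast]
  have h2 : omega ^ (n * h) = w ^ n := by
    rw [hw, ← pow_mul, mul_comm]
  rw [h1, h2]
  have hne2 : w ^ n ≠ 0 := by rw [← h2]; exact hne
  have h3 : 1 - (w ^ n)⁻¹ = (w ^ n)⁻¹ * (w ^ n - 1) := by
    field_simp
  rw [h3, norm_mul, norm_inv, norm_pow, hwn, one_pow, inv_one, one_mul, norm_sub_rev]
  exact hind n

end Vale.Agent.Lib.P105
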