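import Vale.Agent.Lib.P105.Numbers

/-!
Lattice elements: triples `(t,u,z)` with `t β^i + u β^(-i) + 2 Re (z ω^i) ∈ ℤ` for all `i ∈ ℤ`.
-/

open Real

namespace Vale.Agent.Lib.P105

/-- The expanding coordinate `t β^i`. -/
noncomputable def Th (t : ℝ) (i : ℤ) : ℝ := t * beta ^ i

/-- The complementary coordinate `u β^(-i) + 2 Re (z ω^i)`. -/
noncomputable def Nn (u : ℝ) (z : ℂ) (i : ℤ) : ℝ := u * beta ^ (-i) + 2 * (z * omega ^ i).re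

/-- `(t,u,z)` is a lattice element. -/
def IsElt (t u : ℝ) (z : ℂ) : Prop := ∀ i : ℤ, ∃ m : ℤ, Th t i + Nn u z i = m

/-- `|cos (π x)|`. -/
noncomputable def G (x : ℝ) : ℝ := |cos (π * x)|

/-- `|tan (π x)|`. -/
noncomputable def V (x : ℝ) : ℝ := |tan (π * x)|

/-- The level invariant. -/
structure Inv (t u : ℝ) (z : ℂ) (J : ℕ) (T ρ c a D : ℝ) : Prop where
  t_le : |t| ≤ T
  u_le : |u| * beta ^ (-(J : ℤ)) ≤ ρ
  z_le : ‖z‖ ≤ ρ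
  cos_ge : ∀ j : ℕ, c ≤ G (Th t ((J : ℤ) - j))
  prod_ge : ∀ n : ℕ, a ≤ ∏ j ∈ Finset.range n, G (Th t ((J : ℤ) - j))
  tan_le : ∀ n : ℕ, ∑ j ∈ Finset.range n, V (Th t ((J : ℤ) - j)) ≤ D

end Vale.Agent.Lib.P105
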