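import Vale.Agent.Lib.P105.Basic

/-!
Basic properties of the Bernoulli convolution: it is a probability measure, it is concentrated on
`[-1/(1-λ), 1/(1-λ)]`, and its cosine transform is the infinite product of cosines.
-/

open MeasureTheory Set Real Finset Filter Topology ProbabilityTheory

namespace Vale.Agent.Lib.P105

lemma abs_coinSign (b : Bool) : |coinSign b| = 1 := by
  cases b <;> simp [coinSign]

lemma measurable_coinSign : Measurable coinSign := Measurable.of_discrete

lemma summable_term (lam : ℝ) (h0 : 0 < lam) (h1 : lam < 1) (w : ℕ → Bool) :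
    Summable (fun n => coinSign (w n) * lam ^ n) := by
  refine Summable.of_norm_bounded (g := fun n => lam ^ n)
    (summable_geometric_of_lt_one h0.le h1) ?_
  intro n
  rw [Real.norm_eq_abs, abs_mul, abs_coinSign, one_mul, abs_of_pos (pow_pos h0 n)]

/-- The finite sums of the random series. -/
noncomputable def bcPartial (lam : ℝ) (n : ℕ) (w : ℕ → Bool) : ℝ :=
  ∑ k ∈ Finset.range n, coinSign (w k) * lam ^ k

lemma bcPartial_measurable (lam : ℝ) (n : ℕ) : Measurable (bcPartial lam n) := by
  unfold bcPartial
  refine Finset.measurable_fun_sum _ ?_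
  intro k _
  exact (measurable_coinSign.comp (measurable_pi_apply k)).mul_const _

lemma bcPartial_tendsto (lam : ℝ) (h0 : 0 < lam) (h1 : lam < 1) (w : ℕ → Bool) :
    Tendsto (fun n => bcPartial lam n w) atTop (𝓝 (bcSeries lam w)) :=
  (summable_term lam h0 h1 w).hasSum.tendsto_sum_nat

theorem bcSeries_measurable (lam : ℝ) (h0 : 0 < lam) (h1 : lam < 1) :
    Measurable (bcSeries lam) := by
  refine measurable_of_tendsto_metrizable (f := fun n => bcPartial lam n)
    (fun n => bcPartial_measurable lam n) ?_
  rw [tendsto_pi_nhds]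
  exact bcPartial_tendsto lam h0 h1

theorem bc_isProb (lam : ℝ) (h0 : 0 < lam) (h1 : lam < 1) :
    IsProbabilityMeasure (bernoulliConvolution lam) := by
  unfold bernoulliConvolution
  exact Measure.isProbabilityMeasure_map (bcSeries_measurable lam h0 h1).aemeasurable

lemma abs_bcSeries_le (lam : ℝ) (h0 : 0 < lam) (h1 : lam < 1) (w : ℕ → Bool) :
    |bcSeries lam w| ≤ 1 / (1 - lam) := by
  have hg : HasSum (fun n : ℕ => lam ^ n) (1 - lam)⁻¹ := hasSum_geometric_of_lt_one h0.le h1
  have h := (summable_term lam h0 h1 w).norm
  have hle : ‖bcSeries lam w‖ ≤ ∑' n, ‖coinSign (w n) * lam ^ n‖ := norm_tsum_le_tsum_norm h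
  have heq : (fun n => ‖coinSign (w n) * lam ^ n‖) = fun n : ℕ => lam ^ n := by
    funext n
    rw [Real.norm_eq_abs, abs_mul, abs_coinSign, one_mul, abs_of_pos (pow_pos h0 n)]
  rw [heq, hg.tsum_eq] at hle
  simpa [one_div] using hle

theorem bc_support (lam : ℝ) (h0 : 0 < lam) (h1 : lam < 1) :
    bernoulliConvolution lam (Set.Icc (-(1 / (1 - lam))) (1 / (1 - lam)))ᶜ = 0 := by
  unfold bernoulliConvolution
  rw [Measure.map_apply (bcSeries_measurable lam h0 h1) measurableSet_Icc.compl]
  have : bcSeries lam ⁻¹' (Set.Icc (-(1 / (1 - lam))) (1 / (1 - lam)))ᶜ = ∅ := by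
    ext w
    simp only [Set.mem_preimage, Set.mem_compl_iff, Set.mem_Icc, Set.mem_empty_iff_false,
      iff_false, not_not]
    exact abs_le.mp (abs_bcSeries_le lam h0 h1 w)
  rw [this]
  simp

/-- One coordinate: the characteristic function of a fair sign. -/
lemma integral_coin_cexp (x : ℝ) :
    ∫ b, Complex.exp (Complex.I * (x * coinSign b : ℝ)) ∂coin = (Real.cos x : ℂ) := by
  unfold coin
  rw [integral_add_measure, integral_smul_measure, integral_smul_measure, integral_dirac,
    integral_dirac]
  · simp only [coinSign, if_true, Bool.false_eq_true, if_false, ENNReal.toReal_inv,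
      ENNReal.toReal_ofNat]
    rw [Complex.ofReal_cos]
    rw [Complex.cos]
    push_cast
    simp only [mul_one, mul_neg]
    simp [smul_eq_mul]
    ring_nf
  · exact Integrable.smul_measure (integrable_dirac (by simp)) (by simp)
  · exact Integrable.smul_measure (integrable_dirac (by simp)) (by simp)

/-- The independent product: the characteristic function of the finite sum. -/
lemma integral_cexp_bcPartial (lam s : ℝ) (n : ℕ) :
    ∫ w, Complex.exp (Complex.I * (s * bcPartial lam n w : ℝ))
        ∂(Measure.infinitePi fun _ : ℕ => coin) =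
      ((∏ j ∈ Finset.range n, Real.cos (s * lam ^ j) : ℝ) : ℂ) := by
  set μ := Measure.infinitePi fun _ : ℕ => coin with hμ
  have hind : iIndepFun (fun (k : Finset.range n) (w : ℕ → Bool) =>
      Complex.exp (Complex.I * ((s * lam ^ (k : ℕ)) * coinSign (w k) : ℝ))) μ := by
    have h0 := iIndepFun_infinitePi (P := fun _ : ℕ => coin)
      (X := fun (k : ℕ) (b : Bool) => Complex.exp (Complex.I * ((s * lam ^ k) * coinSign b : ℝ)))
      (fun k => Measurable.of_discrete)
    exact h0.precomp (Subtype.val_injective)
  have hmeas : ∀ k : Finset.range n, AEStronglyMeasurable (fun (w : ℕ → Bool) =>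
      Complex.exp (Complex.I * ((s * lam ^ (k : ℕ)) * coinSign (w k) : ℝ))) μ := by
    intro k
    have : Measurable (fun (b : Bool) =>
        Complex.exp (Complex.I * ((s * lam ^ (k : ℕ)) * coinSign b : ℝ))) := Measurable.of_discrete
    exact (this.comp (measurable_pi_apply (k : ℕ))).aestronglyMeasurable
  have h := hind.integral_fun_prod_eq_prod_integral hmeas
  have hL : ∀ w : ℕ → Bool, Complex.exp (Complex.I * (s * bcPartial lam n w : ℝ)) =
      ∏ k : Finset.range n,
        Complex.exp (Complex.I * ((s * lam ^ (k : ℕ)) * coinSign (w k) : ℝ)) := by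
    intro w
    rw [Finset.prod_coe_sort (Finset.range n)
      (fun k => Complex.exp (Complex.I * ((s * lam ^ k) * coinSign (w k) : ℝ)))]
    rw [← Complex.exp_sum]
    congr 1
    unfold bcPartial
    push_cast
    rw [Finset.mul_sum, Finset.mul_sum]
    refine Finset.sum_congr rfl fun k _ => ?_
    ring
  simp_rw [hL]
  rw [h]
  have hE : ∀ k : Finset.range n, ∫ w, (fun (w : ℕ → Bool) =>
      Complex.exp (Complex.I * ((s * lam ^ (k : ℕ)) * coinSign (w k) : ℝ))) w ∂μ =
      (Real.cos (s * lam ^ (k : ℕ)) : ℂ) := by
    intro k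
    have hmap : μ.map (fun w : ℕ → Bool => w (k : ℕ)) = coin :=
      Measure.infinitePi_map_eval (fun _ : ℕ => coin) (k : ℕ)
    have hf : Measurable (fun (b : Bool) =>
        Complex.exp (Complex.I * ((s * lam ^ (k : ℕ)) * coinSign b : ℝ))) := Measurable.of_discrete
    have := integral_map (μ := μ) (φ := fun w : ℕ → Bool => w (k : ℕ))
      (measurable_pi_apply (k : ℕ)).aemeasurable (f := fun (b : Bool) =>
        Complex.exp (Complex.I * ((s * lam ^ (k : ℕ)) * coinSign b : ℝ)))
      hf.aestronglyMeasurable
    rw [hmap, integral_coin_cexp] at this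
    exact this.symm
  simp_rw [hE]
  rw [Finset.prod_coe_sort (Finset.range n) (fun k => (Real.cos (s * lam ^ k) : ℂ))]
  push_cast
  rfl

theorem bc_cos_tendsto (lam : ℝ) (h0 : 0 < lam) (h1 : lam < 1) (s : ℝ) :
    Tendsto (fun n : ℕ => ∏ j ∈ Finset.range n, cos (s * lam ^ j)) atTop
      (𝓝 (∫ y, cos (s * y) ∂(bernoulliConvolution lam))) := by
  set μ := Measure.infinitePi fun _ : ℕ => coin with hμ
  have hmeas := bcSeries_measurable lam h0 h1
  -- the limit integral
  have hint : ∫ y, cos (s * y) ∂(bernoulliConvolution lam) = ∫ w, cos (s * bcSeries lam w) ∂μ := by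
    unfold bernoulliConvolution
    rw [integral_map hmeas.aemeasurable]
    exact (Real.continuous_cos.comp (continuous_const.mul continuous_id)).measurable
      |>.aestronglyMeasurable
  -- the integrals of the finite sums
  have hn : ∀ n : ℕ, ∏ j ∈ Finset.range n, cos (s * lam ^ j) = ∫ w, cos (s * bcPartial lam n w) ∂μ := by
    intro n
    have h := integral_cexp_bcPartial lam s n
    have hre : ∀ w : ℕ → Bool, cos (s * bcPartial lam n w) =
        Complex.reCLM (Complex.exp (Complex.I * (s * bcPartial lam n w : ℝ))) := by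
      intro w
      rw [mul_comm Complex.I, Complex.reCLM_apply, Complex.exp_ofReal_mul_I_re]
    have hI : Integrable (fun w => Complex.exp (Complex.I * (s * bcPartial lam n w : ℝ))) μ := by
      refine Integrable.of_bound ?_ 1 ?_
      · have : Measurable fun w => Complex.exp (Complex.I * (s * bcPartial lam n w : ℝ)) := by
          have hb := bcPartial_measurable lam n
          fun_prop
        exact this.aestronglyMeasurable
      · refine Eventually.of_forall fun w => ?_
        rw [mul_comm Complex.I, Complex.norm_exp_ofReal_mul_I]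
    simp_rw [hre]
    rw [Complex.reCLM.integral_comp_comm hI, h, Complex.reCLM_apply, Complex.ofReal_re]
  rw [hint]
  simp_rw [hn]
  refine tendsto_integral_of_dominated_convergence (fun _ => (1 : ℝ)) ?_ (integrable_const _) ?_ ?_
  · intro n
    exact ((Real.continuous_cos.comp (continuous_const.mul continuous_id)).measurable.comp
      (bcPartial_measurable lam n)).aestronglyMeasurable
  · intro n
    exact Eventually.of_forall fun w => by
      rw [Real.norm_eq_abs]
      exact Real.abs_cos_le_one _
  · exact Eventually.of_forall fun w =>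
      (Real.continuous_cos.comp (continuous_const.mul continuous_id)).continuousAt.tendsto.comp
        (bcPartial_tendsto lam h0 h1 w)

end Vale.Agent.Lib.P105
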