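import Mathlib

/-!
The second moment test: a family of frequencies with large and nearly independent Fourier
coefficients produces a set of large `ν` measure and small Lebesgue measure, and the resulting
criterion of singularity.
-/

open MeasureTheory Set Real

namespace Vale.Agent.Lib.P105

section aux

variable (μ : Measure ℝ) [IsFiniteMeasure μ]

theorem integrable_cos_mul (s : ℝ) : Integrable (fun y => cos (s * y)) μ := by
  refine Integrable.of_bound (by fun_prop) 1 (Filter.Eventually.of_forall fun y => ?_)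
  simpa using abs_cos_le_one (s * y)

theorem cos_mul_cos_abs_le (s s' y : ℝ) : |cos (s * y) * cos (s' * y)| ≤ 1 := by
  rw [abs_mul]
  have h1 := abs_cos_le_one (s * y)
  have h2 := abs_cos_le_one (s' * y)
  have h3 := abs_nonneg (cos (s * y))
  have h4 := abs_nonneg (cos (s' * y))
  nlinarith

theorem integrable_cos_mul_cos (s s' : ℝ) :
    Integrable (fun y => cos (s * y) * cos (s' * y)) μ := by
  refine Integrable.of_bound (by fun_prop) 1 (Filter.Eventually.of_forall fun y => ?_)
  rw [Real.norm_eq_abs]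
  exact cos_mul_cos_abs_le s s' y

theorem cos_mul_cos_eq (s s' y : ℝ) :
    cos (s * y) * cos (s' * y) = (1 / 2) * cos ((s - s') * y) + (1 / 2) * cos ((s + s') * y) := by
  have h1 : (s - s') * y = s * y - s' * y := by ring
  have h2 : (s + s') * y = s * y + s' * y := by ring
  rw [h1, h2, cos_sub, cos_add]
  ring

theorem integral_cos_mul_cos (s s' : ℝ) :
    ∫ y, cos (s * y) * cos (s' * y) ∂μ =
      (1 / 2) * (∫ y, cos ((s - s') * y) ∂μ) + (1 / 2) * (∫ y, cos ((s + s') * y) ∂μ) := by
  simp_rw [cos_mul_cos_eq]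
  rw [integral_add ((integrable_cos_mul μ _).const_mul _) ((integrable_cos_mul μ _).const_mul _),
    integral_const_mul, integral_const_mul]

theorem integral_cos_mul_cos_le (s s' : ℝ) :
    ∫ y, cos (s * y) * cos (s' * y) ∂μ ≤ μ.real univ := by
  have h : ∫ y, cos (s * y) * cos (s' * y) ∂μ ≤ ∫ _y, (1 : ℝ) ∂μ := by
    refine integral_mono (integrable_cos_mul_cos μ s s') (integrable_const _) fun y => ?_
    exact (le_abs_self _).trans (cos_mul_cos_abs_le s s' y)
  simpa using h

end aux

/-- A bound for the integral of a cosine over a symmetric interval. -/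
theorem abs_integral_cos_le (B w : ℝ) (hw : w ≠ 0) :
    |∫ y in (-B)..B, cos (w * y)| ≤ 2 / |w| := by
  rw [intervalIntegral.integral_comp_mul_left (fun y => cos y) hw, integral_cos, smul_eq_mul,
    abs_mul, abs_inv]
  have h : |sin (w * B) - sin (w * -B)| ≤ 2 := by
    have h1 := abs_sin_le_one (w * B)
    have h2 := abs_sin_le_one (w * -B)
    calc |sin (w * B) - sin (w * -B)| ≤ |sin (w * B)| + |sin (w * -B)| := abs_sub _ _
      _ ≤ 2 := by linarith
  have hw' : 0 < |w| := abs_pos.mpr hw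
  rw [div_eq_inv_mul]
  exact mul_le_mul_of_nonneg_left h (inv_nonneg.mpr hw'.le)

/-- The second moment test. Here `φ s = ∫ cos (s y) dν(y)`, `ν` a probability measure
concentrated on `[-B, B]`, and `L` is the number of frequencies. -/
theorem test_set (ν : Measure ℝ) [IsProbabilityMeasure ν] (B : ℝ) (hB : 0 ≤ B)
    {ι : Type} [Fintype ι] [Nonempty ι] [DecidableEq ι]
    (s : ι → ℝ) (a x : ℝ) (ha : 0 < a) (hx : 0 ≤ x)
    (h1 : ∀ i, a ≤ |∫ y, cos (s i * y) ∂ν|)
    (h2 : ∀ i i', i ≠ i' →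
      |(1 / 2) * (∫ y, cos ((s i - s i') * y) ∂ν) + (1 / 2) * (∫ y, cos ((s i + s i') * y) ∂ν)
          - (∫ y, cos (s i * y) ∂ν) * (∫ y, cos (s i' * y) ∂ν)| ≤
        2 * x * |(∫ y, cos (s i * y) ∂ν) * (∫ y, cos (s i' * y) ∂ν)|)
    (h3 : ∀ i i', i ≠ i' →
      2 * (Fintype.card ι : ℝ) ≤ |s i - s i'| ∧ 2 * (Fintype.card ι : ℝ) ≤ |s i + s i'|) :
    ∃ E : Set ℝ, MeasurableSet E ∧
      ν Eᶜ ≤ ENNReal.ofReal (4 / (Fintype.card ι * a ^ 2) + 8 * x) ∧
      volume (E ∩ Icc (-B) B) ≤ ENNReal.ofReal (4 * (2 * B + 1) / (Fintype.card ι * a ^ 2)) := by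
  classical
  set φ : ι → ℝ := fun i => ∫ y, cos (s i * y) ∂ν with hφ
  set σ : ι → ℝ := fun i => if 0 ≤ φ i then 1 else -1 with hσ
  have hσφ : ∀ i, σ i * φ i = |φ i| := by
    intro i
    by_cases h : 0 ≤ φ i
    · simp [hσ, h, abs_of_nonneg h]
    · have h' : φ i < 0 := not_le.mp h
      simp [hσ, h, abs_of_neg h']
  have hσabs : ∀ i, |σ i| = 1 := by
    intro i
    by_cases h : 0 ≤ φ i <;> simp [hσ, h]
  have hσσ : ∀ i, σ i * σ i = 1 := by
    intro i
    by_cases h : 0 ≤ φ i <;> simp [hσ, h]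
  set L : ℝ := (Fintype.card ι : ℝ) with hLdef
  have hL : 0 < L := by
    rw [hLdef]
    exact_mod_cast Fintype.card_pos
  set m : ℝ := ∑ i, |φ i| with hmdef
  have hm : L * a ≤ m := by
    have : ∑ _i : ι, a ≤ ∑ i, |φ i| := Finset.sum_le_sum fun i _ => h1 i
    simpa [Finset.sum_const, Finset.card_univ, nsmul_eq_mul] using this
  have hLa : 0 < L * a := mul_pos hL ha
  have hm0 : 0 < m := lt_of_lt_of_le hLa hm
  have hm2 : L * (L * a ^ 2) ≤ m ^ 2 := by
    have : (L * a) ^ 2 ≤ m ^ 2 := by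
      exact pow_le_pow_left₀ hLa.le hm 2
    nlinarith
  have hLa2 : 0 < L * a ^ 2 := by positivity
  -- the ratio bound
  have hratio : L / m ^ 2 ≤ 1 / (L * a ^ 2) := by
    rw [div_le_div_iff₀ (by positivity) hLa2]
    nlinarith
  let S : ℝ → ℝ := fun y => ∑ i, σ i * cos (s i * y)
  have hScont : Continuous S := by
    show Continuous fun y => ∑ i, σ i * cos (s i * y)
    fun_prop
  -- the square of `S`
  have hSsq : ∀ y, S y ^ 2 = ∑ i, ∑ i', σ i * σ i' * (cos (s i * y) * cos (s i' * y)) := by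
    intro y
    show (∑ i, σ i * cos (s i * y)) ^ 2 = _
    rw [pow_two, Finset.sum_mul_sum]
    refine Finset.sum_congr rfl fun i _ => Finset.sum_congr rfl fun i' _ => ?_
    ring
  have hSsq_int : ∀ (μ : Measure ℝ) [IsFiniteMeasure μ], Integrable (fun y => S y ^ 2) μ := by
    intro μ _
    simp_rw [hSsq]
    refine integrable_finsetSum _ fun i _ => integrable_finsetSum _ fun i' _ => ?_
    exact (integrable_cos_mul_cos μ _ _).const_mul _
  have hSsq_integral : ∀ (μ : Measure ℝ) [IsFiniteMeasure μ], ∫ y, S y ^ 2 ∂μ =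
      ∑ i, ∑ i', σ i * σ i' * ∫ y, cos (s i * y) * cos (s i' * y) ∂μ := by
    intro μ _
    simp_rw [hSsq]
    rw [integral_finsetSum _ fun i _ => integrable_finsetSum _ fun i' _ =>
      (integrable_cos_mul_cos μ _ _).const_mul _]
    refine Finset.sum_congr rfl fun i _ => ?_
    rw [integral_finsetSum _ fun i' _ => (integrable_cos_mul_cos μ _ _).const_mul _]
    refine Finset.sum_congr rfl fun i' _ => ?_
    rw [integral_const_mul]
  have hS_int : Integrable S ν := by
    show Integrable (fun y => ∑ i, σ i * cos (s i * y)) ν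
    exact integrable_finsetSum _ fun i _ => (integrable_cos_mul ν _).const_mul _
  have hS_integral : ∫ y, S y ∂ν = m := by
    show ∫ y, ∑ i, σ i * cos (s i * y) ∂ν = m
    rw [integral_finsetSum _ fun i _ => (integrable_cos_mul ν _).const_mul _]
    refine Finset.sum_congr rfl fun i _ => ?_
    rw [integral_const_mul]
    exact hσφ i
  -- second moment under `ν`
  have hν2 : ∫ y, S y ^ 2 ∂ν ≤ L + (1 + 2 * x) * m ^ 2 := by
    rw [hSsq_integral ν]
    have hterm : ∀ i i', σ i * σ i' * ∫ y, cos (s i * y) * cos (s i' * y) ∂ν ≤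
        (if i = i' then 1 else 0) + (1 + 2 * x) * (|φ i| * |φ i'|) := by
      intro i i'
      by_cases hii : i = i'
      · subst hii
        rw [hσσ, one_mul, if_pos rfl]
        have := integral_cos_mul_cos_le ν (s i) (s i)
        have hp : (ν.real univ) = 1 := by simp
        rw [hp] at this
        have hnn : 0 ≤ (1 + 2 * x) * (|φ i| * |φ i|) := by positivity
        linarith
      · rw [if_neg hii, zero_add, integral_cos_mul_cos]
        have hh := h2 i i' hii
        have hsig : σ i * σ i' * (φ i * φ i') = |φ i| * |φ i'| := by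
          rw [← hσφ i, ← hσφ i']; ring
        set d := (1 / 2) * (∫ y, cos ((s i - s i') * y) ∂ν) +
          (1 / 2) * (∫ y, cos ((s i + s i') * y) ∂ν) with hd
        have hh' : |d - φ i * φ i'| ≤ 2 * x * (|φ i| * |φ i'|) := by
          have := hh
          rwa [abs_mul] at this
        have hs1 : |σ i * σ i'| = 1 := by
          rw [abs_mul, hσabs, hσabs, one_mul]
        have : σ i * σ i' * d = σ i * σ i' * (d - φ i * φ i') + |φ i| * |φ i'| := by
          rw [← hsig]; ring
        rw [this]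
        have h5 : σ i * σ i' * (d - φ i * φ i') ≤ 2 * x * (|φ i| * |φ i'|) := by
          calc σ i * σ i' * (d - φ i * φ i') ≤ |σ i * σ i' * (d - φ i * φ i')| := le_abs_self _
            _ = |d - φ i * φ i'| := by rw [abs_mul, hs1, one_mul]
            _ ≤ _ := hh'
        linarith
    calc ∑ i, ∑ i', σ i * σ i' * ∫ y, cos (s i * y) * cos (s i' * y) ∂ν
        ≤ ∑ i, ∑ i', ((if i = i' then (1 : ℝ) else 0) + (1 + 2 * x) * (|φ i| * |φ i'|)) :=
          Finset.sum_le_sum fun i _ => Finset.sum_le_sum fun i' _ => hterm i i'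
      _ = L + (1 + 2 * x) * m ^ 2 := by
          simp only [Finset.sum_add_distrib, Finset.sum_ite_eq, Finset.mem_univ, if_true,
            Finset.sum_const, Finset.card_univ, nsmul_eq_mul, mul_one]
          congr 1
          rw [pow_two, hmdef, Finset.sum_mul_sum, Finset.mul_sum]
          refine Finset.sum_congr rfl fun i _ => ?_
          rw [Finset.mul_sum]
  -- second moment under Lebesgue on the interval
  let μ : Measure ℝ := volume.restrict (Icc (-B) B)
  have : IsFiniteMeasure μ := by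
    constructor
    simp [μ]
  have hμuniv : μ.real univ = 2 * B := by
    simp only [μ, measureReal_restrict_apply_univ]
    rw [Real.volume_real_Icc_of_le (by linarith)]
    ring
  have hμint : ∀ w : ℝ, w ≠ 0 → |∫ y, cos (w * y) ∂μ| ≤ 2 / |w| := by
    intro w hw
    have : ∫ y, cos (w * y) ∂μ = ∫ y in (-B)..B, cos (w * y) := by
      rw [intervalIntegral.integral_of_le (by linarith)]
      simp only [μ]
      rw [integral_Icc_eq_integral_Ioc]
    rw [this]
    exact abs_integral_cos_le B w hw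
  have hμ2 : ∫ y, S y ^ 2 ∂μ ≤ (2 * B + 1) * L := by
    rw [hSsq_integral μ]
    have hterm : ∀ i i', σ i * σ i' * ∫ y, cos (s i * y) * cos (s i' * y) ∂μ ≤
        (if i = i' then 2 * B else 0) + 1 / L := by
      intro i i'
      have hLi : 0 < 1 / L := by positivity
      by_cases hii : i = i'
      · subst hii
        rw [hσσ, one_mul, if_pos rfl]
        have := integral_cos_mul_cos_le μ (s i) (s i)
        rw [hμuniv] at this
        linarith
      · rw [if_neg hii, zero_add, integral_cos_mul_cos]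
        obtain ⟨h31, h32⟩ := h3 i i' hii
        have hw1 : s i - s i' ≠ 0 := by
          intro h0
          rw [h0, abs_zero] at h31
          linarith
        have hw2 : s i + s i' ≠ 0 := by
          intro h0
          rw [h0, abs_zero] at h32
          linarith
        have hb : ∀ w : ℝ, 2 * L ≤ |w| → 2 / |w| ≤ 1 / L := by
          intro w hw
          rw [div_le_div_iff₀ (by linarith) hL]
          linarith
        have h41 := (hμint _ hw1).trans (hb _ h31)
        have h42 := (hμint _ hw2).trans (hb _ h32)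
        set d := (1 / 2) * (∫ y, cos ((s i - s i') * y) ∂μ) +
          (1 / 2) * (∫ y, cos ((s i + s i') * y) ∂μ) with hd
        have hd' : |d| ≤ 1 / L := by
          have e1 := abs_le.mp h41
          have e2 := abs_le.mp h42
          rw [abs_le, hd]
          constructor <;> linarith [e1.1, e1.2, e2.1, e2.2]
        have hs1 : |σ i * σ i'| = 1 := by
          rw [abs_mul, hσabs, hσabs, one_mul]
        calc σ i * σ i' * d ≤ |σ i * σ i' * d| := le_abs_self _
          _ = |d| := by rw [abs_mul, hs1, one_mul]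
          _ ≤ 1 / L := hd'
    calc ∑ i, ∑ i', σ i * σ i' * ∫ y, cos (s i * y) * cos (s i' * y) ∂μ
        ≤ ∑ i, ∑ i', ((if i = i' then 2 * B else 0) + 1 / L) :=
          Finset.sum_le_sum fun i _ => Finset.sum_le_sum fun i' _ => hterm i i'
      _ = (2 * B + 1) * L := by
          simp only [Finset.sum_add_distrib, Finset.sum_ite_eq, Finset.mem_univ, if_true,
            Finset.sum_const, Finset.card_univ, nsmul_eq_mul]
          rw [← hLdef]
          field_simp
  have hEm : MeasurableSet {y | m / 2 ≤ |S y|} :=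
    (isClosed_le continuous_const hScont.abs).measurableSet
  refine ⟨{y | m / 2 ≤ |S y|}, hEm, ?_, ?_⟩
  · -- the bound under `ν`
    have hf_int : Integrable (fun y => (S y - m) ^ 2) ν := by
      have : (fun y => (S y - m) ^ 2) = fun y => S y ^ 2 - 2 * m * S y + m ^ 2 := by
        funext y; ring
      rw [this]
      exact ((hSsq_int ν).sub (hS_int.const_mul _)).add (integrable_const _)
    have hf_val : ∫ y, (S y - m) ^ 2 ∂ν ≤ L + 2 * x * m ^ 2 := by
      have : (fun y => (S y - m) ^ 2) = fun y => S y ^ 2 - 2 * m * S y + m ^ 2 := by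
        funext y; ring
      have hi1 : Integrable (fun y => S y ^ 2 - 2 * m * S y) ν :=
        (hSsq_int ν).sub (hS_int.const_mul _)
      have hi2 : Integrable (fun y => 2 * m * S y) ν := hS_int.const_mul _
      have e1 : ∫ y, (S y ^ 2 - 2 * m * S y + m ^ 2) ∂ν
          = ∫ y, (S y ^ 2 - 2 * m * S y) ∂ν + ∫ _y, m ^ 2 ∂ν :=
        integral_add hi1 (integrable_const _)
      have e2 : ∫ y, (S y ^ 2 - 2 * m * S y) ∂ν = ∫ y, S y ^ 2 ∂ν - ∫ y, 2 * m * S y ∂ν :=
        integral_sub (hSsq_int ν) hi2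
      have e3 : ∫ y, 2 * m * S y ∂ν = 2 * m * ∫ y, S y ∂ν := integral_const_mul _ _
      rw [this, e1, e2, e3, hS_integral]
      simp only [integral_const, probReal_univ, smul_eq_mul, one_mul]
      nlinarith
    have hmark := mul_meas_ge_le_integral_of_nonneg (μ := ν)
      (Filter.Eventually.of_forall fun y => sq_nonneg (S y - m)) hf_int (m ^ 2 / 4)
    have hsub : {y | m / 2 ≤ |S y|}ᶜ ⊆ {y | m ^ 2 / 4 ≤ (S y - m) ^ 2} := by
      intro y hy
      have hy' : |S y| < m / 2 := by simpa using hy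
      have h6 := (abs_lt.mp hy').2
      show m ^ 2 / 4 ≤ (S y - m) ^ 2
      nlinarith
    have hbound : ν.real {y | m ^ 2 / 4 ≤ (S y - m) ^ 2} ≤ 4 / (L * a ^ 2) + 8 * x := by
      have hmm : 0 < m ^ 2 / 4 := by positivity
      have h7 : (m ^ 2 / 4) * ν.real {y | m ^ 2 / 4 ≤ (S y - m) ^ 2} ≤ L + 2 * x * m ^ 2 :=
        hmark.trans hf_val
      have h8 : ν.real {y | m ^ 2 / 4 ≤ (S y - m) ^ 2} ≤ (L + 2 * x * m ^ 2) / (m ^ 2 / 4) := by
        rw [le_div_iff₀ hmm]; linarith
      have h9 : (L + 2 * x * m ^ 2) / (m ^ 2 / 4) = 4 * (L / m ^ 2) + 8 * x := by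
        field_simp
        ring
      rw [h9] at h8
      have h10 : 4 * (L / m ^ 2) ≤ 4 / (L * a ^ 2) := by
        have := mul_le_mul_of_nonneg_left hratio (by norm_num : (0 : ℝ) ≤ 4)
        calc 4 * (L / m ^ 2) ≤ 4 * (1 / (L * a ^ 2)) := this
          _ = 4 / (L * a ^ 2) := by ring
      linarith
    calc ν {y | m / 2 ≤ |S y|}ᶜ ≤ ν {y | m ^ 2 / 4 ≤ (S y - m) ^ 2} := measure_mono hsub
      _ = ENNReal.ofReal (ν.real {y | m ^ 2 / 4 ≤ (S y - m) ^ 2}) := by
          rw [ofReal_measureReal]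
      _ ≤ _ := ENNReal.ofReal_le_ofReal hbound
  · -- the bound under Lebesgue
    have hmark := mul_meas_ge_le_integral_of_nonneg (μ := μ)
      (Filter.Eventually.of_forall fun y => sq_nonneg (S y)) (hSsq_int μ) (m ^ 2 / 4)
    have hbound : μ.real {y | m ^ 2 / 4 ≤ S y ^ 2} ≤ 4 * (2 * B + 1) / (L * a ^ 2) := by
      have hmm : 0 < m ^ 2 / 4 := by positivity
      have h7 : (m ^ 2 / 4) * μ.real {y | m ^ 2 / 4 ≤ S y ^ 2} ≤ (2 * B + 1) * L :=
        hmark.trans hμ2
      have h8 : μ.real {y | m ^ 2 / 4 ≤ S y ^ 2} ≤ ((2 * B + 1) * L) / (m ^ 2 / 4) := by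
        rw [le_div_iff₀ hmm]; linarith
      have h9 : ((2 * B + 1) * L) / (m ^ 2 / 4) = 4 * (2 * B + 1) * (L / m ^ 2) := by
        field_simp
      rw [h9] at h8
      have h10 : 4 * (2 * B + 1) * (L / m ^ 2) ≤ 4 * (2 * B + 1) / (L * a ^ 2) := by
        have := mul_le_mul_of_nonneg_left hratio (by positivity : (0 : ℝ) ≤ 4 * (2 * B + 1))
        calc 4 * (2 * B + 1) * (L / m ^ 2) ≤ 4 * (2 * B + 1) * (1 / (L * a ^ 2)) := this
          _ = 4 * (2 * B + 1) / (L * a ^ 2) := by ring
      linarith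
    have hsub : {y | m / 2 ≤ |S y|} ⊆ {y | m ^ 2 / 4 ≤ S y ^ 2} := by
      intro y hy
      have hy' : m / 2 ≤ |S y| := hy
      show m ^ 2 / 4 ≤ S y ^ 2
      have h6 : (m / 2) ^ 2 ≤ |S y| ^ 2 := pow_le_pow_left₀ (by positivity) hy' 2
      rw [sq_abs] at h6
      nlinarith
    have hr : volume ({y | m / 2 ≤ |S y|} ∩ Icc (-B) B) = μ {y | m / 2 ≤ |S y|} := by
      simp only [μ]
      rw [Measure.restrict_apply hEm]
    rw [hr]
    calc μ {y | m / 2 ≤ |S y|} ≤ μ {y | m ^ 2 / 4 ≤ S y ^ 2} := measure_mono hsub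
      _ = ENNReal.ofReal (μ.real {y | m ^ 2 / 4 ≤ S y ^ 2}) := by
          rw [ofReal_measureReal]
      _ ≤ _ := ENNReal.ofReal_le_ofReal hbound

/-- The singularity criterion. -/
theorem singular_of_sets (ν : Measure ℝ) (B : ℝ) (hν : ν (Icc (-B) B)ᶜ = 0)
    (H : ∀ ε : ℝ, 0 < ε → ∃ E : Set ℝ, MeasurableSet E ∧
      ν Eᶜ ≤ ENNReal.ofReal ε ∧ volume (E ∩ Icc (-B) B) ≤ ENNReal.ofReal ε) :
    ν.MutuallySingular volume := by
  have H' : ∀ n : ℕ, ∃ E : Set ℝ, MeasurableSet E ∧
      ν Eᶜ ≤ ENNReal.ofReal ((1 / 2) ^ n) ∧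
      volume (E ∩ Icc (-B) B) ≤ ENNReal.ofReal ((1 / 2) ^ n) := fun n => H _ (by positivity)
  choose E hEm hE1 hE2 using H'
  set F : ℕ → Set ℝ := fun n => E n ∩ Icc (-B) B with hF
  have hFm : ∀ n, MeasurableSet (F n) := fun n => (hEm n).inter measurableSet_Icc
  have hsum : ∑' n, volume (F n) ≠ ⊤ := by
    refine ne_top_of_le_ne_top ?_ (ENNReal.tsum_le_tsum hE2)
    have hs : Summable fun n : ℕ => ((1 / 2 : ℝ) ^ n) :=
      summable_geometric_of_lt_one (by norm_num) (by norm_num)
    rw [← ENNReal.ofReal_tsum_of_nonneg (fun n => by positivity) hs]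
    exact ENNReal.ofReal_ne_top
  have hA0 : volume (Filter.limsup F Filter.atTop) = 0 := measure_limsup_atTop_eq_zero hsum
  have hAm : MeasurableSet (Filter.limsup F Filter.atTop) :=
    MeasurableSet.measurableSet_limsup hFm
  refine ⟨(Filter.limsup F Filter.atTop)ᶜ, hAm.compl, ?_, by simpa using hA0⟩
  -- the complement is `ν` null
  have ht : Filter.Tendsto (fun n : ℕ => ENNReal.ofReal ((1 / 2 : ℝ) ^ n)) Filter.atTop
      (nhds 0) := by
    have : Filter.Tendsto (fun n : ℕ => ((1 / 2 : ℝ) ^ n)) Filter.atTop (nhds 0) :=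
      tendsto_pow_atTop_nhds_zero_of_lt_one (by norm_num) (by norm_num)
    simpa using ENNReal.tendsto_ofReal this
  have hkey : ∀ N : ℕ, ν (⋂ n ∈ Set.Ici N, (E n)ᶜ) = 0 := by
    intro N
    refine le_antisymm ?_ bot_le
    refine ge_of_tendsto ht ?_
    filter_upwards [Filter.eventually_ge_atTop N] with n hn
    refine (measure_mono ?_).trans (hE1 n)
    exact Set.biInter_subset_of_mem (Set.mem_Ici.mpr hn)
  have hsubset : (Filter.limsup F Filter.atTop)ᶜ ⊆
      (Icc (-B) B)ᶜ ∪ ⋃ N : ℕ, ⋂ n ∈ Set.Ici N, (E n)ᶜ := by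
    intro y hy
    by_cases hyI : y ∈ Icc (-B) B
    · right
      have hy' : ¬ ∃ᶠ n in Filter.atTop, y ∈ F n := by
        intro hf
        apply hy
        exact Filter.mem_limsup_iff_frequently_mem.mpr hf
      rw [Filter.not_frequently] at hy'
      obtain ⟨N, hN⟩ := Filter.eventually_atTop.mp hy'
      refine Set.mem_iUnion.mpr ⟨N, ?_⟩
      simp only [Set.mem_iInter]
      intro n hn hEn
      exact hN n (Set.mem_Ici.mp hn) ⟨hEn, hyI⟩
    · exact Or.inl hyI
  refine le_antisymm ((measure_mono hsubset).trans ?_) bot_le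
  refine (measure_union_le _ _).trans ?_
  rw [hν, zero_add, measure_iUnion_null hkey]

end Vale.Agent.Lib.P105
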