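import Vale.Agent.Lib.P105.Seq
import Vale.Agent.Lib.P105.Corr
import Vale.Agent.Lib.P105.SecondMoment
import Vale.Agent.Lib.P105.Prob

/-!
Assembly: the Bernoulli convolution with parameter `1/beta` is singular.
-/

open MeasureTheory Set Real Finset Filter Topology

namespace Vale.Agent.Lib.P105

theorem beta_inv_pos : 0 < beta⁻¹ := inv_pos.mpr beta_pos

theorem beta_inv_lt_one : beta⁻¹ < 1 := inv_lt_one_of_one_lt₀ one_lt_beta

theorem half_lt_beta_inv : 1 / 2 < beta⁻¹ := by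
  rw [one_div]
  exact inv_strictAnti₀ beta_pos (by have := beta_lt; linarith)

theorem PP_tendsto (s : ℝ) : Tendsto (fun n => PP n s) atTop
    (𝓝 (∫ y, cos (s * y) ∂(bernoulliConvolution beta⁻¹))) :=
  bc_cos_tendsto beta⁻¹ beta_inv_pos beta_inv_lt_one s

theorem phi_lower {t u : ℝ} {z : ℂ} {J : ℕ} {T ρ c a D : ℝ} (hE : IsElt t u z)
    (hI : Inv t u z J T ρ c a D) (ha : 0 ≤ a) (hρ : 3 * π * ρ ≤ 1) (N : ℕ) (hN : J ≤ N) :
    a * (1 - 9 / 2 * π ^ 2 * ρ ^ 2 * N) ≤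
      |∫ y, cos ((π * Th t N) * y) ∂(bernoulliConvolution beta⁻¹)| :=
  ge_of_tendsto' (PP_tendsto _).abs fun n => level_lower hE hI ha hρ N hN n

theorem scale_eq (t : ℝ) (N j : ℕ) : π * Th t N * beta⁻¹ ^ j = π * Th t ((N : ℤ) - j) := by
  unfold Th
  have hbz : beta ≠ 0 := beta_pos.ne'
  have : beta ^ ((N : ℤ) - j) = beta ^ (N : ℤ) * beta⁻¹ ^ j := by
    rw [inv_pow, ← zpow_natCast beta j, ← zpow_neg, ← zpow_add₀ hbz]
    congr 1
  rw [this]; ring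

theorem phi_corr {t u : ℝ} {z : ℂ} {J : ℕ} {T ρ c a D : ℝ} (hE : IsElt t u z)
    (hI : Inv t u z J T ρ c a D) (hc : 0 < c) (hρ0 : 0 < ρ) (hρ : 3 * π * ρ < 1)
    (l : ℕ) (hl : T * beta ^ (-(l : ℤ)) ≤ ρ) (N N' : ℕ) (hN' : J ≤ N') (hgap : N' + (J + l + 1) ≤ N)
    (x : ℝ) (hx : 36 * π ^ 2 * ρ ^ 2 * N' + 6 * π * ρ * D + 8 * ρ / c ≤ x) (hx1 : x ≤ 1) :
    |(1 / 2) * (∫ y, cos ((π * Th t N - π * Th t N') * y) ∂(bernoulliConvolution beta⁻¹)) +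
        (1 / 2) * (∫ y, cos ((π * Th t N + π * Th t N') * y) ∂(bernoulliConvolution beta⁻¹))
        - (∫ y, cos ((π * Th t N) * y) ∂(bernoulliConvolution beta⁻¹)) *
          (∫ y, cos ((π * Th t N') * y) ∂(bernoulliConvolution beta⁻¹))| ≤
      2 * x * |(∫ y, cos ((π * Th t N) * y) ∂(bernoulliConvolution beta⁻¹)) *
          (∫ y, cos ((π * Th t N') * y) ∂(bernoulliConvolution beta⁻¹))| := by
  have hne : ∀ (M : ℕ) (j : ℕ), cos (π * Th t M * beta⁻¹ ^ j) ≠ 0 := by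
    intro M j h0
    apply level_cos_ne hE hI hc hρ ((M : ℤ) - j)
    unfold G
    rw [← scale_eq, h0, abs_zero]
  have hn : ∀ n : ℕ,
      |(1 / 2) * PP n (π * Th t N - π * Th t N') + (1 / 2) * PP n (π * Th t N + π * Th t N')
        - PP n (π * Th t N) * PP n (π * Th t N')| ≤
      2 * x * |PP n (π * Th t N) * PP n (π * Th t N')| := by
    intro n
    apply PP_corr _ _ x n hx1 (fun j _ => hne N j) (fun j _ => hne N' j)
    have hs := level_tan_sum hE hI hc hρ0 hρ.le l hl N N' hN' hgap n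
    refine le_trans (le_of_eq ?_) (le_trans hs hx)
    apply sum_congr rfl
    intro j _
    rw [abs_mul, scale_eq, scale_eq]
    rfl
  have h1 := (((PP_tendsto (π * Th t N - π * Th t N')).const_mul (1 / 2)).add
    ((PP_tendsto (π * Th t N + π * Th t N')).const_mul (1 / 2))).sub
      ((PP_tendsto (π * Th t N)).mul (PP_tendsto (π * Th t N'))) |>.abs
  have h2 := ((PP_tendsto (π * Th t N)).mul (PP_tendsto (π * Th t N'))).abs.const_mul (2 * x)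
  exact le_of_tendsto_of_tendsto' h1 h2 hn

theorem gap_bound (t : ℝ) (N₀ N N' : ℕ) (h : N' < N) (hN₀ : N₀ ≤ N') :
    π * |t| * beta ^ N₀ * (beta - 1) ≤ |π * Th t (N : ℤ) - π * Th t (N' : ℤ)| ∧
    π * |t| * beta ^ N₀ * (beta - 1) ≤ |π * Th t (N : ℤ) + π * Th t (N' : ℤ)| := by
  have hb := beta_gt
  have hb2 := beta_lt
  have hb1 : 1 ≤ beta := one_lt_beta.le
  have hpi := pi_pos
  have h0 : 0 ≤ π * |t| := by positivity
  have hp0 : 0 < beta ^ N₀ := pow_pos beta_pos _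
  have hp1 : beta ^ N₀ ≤ beta ^ N' := pow_le_pow_right₀ hb1 hN₀
  have hp2 : beta ^ N' * beta ≤ beta ^ N := by
    rw [← pow_succ]
    exact pow_le_pow_right₀ hb1 h
  have hp3 : 0 < beta ^ N' := pow_pos beta_pos _
  have hp4 : beta ^ N' ≤ beta ^ N := pow_le_pow_right₀ hb1 h.le
  have e1 : π * Th t (N : ℤ) - π * Th t (N' : ℤ) = π * t * (beta ^ N - beta ^ N') := by
    simp only [Th, zpow_natCast]; ring
  have e2 : π * Th t (N : ℤ) + π * Th t (N' : ℤ) = π * t * (beta ^ N + beta ^ N') := by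
    simp only [Th, zpow_natCast]; ring
  have a1 : |π * t * (beta ^ N - beta ^ N')| = π * |t| * (beta ^ N - beta ^ N') := by
    rw [abs_mul, abs_mul, abs_of_pos hpi, abs_of_nonneg (by linarith : 0 ≤ beta ^ N - beta ^ N')]
  have a2 : |π * t * (beta ^ N + beta ^ N')| = π * |t| * (beta ^ N + beta ^ N') := by
    rw [abs_mul, abs_mul, abs_of_pos hpi, abs_of_pos (by positivity : 0 < beta ^ N + beta ^ N')]
  rw [e1, e2, a1, a2, mul_assoc (π * |t|)]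
  constructor
  · apply mul_le_mul_of_nonneg_left _ h0
    nlinarith
  · apply mul_le_mul_of_nonneg_left _ h0
    nlinarith

/-- The frequencies. -/
noncomputable def freq (t : ℝ) (N₀ Z : ℕ) {L : ℕ} (i : Fin L) : ℝ := π * Th t ((N₀ + (i : ℕ) * Z : ℕ) : ℤ)

/-- From a level to a set. -/
theorem level_set {t u : ℝ} {z : ℂ} {J : ℕ} {T ρ c a D : ℝ} (hE : IsElt t u z)
    (hI : Inv t u z J T ρ c a D) (hc : 0 < c) (hρ0 : 0 < ρ) (hρ : 3 * π * ρ < 1) (ha : 0 < a)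
    (l : ℕ) (hl : T * beta ^ (-(l : ℤ)) ≤ ρ) (L N₀ : ℕ) (hL : 0 < L) (hN₀ : J ≤ N₀)
    (hmax : 9 / 2 * π ^ 2 * ρ ^ 2 * ((N₀ + L * (J + l + 1) : ℕ) : ℝ) ≤ 1 / 2)
    (x : ℝ) (hx : 36 * π ^ 2 * ρ ^ 2 * ((N₀ + L * (J + l + 1) : ℕ) : ℝ) + 6 * π * ρ * D + 8 * ρ / c ≤ x)
    (hx1 : x ≤ 1)
    (hgap : 2 * (L : ℝ) ≤ π * |t| * beta ^ N₀ * (beta - 1)) :
    ∃ E : Set ℝ, MeasurableSet E ∧
      bernoulliConvolution beta⁻¹ Eᶜ ≤ ENNReal.ofReal (4 / (L * (a / 2) ^ 2) + 8 * x) ∧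
      volume (E ∩ Icc (-(1 / (1 - beta⁻¹))) (1 / (1 - beta⁻¹))) ≤
        ENNReal.ofReal (4 * (2 * (1 / (1 - beta⁻¹)) + 1) / (L * (a / 2) ^ 2)) := by
  have := bc_isProb beta⁻¹ beta_inv_pos beta_inv_lt_one
  have : Nonempty (Fin L) := ⟨⟨0, hL⟩⟩
  have hB : 0 ≤ 1 / (1 - beta⁻¹) := by
    have := beta_inv_lt_one
    apply div_nonneg zero_le_one
    linarith
  have hx0 : 0 ≤ x := by
    have h1 : 0 ≤ 36 * π ^ 2 * ρ ^ 2 * ((N₀ + L * (J + l + 1) : ℕ) : ℝ) := by positivity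
    have h2 : 0 ≤ 6 * π * ρ * D := by
      have hD0 : 0 ≤ D := by simpa using hI.tan_le 0
      positivity
    have h3 : 0 ≤ 8 * ρ / c := by positivity
    linarith
  have key := test_set (bernoulliConvolution beta⁻¹) (1 / (1 - beta⁻¹)) hB
    (freq t N₀ (J + l + 1) (L := L)) (a / 2) x (by positivity) hx0 ?_ ?_ ?_
  · simpa [Fintype.card_fin] using key
  · -- lower bound
    intro i
    have h1 := phi_lower hE hI ha.le hρ.le (N₀ + (i : ℕ) * (J + l + 1)) (by omega)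
    refine le_trans ?_ h1
    have h2 : ((N₀ + (i : ℕ) * (J + l + 1) : ℕ) : ℝ) ≤ ((N₀ + L * (J + l + 1) : ℕ) : ℝ) := by
      have := Nat.mul_le_mul_right (J + l + 1) i.isLt.le
      exact_mod_cast (by omega : N₀ + (i : ℕ) * (J + l + 1) ≤ N₀ + L * (J + l + 1))
    have h3 : 9 / 2 * π ^ 2 * ρ ^ 2 * ((N₀ + (i : ℕ) * (J + l + 1) : ℕ) : ℝ) ≤ 1 / 2 :=
      le_trans (mul_le_mul_of_nonneg_left h2 (by positivity)) hmax
    nlinarith
  · -- correlation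
    intro i i' hne
    have hNle : ∀ i : Fin L, ((N₀ + (i : ℕ) * (J + l + 1) : ℕ) : ℝ) ≤
        ((N₀ + L * (J + l + 1) : ℕ) : ℝ) := by
      intro i
      have := Nat.mul_le_mul_right (J + l + 1) i.isLt.le
      exact_mod_cast (by omega : N₀ + (i : ℕ) * (J + l + 1) ≤ N₀ + L * (J + l + 1))
    have hxle : ∀ i : Fin L, 36 * π ^ 2 * ρ ^ 2 * ((N₀ + (i : ℕ) * (J + l + 1) : ℕ) : ℝ) +
        6 * π * ρ * D + 8 * ρ / c ≤ x := by
      intro i
      have := mul_le_mul_of_nonneg_left (hNle i) (by positivity : 0 ≤ 36 * π ^ 2 * ρ ^ 2)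
      linarith
    rcases lt_or_gt_of_ne (fun h => hne (Fin.ext h) : (i : ℕ) ≠ (i' : ℕ)) with hlt | hlt
    · have hstep : ((i : ℕ) + 1) * (J + l + 1) ≤ (i' : ℕ) * (J + l + 1) :=
        Nat.mul_le_mul_right _ hlt
      have hsucc : ((i : ℕ) + 1) * (J + l + 1) = (i : ℕ) * (J + l + 1) + (J + l + 1) := by ring
      have := phi_corr hE hI hc hρ0 hρ l hl (N₀ + (i' : ℕ) * (J + l + 1))
        (N₀ + (i : ℕ) * (J + l + 1)) (by omega) (by omega) x (hxle i) hx1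
      have e1 : ∀ p q : ℝ, ∫ y, cos ((p - q) * y) ∂(bernoulliConvolution beta⁻¹) =
          ∫ y, cos ((q - p) * y) ∂(bernoulliConvolution beta⁻¹) := by
        intro p q
        apply integral_congr_ae
        filter_upwards with y
        rw [← cos_neg]
        congr 1
        ring
      simp only [freq]
      rw [e1, add_comm (π * Th t ((N₀ + (i : ℕ) * (J + l + 1) : ℕ) : ℤ)),
        mul_comm (∫ y, cos ((π * Th t ((N₀ + (i : ℕ) * (J + l + 1) : ℕ) : ℤ)) * y) ∂_)]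
      exact this
    · have hstep : ((i' : ℕ) + 1) * (J + l + 1) ≤ (i : ℕ) * (J + l + 1) :=
        Nat.mul_le_mul_right _ hlt
      have hsucc : ((i' : ℕ) + 1) * (J + l + 1) = (i' : ℕ) * (J + l + 1) + (J + l + 1) := by ring
      exact phi_corr hE hI hc hρ0 hρ l hl (N₀ + (i : ℕ) * (J + l + 1))
        (N₀ + (i' : ℕ) * (J + l + 1)) (by omega) (by omega) x (hxle i') hx1
  · -- gaps
    intro i i' hne
    simp only [Fintype.card_fin]
    rcases lt_or_gt_of_ne (fun h => hne (Fin.ext h) : (i : ℕ) ≠ (i' : ℕ)) with hlt | hlt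
    · have hstep : ((i : ℕ) + 1) * (J + l + 1) ≤ (i' : ℕ) * (J + l + 1) :=
        Nat.mul_le_mul_right _ hlt
      have hsucc : ((i : ℕ) + 1) * (J + l + 1) = (i : ℕ) * (J + l + 1) + (J + l + 1) := by ring
      have := gap_bound t N₀ (N₀ + (i' : ℕ) * (J + l + 1)) (N₀ + (i : ℕ) * (J + l + 1))
        (by omega) (by omega)
      simp only [freq]
      rw [abs_sub_comm, add_comm (π * Th t ((N₀ + (i : ℕ) * (J + l + 1) : ℕ) : ℤ))]
      exact ⟨le_trans hgap this.1, le_trans hgap this.2⟩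
    · have hstep : ((i' : ℕ) + 1) * (J + l + 1) ≤ (i : ℕ) * (J + l + 1) :=
        Nat.mul_le_mul_right _ hlt
      have hsucc : ((i' : ℕ) + 1) * (J + l + 1) = (i' : ℕ) * (J + l + 1) + (J + l + 1) := by ring
      have := gap_bound t N₀ (N₀ + (i : ℕ) * (J + l + 1)) (N₀ + (i' : ℕ) * (J + l + 1))
        (by omega) (by omega)
      exact ⟨le_trans hgap this.1, le_trans hgap this.2⟩

theorem Nmax_bound (W ε₁ ρ : ℝ) (L N₀ Z : ℕ) (hWpos : 0 < W) (hρW : ρ * W = 1)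
    (hε₁ : 0 < ε₁)
    (hL1 : (L : ℝ) ≤ ε₁ * W) (hZ : (Z : ℝ) ≤ W) (hN₀W : (N₀ : ℝ) ≤ 2 * W) (hε₁W : 2 ≤ ε₁ * W) :
    ρ ^ 2 * ((N₀ + L * Z : ℕ) : ℝ) ≤ 2 * ε₁ := by
  have hNmax : ((N₀ + L * Z : ℕ) : ℝ) ≤ 2 * ε₁ * W ^ 2 := by
    rw [Nat.cast_add, Nat.cast_mul]
    have h1 : (L : ℝ) * (Z : ℝ) ≤ (ε₁ * W) * W :=
      mul_le_mul hL1 hZ (Nat.cast_nonneg _) (by positivity)
    have h2 : 2 * W ≤ ε₁ * W * W := mul_le_mul_of_nonneg_right hε₁W hWpos.le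
    nlinarith
  have hρ2 : ρ ^ 2 * W ^ 2 = 1 := by
    rw [← mul_pow, hρW, one_pow]
  calc _ ≤ ρ ^ 2 * (2 * ε₁ * W ^ 2) := mul_le_mul_of_nonneg_left hNmax (by positivity)
    _ = 2 * ε₁ * (ρ ^ 2 * W ^ 2) := by ring
    _ = 2 * ε₁ := by rw [hρ2, mul_one]

theorem gap_num (t : ℝ) (M J y L : ℕ) (ht : (1 / 3 : ℝ) ^ M ≤ |t|) (ε₁ : ℝ) (hε₁ : 0 < ε₁)
    (hε₁2 : ε₁ ≤ 1 / 2) (hL1 : (L : ℝ) ≤ ε₁ * beta ^ y) :
    2 * (L : ℝ) ≤ π * |t| * beta ^ (J + y + 2 * M) * (beta - 1) := by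
  have hb := beta_gt
  have hb1 : 1 ≤ beta := one_lt_beta.le
  have hpi3 := pi_gt_three
  have hWpos : 0 < beta ^ y := pow_pos beta_pos _
  have h3 : (3 : ℝ) ^ M ≤ beta ^ (2 * M) := by
    rw [pow_mul]
    apply pow_le_pow_left₀ (by norm_num)
    nlinarith
  have h4 : beta ^ (J + y + 2 * M) = beta ^ J * beta ^ y * beta ^ (2 * M) := by
    rw [pow_add, pow_add]
  have h5 : (1 : ℝ) ≤ beta ^ J := one_le_pow₀ hb1
  have h7 : (1 : ℝ) ≤ beta ^ (2 * M) * (1 / 3) ^ M := by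
    have h8 : (3 : ℝ) ^ M * (1 / 3) ^ M = 1 := by
      rw [← mul_pow]; norm_num
    have h9 := mul_le_mul_of_nonneg_right h3 (by positivity : (0 : ℝ) ≤ (1 / 3) ^ M)
    linarith
  have h12 : beta ^ y ≤ beta ^ (J + y + 2 * M) * |t| := by
    have h13 : beta ^ y * 1 ≤ beta ^ y * (beta ^ (2 * M) * (1 / 3) ^ M) :=
      mul_le_mul_of_nonneg_left h7 hWpos.le
    have h14 : beta ^ y * (beta ^ (2 * M) * (1 / 3) ^ M) ≤ beta ^ (J + y + 2 * M) * (1 / 3) ^ M := by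
      rw [h4]
      have h15 : 0 ≤ beta ^ y * (beta ^ (2 * M) * (1 / 3) ^ M) := by positivity
      nlinarith
    have h16 := mul_le_mul_of_nonneg_left ht (pow_pos beta_pos (J + y + 2 * M)).le
    linarith
  have h13 : 1 ≤ π * (beta - 1) := by nlinarith
  have h14 : 0 ≤ beta ^ (J + y + 2 * M) * |t| := by positivity
  have h15 : 2 * (L : ℝ) ≤ beta ^ y := by nlinarith
  calc 2 * (L : ℝ) ≤ beta ^ y := h15
    _ ≤ beta ^ (J + y + 2 * M) * |t| := h12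
    _ = beta ^ (J + y + 2 * M) * |t| * 1 := by ring
    _ ≤ beta ^ (J + y + 2 * M) * |t| * (π * (beta - 1)) := mul_le_mul_of_nonneg_left h13 h14
    _ = _ := by ring

theorem rhoS_mul (M : ℕ) : rhoS M * beta ^ yS M = 1 := by
  simp only [rhoS]
  rw [inv_pow]
  exact inv_mul_cancel₀ (pow_pos beta_pos _).ne'

theorem lS_bound (M : ℕ) : beta ^ 48 * beta ^ (-((lS M : ℕ) : ℤ)) ≤ rhoS M := by
  have hbz : beta ≠ 0 := beta_pos.ne'
  have : beta ^ 48 * beta ^ (-((lS M : ℕ) : ℤ)) = rhoS M := by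
    simp only [rhoS, lS]
    rw [← zpow_natCast beta 48, ← zpow_add₀ hbz, inv_pow, ← zpow_natCast beta (yS M),
      ← zpow_neg]
    congr 1
    push_cast
    ring
  exact this.le

/-- The numerical conversion of the bounds of the test. -/
theorem den_bound (ε₁ W a : ℝ) (L : ℕ) (hε₁ : 0 < ε₁) (hW : 0 < W) (ha : 0 < a)
    (hL3 : ε₁ * W / 2 ≤ (L : ℝ)) (A : ℝ) (hA : 0 ≤ A) :
    A / ((L : ℝ) * (a / 2) ^ 2) ≤ A / ((ε₁ / 8) * (W * a ^ 2)) := by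
  have hden : (ε₁ / 8) * (W * a ^ 2) ≤ (L : ℝ) * (a / 2) ^ 2 := by
    have h1 : (a / 2) ^ 2 = a ^ 2 / 4 := by ring
    rw [h1]
    have h2 : 0 ≤ a ^ 2 / 4 := by positivity
    have h3 := mul_le_mul_of_nonneg_right hL3 h2
    calc (ε₁ / 8) * (W * a ^ 2) = ε₁ * W / 2 * (a ^ 2 / 4) := by ring
      _ ≤ _ := h3
  have hden0 : 0 < (ε₁ / 8) * (W * a ^ 2) := by positivity
  exact div_le_div_of_nonneg_left hA hden0 hden

/-- The test at level `M`, for parameters in the right range. -/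
theorem level_final {t u : ℝ} {z : ℂ} {a₀ : ℝ} (M : ℕ) (hE : IsElt t u z)
    (ht : (1 / 3 : ℝ) ^ M ≤ |t|)
    (hI : Inv t u z (JS M) (beta ^ 48) (rhoS M) (cS M) (aS a₀ M) (DS M))
    (ha₀ : 0 < a₀) (ε₁ q : ℝ) (hε₁ : 0 < ε₁) (hε₁2 : ε₁ ≤ 1 / 2) (hq : q ≤ 1)
    (hε₁q : 72 * π ^ 2 * ε₁ ≤ q / 3)
    (hW : 2 / ε₁ ≤ beta ^ yS M)
    (hD : 6 * π * (rhoS M * DS M) ≤ q / 3)
    (hρq : 80 * rhoS M ≤ q / 3) (hρ3 : rhoS M ≤ 1 / 100)
    (hW2 : 2 * (M : ℝ) ≤ beta ^ yS M) :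
    ∃ E : Set ℝ, MeasurableSet E ∧
      bernoulliConvolution beta⁻¹ Eᶜ ≤
        ENNReal.ofReal (4 / ((ε₁ / 8) * (beta ^ yS M * (aS a₀ M) ^ 2)) + 8 * q) ∧
      volume (E ∩ Icc (-(1 / (1 - beta⁻¹))) (1 / (1 - beta⁻¹))) ≤
        ENNReal.ofReal (4 * (2 * (1 / (1 - beta⁻¹)) + 1) /
          ((ε₁ / 8) * (beta ^ yS M * (aS a₀ M) ^ 2))) := by
  have hpi := pi_pos
  have hpi4 := pi_lt_d2
  have hWpos : 0 < beta ^ yS M := pow_pos beta_pos _
  have hρpos := rhoS_pos M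
  have ha : 0 < aS a₀ M := aS_pos a₀ ha₀ M
  have hε₁W : 2 ≤ ε₁ * beta ^ yS M := by
    rw [div_le_iff₀ hε₁] at hW
    linarith
  have hcS : 1 / 10 ≤ cS M := by
    simp only [cS]
    linarith [hρpos]
  have hJadd := JS_add_le M
  have hlS : ((lS M : ℕ) : ℝ) = (yS M : ℝ) + 48 := by
    simp [lS]
  rw [hlS] at hJadd
  obtain ⟨L, hL⟩ : ∃ L : ℕ, L = ⌊ε₁ * beta ^ yS M⌋₊ := ⟨_, rfl⟩
  have hL1 : (L : ℝ) ≤ ε₁ * beta ^ yS M := by
    rw [hL]; exact Nat.floor_le (by positivity)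
  have hL2 : ε₁ * beta ^ yS M < (L : ℝ) + 1 := by
    rw [hL]; exact Nat.lt_floor_add_one _
  have hLpos : 0 < L := by
    rw [hL]
    apply Nat.floor_pos.mpr
    linarith
  have hL3 : ε₁ * beta ^ yS M / 2 ≤ (L : ℝ) := by linarith
  have hN₀W : ((JS M + yS M + 2 * M : ℕ) : ℝ) ≤ 2 * beta ^ yS M := by
    push_cast
    linarith
  have hZ : ((JS M + lS M + 1 : ℕ) : ℝ) ≤ beta ^ yS M := by
    push_cast
    rw [hlS]
    linarith
  have hρNmax := Nmax_bound _ ε₁ _ L (JS M + yS M + 2 * M) (JS M + lS M + 1) hWpos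
    (rhoS_mul M) hε₁ hL1 hZ hN₀W hε₁W
  have hq0 : 0 < q := by
    have : 0 < 72 * π ^ 2 * ε₁ := by positivity
    linarith
  have hgap := gap_num t M (JS M) (yS M) L ht ε₁ hε₁ hε₁2 hL1
  have hρ3π : 3 * π * rhoS M < 1 := by nlinarith
  have hc0 : 0 < cS M := by linarith
  have hmax : 9 / 2 * π ^ 2 * rhoS M ^ 2 *
      ((JS M + yS M + 2 * M + L * (JS M + lS M + 1) : ℕ) : ℝ) ≤ 1 / 2 := by
    have h1 : 9 / 2 * π ^ 2 * rhoS M ^ 2 *
        ((JS M + yS M + 2 * M + L * (JS M + lS M + 1) : ℕ) : ℝ) =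
        9 / 2 * π ^ 2 * (rhoS M ^ 2 *
          ((JS M + yS M + 2 * M + L * (JS M + lS M + 1) : ℕ) : ℝ)) := by ring
    rw [h1]
    have h2 := mul_le_mul_of_nonneg_left hρNmax (by positivity : 0 ≤ 9 / 2 * π ^ 2)
    have h3 : 9 / 2 * π ^ 2 * (2 * ε₁) = (72 * π ^ 2 * ε₁) / 8 := by ring
    linarith
  have hxb : 36 * π ^ 2 * rhoS M ^ 2 *
      ((JS M + yS M + 2 * M + L * (JS M + lS M + 1) : ℕ) : ℝ) + 6 * π * rhoS M * DS M +
        8 * rhoS M / cS M ≤ q := by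
    have e1 : 36 * π ^ 2 * rhoS M ^ 2 *
        ((JS M + yS M + 2 * M + L * (JS M + lS M + 1) : ℕ) : ℝ) =
        36 * π ^ 2 * (rhoS M ^ 2 *
          ((JS M + yS M + 2 * M + L * (JS M + lS M + 1) : ℕ) : ℝ)) := by ring
    have e2 := mul_le_mul_of_nonneg_left hρNmax (by positivity : 0 ≤ 36 * π ^ 2)
    have e3 : 8 * rhoS M / cS M ≤ 80 * rhoS M := by
      rw [div_le_iff₀ hc0]
      nlinarith
    have e4 : 6 * π * rhoS M * DS M = 6 * π * (rhoS M * DS M) := by ring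
    have e5 : 36 * π ^ 2 * (2 * ε₁) = 72 * π ^ 2 * ε₁ := by ring
    rw [e1, e4]
    linarith
  obtain ⟨E, hEm, hE1, hE2⟩ := level_set hE hI hc0 hρpos hρ3π ha (lS M) (lS_bound M) L
    (JS M + yS M + 2 * M) hLpos (by omega) hmax q hxb hq hgap
  refine ⟨E, hEm, le_trans hE1 (ENNReal.ofReal_le_ofReal ?_),
    le_trans hE2 (ENNReal.ofReal_le_ofReal ?_)⟩
  · have := den_bound ε₁ _ _ L hε₁ hWpos ha hL3 4 (by norm_num)
    linarith
  · apply den_bound ε₁ _ _ L hε₁ hWpos ha hL3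
    have hB : 0 ≤ 1 / (1 - beta⁻¹) := by
      have := beta_inv_lt_one
      apply div_nonneg zero_le_one
      linarith
    positivity

/-- The main theorem: `ν_{1/β}` is singular. -/
theorem bc_singular : (bernoulliConvolution beta⁻¹).MutuallySingular volume := by
  obtain ⟨t₀, u₀, z₀, a₀, ha₀, ha₀1, hE₀, ht₀, hI₀⟩ := base_elt
  apply singular_of_sets _ (1 / (1 - beta⁻¹))
    (bc_support beta⁻¹ beta_inv_pos beta_inv_lt_one)
  intro ε hε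
  set B : ℝ := 1 / (1 - beta⁻¹) with hB
  have hB0 : 0 ≤ B := by
    have := beta_inv_lt_one
    apply div_nonneg zero_le_one
    linarith
  have hpi := pi_pos
  set q : ℝ := min 1 (ε / 16) with hq
  have hq0 : 0 < q := lt_min one_pos (by positivity)
  have hq1 : q ≤ 1 := min_le_left _ _
  have hq2 : q ≤ ε / 16 := min_le_right _ _
  set ε₁ : ℝ := min (1 / 2) (q / (216 * π ^ 2)) with hε₁
  have hε₁0 : 0 < ε₁ := lt_min (by norm_num) (by positivity)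
  have hε₁2 : ε₁ ≤ 1 / 2 := min_le_left _ _
  have hε₁q : 72 * π ^ 2 * ε₁ ≤ q / 3 := by
    have h1 : ε₁ ≤ q / (216 * π ^ 2) := min_le_right _ _
    have h2 := mul_le_mul_of_nonneg_left h1 (by positivity : 0 ≤ 72 * π ^ 2)
    have h3 : 72 * π ^ 2 * (q / (216 * π ^ 2)) = q / 3 := by
      field_simp
      norm_num
    linarith
  set C : ℝ := 32 * (2 * B + 3) / (ε₁ * ε) with hC
  have hW : Tendsto (fun m : ℕ => beta ^ yS (m + 1)) atTop atTop :=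
    (tendsto_pow_atTop_atTop_of_one_lt one_lt_beta).comp
      (yS_tendsto.comp (tendsto_add_atTop_nat 1))
  have hmerit : Tendsto (fun m : ℕ => beta ^ yS (m + 1) * (aS a₀ (m + 1)) ^ 2) atTop atTop :=
    (merit_tendsto a₀ ha₀ ha₀1).comp (tendsto_add_atTop_nat 1)
  have hgeo : Tendsto (fun m : ℕ => (1 / 2 : ℝ) ^ m) atTop (𝓝 0) :=
    tendsto_pow_atTop_nhds_zero_of_lt_one (by norm_num) (by norm_num)
  have e1 : ∀ᶠ m : ℕ in atTop, 2 / ε₁ ≤ beta ^ yS (m + 1) := hW.eventually_ge_atTop _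
  have e2 : ∀ᶠ m : ℕ in atTop, C ≤ beta ^ yS (m + 1) * (aS a₀ (m + 1)) ^ 2 :=
    hmerit.eventually_ge_atTop _
  have e3 : ∀ᶠ m : ℕ in atTop, (1 / 2 : ℝ) ^ m < min (q / (3 * 100)) (1 / 100) := by
    apply hgeo.eventually_lt_const
    exact lt_min (by positivity) (by norm_num)
  have e4 : ∀ᶠ m : ℕ in atTop, (1 : ℝ) ≤ m := by
    filter_upwards [eventually_ge_atTop 1] with m hm
    exact_mod_cast hm
  obtain ⟨m, h1, h2, h3, h4⟩ := (e1.and (e2.and (e3.and e4))).exists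
  obtain ⟨t, u, z, hE, ht, hI⟩ := level_exists a₀ t₀ u₀ z₀ ha₀ hE₀ ht₀ hI₀ (m + 1)
  have h31 : (1 / 2 : ℝ) ^ m < q / (3 * 100) := lt_of_lt_of_le h3 (min_le_left _ _)
  have h32 : (1 / 2 : ℝ) ^ m < 1 / 100 := lt_of_lt_of_le h3 (min_le_right _ _)
  have hρ1 : rhoS (m + 1) ≤ (1 / 2 : ℝ) ^ m := by
    refine le_trans (rhoS_le (m + 1)) ?_
    apply pow_le_pow_of_le_one (by norm_num) (by norm_num)
    omega
  have hD1 := rhoS_DS_le m
  have hWM : 2 * ((m + 1 : ℕ) : ℝ) ≤ beta ^ yS (m + 1) := by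
    have h5 := rhoS_mul (m + 1)
    have h6 := rhoS_le (m + 1)
    have h7 : (0 : ℝ) < beta ^ yS (m + 1) := pow_pos beta_pos _
    have h8 : (1 / 2 : ℝ) ^ (m + 1 + 10) * 2 ^ (m + 1 + 10) = 1 := by
      rw [← mul_pow]; norm_num
    have h9 : (2 : ℝ) ^ (m + 1 + 10) ≤ beta ^ yS (m + 1) := by
      have h10 : 0 < (2 : ℝ) ^ (m + 1 + 10) := by positivity
      have h11 : 1 ≤ (1 / 2 : ℝ) ^ (m + 1 + 10) * beta ^ yS (m + 1) := by
        have h16 := mul_le_mul_of_nonneg_right h6 h7.le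
        linarith
      calc (2 : ℝ) ^ (m + 1 + 10) = (2 : ℝ) ^ (m + 1 + 10) * 1 := by ring
        _ ≤ (2 : ℝ) ^ (m + 1 + 10) * ((1 / 2 : ℝ) ^ (m + 1 + 10) * beta ^ yS (m + 1)) :=
          mul_le_mul_of_nonneg_left h11 h10.le
        _ = ((1 / 2 : ℝ) ^ (m + 1 + 10) * 2 ^ (m + 1 + 10)) * beta ^ yS (m + 1) := by ring
        _ = _ := by rw [h8, one_mul]
    have h12 : ((m + 1 : ℕ) : ℝ) + 1 ≤ 2 ^ (m + 1) := by
      exact_mod_cast Nat.lt_two_pow_self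
    have h13 : (2 : ℝ) ^ (m + 1 + 10) = 2 ^ (m + 1) * 2 ^ 10 := pow_add _ _ _
    have h14 : (0 : ℝ) < 2 ^ (m + 1) := by positivity
    have h15 : (0 : ℝ) ≤ ((m + 1 : ℕ) : ℝ) := Nat.cast_nonneg _
    nlinarith
  obtain ⟨E, hEm, hE1, hE2⟩ := level_final (m + 1) hE ht hI ha₀ ε₁ q hε₁0 hε₁2 hq1 hε₁q h1
    (by
      have h6 : 6 * π * (rhoS (m + 1) * DS (m + 1)) ≤ 6 * π * (4 * (1 / 2) ^ m) :=
        mul_le_mul_of_nonneg_left hD1 (by positivity)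
      have := pi_lt_d2
      have h7 : (0 : ℝ) < (1 / 2) ^ m := by positivity
      nlinarith)
    (by nlinarith) (by nlinarith) hWM
  have hden : 0 < C := by positivity
  have hden2 : (ε₁ / 8) * C ≤ (ε₁ / 8) * (beta ^ yS (m + 1) * (aS a₀ (m + 1)) ^ 2) :=
    mul_le_mul_of_nonneg_left h2 (by positivity)
  have hden3 : 0 < (ε₁ / 8) * C := by positivity
  have hCval : (ε₁ / 8) * C = 4 * (2 * B + 3) / ε := by
    rw [hC]
    field_simp
    norm_num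
  refine ⟨E, hEm, le_trans hE1 (ENNReal.ofReal_le_ofReal ?_), le_trans hE2 (ENNReal.ofReal_le_ofReal ?_)⟩
  · have h5 := div_le_div_of_nonneg_left (by norm_num : (0 : ℝ) ≤ 4) hden3 hden2
    have h6 : 4 / ((ε₁ / 8) * C) ≤ ε / 2 := by
      rw [hCval, div_div_eq_mul_div, div_le_iff₀ (by positivity)]
      nlinarith
    linarith
  · have h5 := div_le_div_of_nonneg_left (by positivity : 0 ≤ 4 * (2 * B + 1)) hden3 hden2
    have h6 : 4 * (2 * B + 1) / ((ε₁ / 8) * C) ≤ ε := by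
      rw [hCval, div_div_eq_mul_div, div_le_iff₀ (by positivity)]
      nlinarith
    linarith

end Vale.Agent.Lib.P105
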