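import Vale.Agent.Lib.P105.Numbers

/-!
`beta` is not a Pisot number: `omega` is a conjugate on the unit circle.
-/

open Polynomial

namespace Vale.Agent.Lib.P105

/-- The minimal polynomial of `beta`, over the integers. -/
noncomputable def fZ : ℤ[X] := X ^ 4 - 2 * X ^ 3 + X ^ 2 - 2 * X + 1

lemma fZ_natDegree : fZ.natDegree = 4 := by
  unfold fZ
  compute_degree!

lemma fZ_monic : fZ.Monic := by
  unfold fZ
  monicity!

lemma fZ_coeff_zero : fZ.coeff 0 = 1 := by
  unfold fZ
  simp [coeff_X_pow, coeff_X, coeff_one]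

lemma fZ_coeff_one : fZ.coeff 1 = -2 := by
  unfold fZ
  simp [coeff_X_pow, coeff_X, coeff_one]

lemma fZ_coeff_two : fZ.coeff 2 = 1 := by
  unfold fZ
  simp [coeff_X_pow, coeff_X, coeff_one]

lemma fZ_coeff_three : fZ.coeff 3 = -2 := by
  unfold fZ
  simp [coeff_X_pow, coeff_X, coeff_one]

lemma fZ_irreducible : Irreducible fZ := by
  rw [fZ_monic.irreducible_iff_natDegree']
  refine ⟨?_, ?_⟩
  · intro h
    have := fZ_natDegree
    rw [h] at this
    simp at this
  intro g h hg hh hgh
  rw [fZ_natDegree]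
  intro hmem
  have hdeg : g.natDegree + h.natDegree = 4 := by
    rw [← hg.natDegree_mul hh, hgh, fZ_natDegree]
  have hcases : h.natDegree = 1 ∨ h.natDegree = 2 := by
    have h1 := (Finset.mem_Ioc.mp hmem).1
    have h2 := (Finset.mem_Ioc.mp hmem).2
    norm_num at h2
    omega
  rcases hcases with h1 | h2
  · -- a linear factor: an integer root, which is a unit
    have hX := hh.eq_X_add_C h1
    set b := h.coeff 0 with hb
    have hroot : fZ.eval (-b) = 0 := by
      rw [← hgh, eval_mul, hX]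
      simp
    have hval : b ^ 4 + 2 * b ^ 3 + b ^ 2 + 2 * b + 1 = 0 := by
      unfold fZ at hroot
      simp at hroot
      linarith
    have hdvd : b * (b ^ 3 + 2 * b ^ 2 + b + 2) = -1 := by linarith
    rcases Int.eq_one_or_neg_one_of_mul_eq_neg_one hdvd with hb1 | hb1
    · rw [hb1] at hval
      norm_num at hval
    · rw [hb1] at hval
      norm_num at hval
  · -- two quadratic factors
    have h3 : g.natDegree = 2 := by omega
    have g2 : g.coeff 2 = 1 := by rw [← h3]; exact hg.coeff_natDegree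
    have h2' : h.coeff 2 = 1 := by rw [← h2]; exact hh.coeff_natDegree
    have g3 : g.coeff 3 = 0 := coeff_eq_zero_of_natDegree_lt (by omega)
    have h3' : h.coeff 3 = 0 := coeff_eq_zero_of_natDegree_lt (by omega)
    have c0 : g.coeff 0 * h.coeff 0 = 1 := by
      rw [← fZ_coeff_zero, ← hgh, mul_coeff_zero]
    have c1 : g.coeff 0 * h.coeff 1 + g.coeff 1 * h.coeff 0 = -2 := by
      rw [← fZ_coeff_one, ← hgh, coeff_mul]
      simp [Finset.Nat.antidiagonal_succ]
    have c2 : g.coeff 0 * h.coeff 2 + g.coeff 1 * h.coeff 1 + g.coeff 2 * h.coeff 0 = 1 := by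
      rw [← fZ_coeff_two, ← hgh, coeff_mul]
      simp [Finset.Nat.antidiagonal_succ]
      ring
    have c3 : g.coeff 0 * h.coeff 3 + g.coeff 1 * h.coeff 2 + g.coeff 2 * h.coeff 1
        + g.coeff 3 * h.coeff 0 = -2 := by
      rw [← fZ_coeff_three, ← hgh, coeff_mul]
      simp [Finset.Nat.antidiagonal_succ]
      ring
    rw [g2, h2'] at c2
    rw [g2, g3, h2', h3'] at c3
    set a := g.coeff 0
    set a' := g.coeff 1
    set e := h.coeff 0
    set e' := h.coeff 1
    have hsum : a' + e' = -2 := by linarith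
    rcases Int.eq_one_or_neg_one_of_mul_eq_one c0 with ha | ha
    · have he : e = 1 := by rw [ha] at c0; linarith
      rw [ha, he] at c2
      have hprod : a' * e' = -1 := by linarith
      rcases Int.eq_one_or_neg_one_of_mul_eq_neg_one hprod with hx | hx
      · rw [hx] at hprod hsum; linarith
      · rw [hx] at hprod hsum; linarith
    · have he : e = -1 := by rw [ha] at c0; linarith
      rw [ha, he] at c1
      linarith

/-- The rational form of the polynomial. -/
lemma fQ_eq_minpoly_aux (hroot : aeval beta fZ = 0) :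
    fZ.map (Int.castRingHom ℚ) = minpoly ℚ beta := by
  apply minpoly.eq_of_irreducible_of_monic
  · exact (IsPrimitive.Int.irreducible_iff_irreducible_map_cast fZ_monic.isPrimitive).mp
      fZ_irreducible
  · have : aeval beta (fZ.map (Int.castRingHom ℚ)) = aeval beta fZ :=
      aeval_map_algebraMap ℚ beta fZ
    rw [this]
    exact hroot
  · exact fZ_monic.map _

lemma aeval_fZ_complex (w : ℂ) :
    aeval w fZ = w ^ 4 - 2 * w ^ 3 + w ^ 2 - 2 * w + 1 := by
  simp only [fZ, map_add, map_sub, map_mul, map_pow, aeval_X, map_one, map_ofNat]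

lemma aeval_fZ_real (w : ℝ) :
    aeval w fZ = w ^ 4 - 2 * w ^ 3 + w ^ 2 - 2 * w + 1 := by
  simp only [fZ, map_add, map_sub, map_mul, map_pow, aeval_X, map_one, map_ofNat]

lemma aeval_beta : aeval beta fZ = 0 := by
  rw [aeval_fZ_real]
  have h := beta_add_inv
  have hb := beta_pos
  have hs : √2 ^ 2 = 2 := sq_sqrt2
  have hb' : beta * beta⁻¹ = 1 := mul_inv_cancel₀ hb.ne'
  -- `β⁴ - 2β³ + β² - 2β + 1 = β² (τ² - 2τ - 1)` with `τ = β + 1/β`
  have h1 : beta ^ 4 - 2 * beta ^ 3 + beta ^ 2 - 2 * beta + 1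
      = beta ^ 2 * ((beta + beta⁻¹) ^ 2 - 2 * (beta + beta⁻¹) - 1) := by
    field_simp
    ring
  rw [h1, h]
  have : (1 + √2) ^ 2 - 2 * (1 + √2) - 1 = 0 := by nlinarith
  rw [this, mul_zero]

lemma aeval_omega : aeval omega fZ = 0 := by
  rw [aeval_fZ_complex]
  have h := omega_add_inv
  have hb := omega_ne_zero
  have hs : ((√2 : ℝ) : ℂ) ^ 2 = 2 := by
    rw [← Complex.ofReal_pow, sq_sqrt2]
    norm_num
  have h1 : omega ^ 4 - 2 * omega ^ 3 + omega ^ 2 - 2 * omega + 1
      = omega ^ 2 * ((omega + omega⁻¹) ^ 2 - 2 * (omega + omega⁻¹) - 1) := by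
    field_simp
    ring
  rw [h1, h]
  have : (((1 - √2 : ℝ) : ℂ)) ^ 2 - 2 * ((1 - √2 : ℝ) : ℂ) - 1 = 0 := by
    push_cast
    linear_combination hs
  rw [this, mul_zero]

theorem beta_not_pisot : ¬ IsPisot beta := by
  rintro ⟨-, -, h⟩
  have hmin := fQ_eq_minpoly_aux aeval_beta
  have h0 : aeval omega (minpoly ℚ beta) = 0 := by
    rw [← hmin]
    have : aeval omega (fZ.map (Int.castRingHom ℚ)) = aeval omega fZ :=
      aeval_map_algebraMap ℚ omega fZ
    rw [this]
    exact aeval_omega
  have hne : omega ≠ (beta : ℂ) := by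
    intro he
    have h1 := norm_omega
    rw [he, Complex.norm_real, Real.norm_eq_abs, abs_of_pos beta_pos] at h1
    have := one_lt_beta
    linarith
  have := h omega h0 hne
  rw [norm_omega] at this
  exact lt_irrefl _ this

end Vale.Agent.Lib.P105
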