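import Vale.Agent.Lib.P105.Basic

/-!
Facts about the numbers `beta` and `omega`: the only facts on them used by the core argument.
-/

open Real

namespace Vale.Agent.Lib.P105

/-- The conjugate of `beta` on the unit circle: `ω + 1/ω = 1 - √2`. -/
noncomputable def omega : ℂ :=
  (((1 - √2) / 2 : ℝ) : ℂ) + ((√(1 - ((1 - √2) / 2) ^ 2) : ℝ) : ℂ) * Complex.I

lemma sqrt2_bounds : (1.41421356 : ℝ) < √2 ∧ √2 < 1.41421357 := by
  constructor
  · apply Real.lt_sqrt_of_sq_lt
    norm_num
  · rw [Real.sqrt_lt' (by norm_num)]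
    norm_num

lemma two_sqrt_sub_pos : 0 < 2 * √2 - 1 := by
  have := sqrt2_bounds.1
  linarith

lemma sq_sqrt2 : √2 ^ 2 = 2 := Real.sq_sqrt (by norm_num)

lemma sq_s : √(2 * √2 - 1) ^ 2 = 2 * √2 - 1 := Real.sq_sqrt two_sqrt_sub_pos.le

theorem beta_add_inv : beta + beta⁻¹ = 1 + √2 := by
  have h1 := sq_sqrt2
  have h2 := sq_s
  set s := √(2 * √2 - 1) with hs
  have hs0 : 0 ≤ s := Real.sqrt_nonneg _
  have h3 := sqrt2_bounds.1
  have hb : 0 < beta := by
    unfold beta
    rw [← hs]
    positivity
  have hbeta : beta * ((1 + √2 - s) / 2) = 1 := by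
    unfold beta
    rw [← hs]
    nlinarith
  have hinv : beta⁻¹ = (1 + √2 - s) / 2 := by
    field_simp
    field_simp at hbeta
    linarith
  rw [hinv]
  unfold beta
  rw [← hs]
  ring

theorem beta_gt : (15 : ℝ) / 8 < beta := by
  have h1 := sqrt2_bounds.1
  unfold beta
  have h2 : (1.352 : ℝ) < √(2 * √2 - 1) := by
    apply Real.lt_sqrt_of_sq_lt
    norm_num
    linarith
  linarith

theorem beta_lt : beta < 19 / 10 := by
  have h1 := sqrt2_bounds.2
  unfold beta
  have h2 : √(2 * √2 - 1) < (1.353 : ℝ) := by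
    rw [Real.sqrt_lt' (by norm_num)]
    norm_num
    linarith
  linarith

theorem one_lt_beta : 1 < beta := by
  have := beta_gt; linarith

theorem beta_pos : 0 < beta := by
  have := beta_gt; linarith

lemma omega_aux_nonneg : 0 ≤ 1 - ((1 - √2) / 2) ^ 2 := by
  have h1 := sqrt2_bounds.1
  have h2 := sqrt2_bounds.2
  nlinarith

theorem norm_omega : ‖omega‖ = 1 := by
  unfold omega
  rw [Complex.norm_add_mul_I, Real.sq_sqrt omega_aux_nonneg]
  have : ((1 - √2) / 2) ^ 2 + (1 - ((1 - √2) / 2) ^ 2) = 1 := by ring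
  rw [this, Real.sqrt_one]

theorem omega_ne_zero : omega ≠ 0 := by
  intro h
  have := norm_omega
  rw [h, norm_zero] at this
  exact zero_ne_one this

theorem omega_add_inv : omega + omega⁻¹ = ((1 - √2 : ℝ) : ℂ) := by
  have hn : Complex.normSq omega = 1 := by
    rw [Complex.normSq_eq_norm_sq, norm_omega]
    norm_num
  rw [Complex.inv_def, hn, inv_one, Complex.ofReal_one, mul_one, Complex.add_conj]
  unfold omega
  apply Complex.ext
  · simp
    ring
  · simp

/-- The function `r + 1 / r` is increasing on `[1, ∞)`: lower bounds for `beta`. -/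
lemma le_beta_of {r : ℝ} (hr : 1 ≤ r) (h : r + r⁻¹ ≤ 1 + √2) : r ≤ beta := by
  by_contra hcon
  push Not at hcon
  have h1 := beta_add_inv
  have hb := one_lt_beta
  have hr0 : 0 < r := by linarith
  have hb0 : 0 < beta := by linarith
  have h2 : beta⁻¹ - r⁻¹ = (r - beta) / (r * beta) := by
    field_simp
  have h3 : (r - beta) / (r * beta) < r - beta := by
    apply div_lt_self (by linarith)
    nlinarith
  linarith

/-- Upper bounds for `beta`. -/
lemma beta_le_of {r : ℝ} (hr : 1 ≤ r) (h : 1 + √2 ≤ r + r⁻¹) : beta ≤ r := by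
  by_contra hcon
  push Not at hcon
  have h1 := beta_add_inv
  have hr0 : 0 < r := by linarith
  have hb0 : 0 < beta := by linarith
  have h2 : r⁻¹ - beta⁻¹ = (beta - r) / (beta * r) := by
    field_simp
  have h3 : (beta - r) / (beta * r) < beta - r := by
    apply div_lt_self (by linarith)
    nlinarith
  linarith

lemma sqrt2_lo40 : (1.414213562373095048801688724209698078569 : ℝ) < √2 := by
  apply Real.lt_sqrt_of_sq_lt
  norm_num

lemma sqrt2_hi40 : √2 < (1.414213562373095048801688724209698078570 : ℝ) := by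
  rw [Real.sqrt_lt' (by norm_num)]
  norm_num

/-- A 30 digit lower bound for `beta`. -/
theorem beta_lo : (1.883203505913525864168947465362 : ℝ) ≤ beta := by
  apply le_beta_of (by norm_num)
  have := sqrt2_lo40
  norm_num at this ⊢
  linarith

/-- A 30 digit upper bound for `beta`. -/
theorem beta_hi : beta ≤ (1.883203505913525864168947465363 : ℝ) := by
  apply beta_le_of (by norm_num)
  have := sqrt2_hi40
  norm_num at this ⊢
  linarith

end Vale.Agent.Lib.P105
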