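import Vale.Agent.Lib.P105.Step
import Vale.Agent.Lib.P105.Dioph
import Vale.Agent.Lib.P105.Base

/-!
The a priori sequences of parameters and the existence of elements at all levels.
-/

open Real Finset Filter Topology

namespace Vale.Agent.Lib.P105

/-- Exponent of the scale: `ρ_m = β^(-y_m)`. -/
def yS : ℕ → ℕ
  | 0 => 50
  | m + 1 => yS m + (yS m + yS m / 4)

def eS (m : ℕ) : ℕ := yS m + yS m / 4

def vS (m : ℕ) : ℕ := yS m + yS m / 2 + yS m / 4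

noncomputable def KS (m : ℕ) : ℕ := ⌊beta ^ vS m⌋₊

def lS (m : ℕ) : ℕ := yS m + 48

noncomputable def hS (m : ℕ) : ℕ := hit (KS m)

/-- The next `k` from the current `J`: the least multiple of `hS m` that is `≥ J + lS m + 1`. -/
noncomputable def kOf (m J : ℕ) : ℕ := ((J + lS m + 1 + hS m - 1) / hS m) * hS m

noncomputable def JS : ℕ → ℕ
  | 0 => 98
  | m + 1 => kOf m (JS m) + JS m + eS m

noncomputable def kS (m : ℕ) : ℕ := kOf m (JS m)

noncomputable def rhoS (m : ℕ) : ℝ := beta⁻¹ ^ yS m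

noncomputable def cS (m : ℕ) : ℝ := 1 / 10 + 10 * rhoS m

noncomputable def aS (a₀ : ℝ) : ℕ → ℝ
  | 0 => a₀
  | m + 1 => (aS a₀ m) ^ 2 / 2

noncomputable def DS : ℕ → ℝ
  | 0 => 2000
  | m + 1 => 4 / rhoS m

/-! ### Arithmetic of the exponents -/

lemma yS_succ (m : ℕ) : yS (m + 1) = yS m + eS m := rfl

lemma yS_ge (m : ℕ) : 50 ≤ yS m := by
  induction m with
  | zero => exact le_rfl
  | succ m ih => rw [yS]; omega

lemma yS_ge_mul (m : ℕ) : 50 * (m + 1) ≤ yS m := by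
  induction m with
  | zero => exact le_rfl
  | succ m ih =>
    have h := yS_ge m
    rw [yS]; omega

lemma eS_ge (m : ℕ) : yS m ≤ eS m := by unfold eS; omega

lemma eS_le (m : ℕ) : eS m ≤ 2 * yS m := by unfold eS; omega

lemma vS_eq (m : ℕ) : vS m = eS m + yS m / 2 := by unfold vS eS; omega

lemma vS_ge (m : ℕ) : yS m ≤ vS m := by unfold vS; omega

lemma vS_add (m : ℕ) : vS m + 13 ≤ 2 * yS m := by
  have := yS_ge m
  unfold vS; omega

lemma vS_succ (m : ℕ) : vS m + 25 ≤ yS (m + 1) := by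
  have := yS_ge m
  rw [yS]; unfold vS; omega

lemma yS_le_succ (m : ℕ) : yS m ≤ yS (m + 1) := by
  rw [yS]; omega

lemma vS_le_succ (m : ℕ) : vS m ≤ vS (m + 1) := by
  have h := yS_le_succ m
  have h2 := yS_ge m
  rw [yS] at h
  unfold vS
  rw [yS]
  omega

/-! ### Numerics of `β` -/

lemma lam_le : beta⁻¹ ≤ 8 / 15 := by
  have h : beta⁻¹ ≤ (15 / 8 : ℝ)⁻¹ := inv_anti₀ (by norm_num) beta_gt.le
  norm_num at h
  linarith

lemma lam_pos : 0 < beta⁻¹ := inv_pos.2 beta_pos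

lemma lam_le_one : beta⁻¹ ≤ 1 := by
  have := lam_le; linarith

lemma lam_pow_le (n : ℕ) : beta⁻¹ ^ n ≤ (8 / 15) ^ n :=
  pow_le_pow_left₀ lam_pos.le lam_le n

lemma beta_pow_ge (n : ℕ) : (15 / 8 : ℝ) ^ n ≤ beta ^ n :=
  pow_le_pow_left₀ (by norm_num) beta_gt.le n

lemma lam_pow_mul_beta_pow (n : ℕ) : beta⁻¹ ^ n * beta ^ n = 1 := by
  rw [← mul_pow, inv_mul_cancel₀ beta_pos.ne', one_pow]

lemma beta_pow_mono {a b : ℕ} (h : a ≤ b) : beta ^ a ≤ beta ^ b :=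
  pow_le_pow_right₀ one_lt_beta.le h

lemma pow_big_one (n : ℕ) (hn : 25 ≤ n) : (139 : ℝ) * (2 * n + 1) ≤ (15 / 8) ^ n := by
  induction n, hn using Nat.le_induction with
  | base => norm_num
  | succ n hn ih =>
    have hn' : (25 : ℝ) ≤ n := by exact_mod_cast hn
    rw [pow_succ]
    push_cast
    nlinarith

lemma pow_big_two (n : ℕ) (hn : 50 ≤ n) : (5 : ℝ) * n + 50 ≤ (15 / 8) ^ n := by
  induction n, hn using Nat.le_induction with
  | base => norm_num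
  | succ n hn ih =>
    have hn' : (50 : ℝ) ≤ n := by exact_mod_cast hn
    rw [pow_succ]
    push_cast
    nlinarith

/-- `139 y ≤ β^(y/2)` for `y ≥ 50`. -/
lemma dirichlet_num (y : ℕ) (hy : 50 ≤ y) : (139 : ℝ) * y ≤ beta ^ (y / 2) := by
  have h1 := pow_big_one (y / 2) (by omega)
  have h2 := beta_pow_ge (y / 2)
  have h3 : (y : ℝ) ≤ 2 * ((y / 2 : ℕ) : ℝ) + 1 := by
    have : y ≤ 2 * (y / 2) + 1 := by omega
    exact_mod_cast this
  linarith

lemma y_bound (y : ℕ) (hy : 50 ≤ y) : (5 : ℝ) * y + 50 ≤ beta ^ y :=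
  (pow_big_two y hy).trans (beta_pow_ge y)

/-! ### Properties of `ρ` -/

lemma rhoS_pos (m : ℕ) : 0 < rhoS m := pow_pos lam_pos _

lemma rhoS_mul_beta (m : ℕ) : rhoS m * beta ^ yS m = 1 := lam_pow_mul_beta_pow _

lemma rhoS_small (m : ℕ) : rhoS m ≤ 1 / 10 ^ 13 := by
  have h1 : rhoS m ≤ beta⁻¹ ^ 50 :=
    pow_le_pow_of_le_one lam_pos.le lam_le_one (yS_ge m)
  have h2 := lam_pow_le 50
  have h3 : (8 / 15 : ℝ) ^ 50 ≤ 1 / 10 ^ 13 := by norm_num
  linarith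

lemma rhoS_succ (m : ℕ) : rhoS (m + 1) = beta⁻¹ ^ eS m * rhoS m := by
  unfold rhoS
  rw [yS_succ, pow_add, mul_comm]

lemma lam_eS_small (m : ℕ) : beta⁻¹ ^ eS m ≤ 1 / 10 ^ 13 := by
  have h1 : beta⁻¹ ^ eS m ≤ beta⁻¹ ^ 50 :=
    pow_le_pow_of_le_one lam_pos.le lam_le_one ((yS_ge m).trans (eS_ge m))
  have h2 := lam_pow_le 50
  have h3 : (8 / 15 : ℝ) ^ 50 ≤ 1 / 10 ^ 13 := by norm_num
  linarith

lemma rhoS_DS_small (m : ℕ) : rhoS m * DS m ≤ 1 / 200 := by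
  cases m with
  | zero =>
    have h : rhoS 0 ≤ 1 / 10 ^ 13 := rhoS_small 0
    have : DS 0 = 2000 := rfl
    rw [this]
    norm_num at h ⊢
    linarith
  | succ m =>
    have h : DS (m + 1) = 4 / rhoS m := rfl
    rw [h, rhoS_succ]
    have hρ := rhoS_pos m
    have : beta⁻¹ ^ eS m * rhoS m * (4 / rhoS m) = 4 * beta⁻¹ ^ eS m := by
      field_simp
    rw [this]
    have := lam_eS_small m
    norm_num at this ⊢
    linarith

theorem rhoS_le (m : ℕ) : rhoS m ≤ (1 / 2) ^ (m + 10) := by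
  have hy := yS_ge_mul m
  have h1 := lam_pow_le (yS m)
  have h2 : (8 / 15 : ℝ) ^ yS m ≤ (8 / 15 : ℝ) ^ (2 * (m + 10)) :=
    pow_le_pow_of_le_one (by norm_num) (by norm_num) (by omega)
  have h3 : (8 / 15 : ℝ) ^ (2 * (m + 10)) ≤ (1 / 2) ^ (m + 10) := by
    rw [pow_mul]
    exact pow_le_pow_left₀ (by norm_num) (by norm_num) _
  unfold rhoS
  linarith

theorem rhoS_DS_le (m : ℕ) : rhoS (m + 1) * DS (m + 1) ≤ 4 * (1 / 2) ^ m := by
  have h : DS (m + 1) = 4 / rhoS m := rfl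
  rw [h, rhoS_succ]
  have hρ := rhoS_pos m
  have : beta⁻¹ ^ eS m * rhoS m * (4 / rhoS m) = 4 * beta⁻¹ ^ eS m := by
    field_simp
  rw [this]
  have hy := yS_ge_mul m
  have he := eS_ge m
  have h1 := lam_pow_le (eS m)
  have h2 : (8 / 15 : ℝ) ^ eS m ≤ (8 / 15 : ℝ) ^ (2 * m) :=
    pow_le_pow_of_le_one (by norm_num) (by norm_num) (by omega)
  have h3 : (8 / 15 : ℝ) ^ (2 * m) ≤ (1 / 2) ^ m := by
    rw [pow_mul]
    exact pow_le_pow_left₀ (by norm_num) (by norm_num) _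
  linarith

theorem aS_pos (a₀ : ℝ) (ha : 0 < a₀) (m : ℕ) : 0 < aS a₀ m := by
  induction m with
  | zero => exact ha
  | succ m ih => rw [aS]; positivity

/-! ### The functions `K`, `h`, `k` -/

lemma KS_le (m : ℕ) : (KS m : ℝ) ≤ beta ^ vS m :=
  Nat.floor_le (pow_pos beta_pos _).le

lemma lt_KS_add_one (m : ℕ) : beta ^ vS m < KS m + 1 :=
  Nat.lt_floor_add_one _

lemma KS_pos (m : ℕ) : 1 ≤ KS m := by
  apply Nat.le_floor
  simpa using one_le_pow₀ one_lt_beta.le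

lemma KS_mono (m : ℕ) : KS m ≤ KS (m + 1) :=
  Nat.floor_le_floor (beta_pow_mono (vS_le_succ m))

lemma hS_pos (m : ℕ) : 1 ≤ hS m := hit_pos _

lemma hS_le (m : ℕ) : hS m ≤ KS m := hit_le _ (KS_pos m)

lemma hS_mono (m : ℕ) : hS m ≤ hS (m + 1) := hit_mono (KS_mono m)

/-- The multiplier `n` in `k = n h`. -/
noncomputable def nOf (m J : ℕ) : ℕ := (J + lS m + 1 + hS m - 1) / hS m

lemma kOf_eq (m J : ℕ) : kOf m J = nOf m J * hS m := rfl

lemma kOf_bounds (m J : ℕ) : J + lS m + 1 ≤ kOf m J ∧ kOf m J ≤ J + lS m + 1 + hS m := by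
  have hh := hS_pos m
  have h1 := Nat.div_add_mod (J + lS m + 1 + hS m - 1) (hS m)
  have h2 := Nat.mod_lt (J + lS m + 1 + hS m - 1) (show 0 < hS m by omega)
  rw [mul_comm] at h1
  unfold kOf
  constructor <;> omega

lemma nOf_le (m J : ℕ) (hJ : J ≤ 20 * yS m * hS m) : nOf m J ≤ 22 * yS m := by
  have hh := hS_pos m
  have hy := yS_ge m
  unfold nOf
  apply Nat.div_le_of_le_mul
  have h3 : yS m + 48 + hS m ≤ (yS m + 49) * hS m := by nlinarith
  have h4 : J + lS m + 1 + hS m - 1 ≤ 20 * yS m * hS m + (yS m + 48 + hS m) := by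
    unfold lS; omega
  have h5 : (yS m + 49) * hS m ≤ 2 * yS m * hS m := by
    apply Nat.mul_le_mul_right; omega
  calc J + lS m + 1 + hS m - 1 ≤ 20 * yS m * hS m + (yS m + 48 + hS m) := h4
    _ ≤ 20 * yS m * hS m + 2 * yS m * hS m := by omega
    _ = hS m * (22 * yS m) := by ring

/-- The two main facts on `J`. -/
theorem JS_facts (m : ℕ) :
    ((JS m : ℝ) + lS m + 2 ≤ beta ^ yS m) ∧ JS m ≤ 20 * yS m * hS m := by
  induction m with
  | zero =>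
    constructor
    · have h1 := y_bound 50 le_rfl
      have h2 : JS 0 = 98 := rfl
      have h3 : lS 0 = 98 := rfl
      have h4 : yS 0 = 50 := rfl
      rw [h2, h3, h4]
      have h5 : (15 / 8 : ℝ) ^ 50 ≤ beta ^ 50 := beta_pow_ge 50
      have h6 : (198 : ℝ) ≤ (15 / 8 : ℝ) ^ 50 := by norm_num
      push_cast
      linarith
    · have h2 : JS 0 = 98 := rfl
      have h4 : yS 0 = 50 := rfl
      have hh := hS_pos 0
      rw [h2, h4]
      nlinarith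
  | succ m ih =>
    obtain ⟨ih1, ih2⟩ := ih
    have hy := yS_ge m
    -- `Z ≤ K`
    have hZK : JS m + lS m + 1 ≤ KS m := by
      apply Nat.le_floor
      have h1 : beta ^ yS m ≤ beta ^ vS m := beta_pow_mono (vS_ge m)
      push_cast
      linarith
    have hk := kOf_bounds m (JS m)
    have hhK := hS_le m
    have hkK : kOf m (JS m) ≤ 2 * KS m := by omega
    constructor
    · have hJ : JS (m + 1) = kOf m (JS m) + JS m + eS m := rfl
      have hl : lS (m + 1) = yS (m + 1) + 48 := rfl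
      have hy' : yS (m + 1) = yS m + eS m := rfl
      have he := eS_le m
      rw [hJ, hl]
      have h1 : ((kOf m (JS m) : ℕ) : ℝ) ≤ 2 * beta ^ vS m := by
        have : ((kOf m (JS m) : ℕ) : ℝ) ≤ 2 * (KS m : ℝ) := by exact_mod_cast hkK
        have h2 := KS_le m
        linarith
      have h2 : (JS m : ℝ) ≤ beta ^ vS m := by
        have h3 : beta ^ yS m ≤ beta ^ vS m := beta_pow_mono (vS_ge m)
        have h4 : (0 : ℝ) ≤ lS m := Nat.cast_nonneg _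
        linarith
      have h3 : ((eS m : ℕ) : ℝ) + ((yS (m + 1) + 48 : ℕ) : ℝ) + 2 ≤ beta ^ vS m := by
        have h4 := y_bound (yS m) hy
        have h5 : beta ^ yS m ≤ beta ^ vS m := beta_pow_mono (vS_ge m)
        have h6 : ((eS m : ℕ) : ℝ) ≤ 2 * (yS m : ℝ) := by exact_mod_cast he
        have h7 : ((yS (m + 1) : ℕ) : ℝ) ≤ 3 * (yS m : ℝ) := by
          have : yS (m + 1) ≤ 3 * yS m := by omega
          exact_mod_cast this
        push_cast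
        linarith
      have h4 : 4 * beta ^ vS m ≤ beta ^ yS (m + 1) := by
        have h5 : beta ^ (vS m + 25) ≤ beta ^ yS (m + 1) := beta_pow_mono (vS_succ m)
        have h6 : (4 : ℝ) ≤ beta ^ 25 := by
          have h7 := beta_pow_ge 25
          have h8 : (4 : ℝ) ≤ (15 / 8 : ℝ) ^ 25 := by norm_num
          linarith
        rw [pow_add] at h5
        have h9 := pow_pos beta_pos (vS m)
        nlinarith
      push_cast at h1 h3 ⊢
      linarith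
    · have hJ : JS (m + 1) = kOf m (JS m) + JS m + eS m := rfl
      rw [hJ, kOf_eq]
      have hn := nOf_le m (JS m) ih2
      have hh := hS_pos m
      have hmono := hS_mono m
      have he := eS_le m
      have h1 : nOf m (JS m) * hS m ≤ 22 * yS m * hS m := Nat.mul_le_mul_right _ hn
      have h2 : eS m ≤ 2 * yS m * hS m := by nlinarith
      have h3 : 44 * yS m ≤ 20 * yS (m + 1) := by
        rw [yS]; omega
      have h4 : 44 * yS m * hS m ≤ 20 * yS (m + 1) * hS m := Nat.mul_le_mul_right _ h3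
      have h5 : 20 * yS (m + 1) * hS m ≤ 20 * yS (m + 1) * hS (m + 1) :=
        Nat.mul_le_mul_left _ hmono
      nlinarith

/-- Size of the level. -/
theorem JS_add_le (m : ℕ) : JS m + lS m + 2 ≤ beta ^ yS m := (JS_facts m).1

lemma Z_le_KS (m : ℕ) : JS m + lS m + 1 ≤ KS m := by
  apply Nat.le_floor
  have h1 : beta ^ yS m ≤ beta ^ vS m := beta_pow_mono (vS_ge m)
  have h2 := JS_add_le m
  push_cast
  linarith

lemma kS_le (m : ℕ) : (kS m : ℝ) ≤ 2 * beta ^ vS m := by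
  have hk := kOf_bounds m (JS m)
  have hZ := Z_le_KS m
  have hhK := hS_le m
  have h1 : kS m ≤ 2 * KS m := by
    unfold kS; omega
  have h2 : (kS m : ℝ) ≤ 2 * (KS m : ℝ) := by exact_mod_cast h1
  have h3 := KS_le m
  linarith

lemma rho2_kS (m : ℕ) : rhoS m ^ 2 * kS m ≤ 2 * (8 / 15) ^ 13 := by
  have h1 := kS_le m
  have hρ := rhoS_pos m
  have h2 : rhoS m ^ 2 * beta ^ vS m ≤ (8 / 15) ^ 13 := by
    have hv := vS_add m
    have h3 : beta⁻¹ ^ (2 * yS m) ≤ beta⁻¹ ^ (vS m + 13) :=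
      pow_le_pow_of_le_one lam_pos.le lam_le_one hv
    have h4 : rhoS m ^ 2 = beta⁻¹ ^ (2 * yS m) := by
      unfold rhoS; rw [← pow_mul, mul_comm]
    rw [h4]
    have h5 := pow_pos beta_pos (vS m)
    calc beta⁻¹ ^ (2 * yS m) * beta ^ vS m ≤ beta⁻¹ ^ (vS m + 13) * beta ^ vS m := by gcongr
      _ = beta⁻¹ ^ 13 * (beta⁻¹ ^ vS m * beta ^ vS m) := by rw [pow_add]; ring
      _ = beta⁻¹ ^ 13 := by rw [lam_pow_mul_beta_pow, mul_one]
      _ ≤ (8 / 15) ^ 13 := lam_pow_le 13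
  calc rhoS m ^ 2 * kS m ≤ rhoS m ^ 2 * (2 * beta ^ vS m) := by gcongr
    _ = 2 * (rhoS m ^ 2 * beta ^ vS m) := by ring
    _ ≤ 2 * (8 / 15) ^ 13 := by linarith

lemma rho2_Z (m : ℕ) : rhoS m ^ 2 * ((JS m + lS m + 1 : ℕ) : ℝ) ≤ rhoS m := by
  have h1 := JS_add_le m
  have hρ := rhoS_pos m
  have h2 : ((JS m + lS m + 1 : ℕ) : ℝ) ≤ beta ^ yS m := by
    push_cast
    linarith
  calc rhoS m ^ 2 * ((JS m + lS m + 1 : ℕ) : ℝ) ≤ rhoS m ^ 2 * beta ^ yS m := by gcongr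
    _ = rhoS m * (rhoS m * beta ^ yS m) := by ring
    _ = rhoS m := by rw [rhoS_mul_beta, mul_one]

lemma rho2_eS (m : ℕ) : rhoS m ^ 2 * eS m ≤ rhoS m := by
  have h1 := y_bound (yS m) (yS_ge m)
  have hρ := rhoS_pos m
  have he : (eS m : ℝ) ≤ beta ^ yS m := by
    have : (eS m : ℝ) ≤ 2 * (yS m : ℝ) := by exact_mod_cast eS_le m
    have h2 : (0 : ℝ) ≤ yS m := Nat.cast_nonneg _
    linarith
  calc rhoS m ^ 2 * eS m ≤ rhoS m ^ 2 * beta ^ yS m := by gcongr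
    _ = rhoS m * (rhoS m * beta ^ yS m) := by ring
    _ = rhoS m := by rw [rhoS_mul_beta, mul_one]

/-- The Dirichlet bound for the step. -/
lemma omega_step (m : ℕ) : ‖1 - omega ^ (-(kS m : ℤ))‖ ≤ beta⁻¹ ^ eS m := by
  have hy := yS_ge m
  have hn := nOf_le m (JS m) (JS_facts m).2
  have h1 : ‖1 - omega ^ (-(kS m : ℤ))‖ ≤ (nOf m (JS m) : ℝ) * ‖1 - omega ^ hS m‖ :=
    norm_one_sub_zpow_mul (nOf m (JS m)) (hS m)
  have h2 : ‖1 - omega ^ hS m‖ ≤ 2 * π / (KS m + 1) := norm_one_sub_hit (KS m)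
  have h3 : (1 : ℝ) / (KS m + 1) ≤ beta⁻¹ ^ vS m := by
    have h4 := lt_KS_add_one m
    have h5 := pow_pos beta_pos (vS m)
    rw [inv_pow, ← one_div]
    exact one_div_le_one_div_of_le h5 h4.le
  have h4 : (nOf m (JS m) : ℝ) ≤ 22 * yS m := by exact_mod_cast hn
  have hpi := Real.pi_lt_d2
  have hpi0 := Real.pi_pos
  have hyr : (0 : ℝ) ≤ yS m := Nat.cast_nonneg _
  have hlam := pow_pos lam_pos (vS m)
  have h5 : (nOf m (JS m) : ℝ) * ‖1 - omega ^ hS m‖ ≤ 139 * yS m * beta⁻¹ ^ vS m := by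
    calc (nOf m (JS m) : ℝ) * ‖1 - omega ^ hS m‖
        ≤ (22 * yS m) * (2 * π * (1 / (KS m + 1))) := by
          have : ‖1 - omega ^ hS m‖ ≤ 2 * π * (1 / (KS m + 1)) := by
            rw [mul_one_div]; exact h2
          gcongr
      _ ≤ (22 * yS m) * (2 * π * beta⁻¹ ^ vS m) := by gcongr
      _ = (44 * π) * (yS m * beta⁻¹ ^ vS m) := by ring
      _ ≤ 139 * (yS m * beta⁻¹ ^ vS m) := by
          have : 0 ≤ (yS m : ℝ) * beta⁻¹ ^ vS m := by positivity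
          have h6 : 44 * π ≤ 139 := by linarith
          exact mul_le_mul_of_nonneg_right h6 this
      _ = 139 * yS m * beta⁻¹ ^ vS m := by ring
  have h6 := dirichlet_num (yS m) hy
  have h7 : 139 * (yS m : ℝ) * beta⁻¹ ^ vS m ≤ beta⁻¹ ^ eS m := by
    calc 139 * (yS m : ℝ) * beta⁻¹ ^ vS m ≤ beta ^ (yS m / 2) * beta⁻¹ ^ vS m := by gcongr
      _ = beta⁻¹ ^ eS m := by
          rw [vS_eq, pow_add]
          have := lam_pow_mul_beta_pow (yS m / 2)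
          calc beta ^ (yS m / 2) * (beta⁻¹ ^ eS m * beta⁻¹ ^ (yS m / 2))
              = beta⁻¹ ^ eS m * (beta⁻¹ ^ (yS m / 2) * beta ^ (yS m / 2)) := by ring
            _ = beta⁻¹ ^ eS m := by rw [this, mul_one]
  linarith

/-- Monotonicity of the invariant in `c`, `a`, `D`. -/
lemma Inv.mono {t u : ℝ} {z : ℂ} {J : ℕ} {T ρ c a D c' a' D' : ℝ} (h : Inv t u z J T ρ c a D)
    (hc : c' ≤ c) (ha : a' ≤ a) (hD : D ≤ D') : Inv t u z J T ρ c' a' D' :=
  ⟨h.t_le, h.u_le, h.z_le, fun j => hc.trans (h.cos_ge j), fun n => ha.trans (h.prod_ge n),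
    fun n => (h.tan_le n).trans hD⟩

/-! ### The conditions of the step lemma -/

lemma rhoS_small' (m : ℕ) : rhoS m ≤ 1 / 10000000000000 := by
  have h := rhoS_small m
  norm_num at h ⊢
  exact h

lemma pi2_le : π ^ 2 ≤ 10 := by
  have hpi := Real.pi_lt_d2
  have hpi0 := Real.pi_pos
  nlinarith

lemma step_hl (m : ℕ) : beta ^ 48 * beta ^ (-(lS m : ℤ)) ≤ rhoS m := by
  have h1 : beta ^ (-(lS m : ℤ)) = (beta ^ (yS m + 48))⁻¹ := by
    rw [zpow_neg, zpow_natCast]; rfl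
  rw [h1, pow_add]
  unfold rhoS
  rw [inv_pow]
  have h3 := pow_pos beta_pos 48
  apply le_of_eq
  rw [mul_inv, mul_comm ((beta ^ yS m)⁻¹), ← mul_assoc, mul_inv_cancel₀ h3.ne', one_mul]

lemma step_hc (m : ℕ) : cS m ≤ 1 / 2 := by
  have hρs := rhoS_small' m
  unfold cS
  linarith

lemma step_hρc (m : ℕ) : 3 * π * rhoS m < cS m := by
  have hρ := rhoS_pos m
  have hpi := Real.pi_lt_d2
  unfold cS
  nlinarith

lemma step_hρs (m : ℕ) : 6 * π * rhoS m ≤ 1 / 2 := by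
  have hρ := rhoS_pos m
  have hρs := rhoS_small' m
  have hpi := Real.pi_lt_d2
  have hpi0 := Real.pi_pos
  nlinarith

lemma step_hS1 (m : ℕ) : 18 * π ^ 2 * rhoS m ^ 2 * eS m ≤ 1 / 8 := by
  have hρ := rhoS_pos m
  have hρs := rhoS_small' m
  have hpi2 := pi2_le
  have h1 := rho2_eS m
  have h3 : 0 ≤ rhoS m ^ 2 * (eS m : ℝ) := by positivity
  have h2 : 18 * π ^ 2 * (rhoS m ^ 2 * eS m) ≤ 180 * rhoS m := by nlinarith
  have h4 : 18 * π ^ 2 * rhoS m ^ 2 * eS m = 18 * π ^ 2 * (rhoS m ^ 2 * eS m) := by ring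
  rw [h4]
  linarith

lemma step_hS2 (m : ℕ) : 8 * π ^ 2 * rhoS m ^ 2 * kS m ≤ 1 / 8 := by
  have hpi2 := pi2_le
  have h1 := rho2_kS m
  have h3 : 0 ≤ rhoS m ^ 2 * (kS m : ℝ) := by positivity
  have h5 : (2 * (8 / 15 : ℝ) ^ 13) ≤ 1 / 1000 := by norm_num
  have h2 : 8 * π ^ 2 * (rhoS m ^ 2 * kS m) ≤ 80 * (1 / 1000) := by nlinarith
  have h4 : 8 * π ^ 2 * rhoS m ^ 2 * kS m = 8 * π ^ 2 * (rhoS m ^ 2 * kS m) := by ring
  rw [h4]
  linarith

lemma step_hS3 (m : ℕ) :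
    3 * π * rhoS m * DS m + 9 / 2 * π ^ 2 * rhoS m ^ 2 * (JS m + lS m + 1 : ℕ) ≤ 1 / 8 := by
  have hρ := rhoS_pos m
  have hρs := rhoS_small' m
  have hpi := Real.pi_lt_d2
  have hpi0 := Real.pi_pos
  have hpi2 := pi2_le
  have hDs := rhoS_DS_small m
  have h1 := rho2_Z m
  have h2 : 3 * π * rhoS m * DS m = 3 * π * (rhoS m * DS m) := by ring
  have h3 : 9 / 2 * π ^ 2 * rhoS m ^ 2 * ((JS m + lS m + 1 : ℕ) : ℝ)
      = 9 / 2 * π ^ 2 * (rhoS m ^ 2 * ((JS m + lS m + 1 : ℕ) : ℝ)) := by ring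
  rw [h2, h3]
  have h4 : 3 * π * (rhoS m * DS m) ≤ 3 * π * (1 / 200) := by gcongr
  have h5 : 0 ≤ rhoS m ^ 2 * ((JS m + lS m + 1 : ℕ) : ℝ) := by positivity
  have h6 : 9 / 2 * π ^ 2 * (rhoS m ^ 2 * ((JS m + lS m + 1 : ℕ) : ℝ)) ≤ 45 * rhoS m := by
    nlinarith
  linarith

lemma step_hS4 (m : ℕ) : π * rhoS m * DS m + π ^ 2 * rhoS m ^ 2 ≤ 1 / 8 := by
  have hρ := rhoS_pos m
  have hρs := rhoS_small' m
  have hpi := Real.pi_lt_d2
  have hpi0 := Real.pi_pos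
  have hpi2 := pi2_le
  have hDs := rhoS_DS_small m
  have h2 : π * rhoS m * DS m = π * (rhoS m * DS m) := by ring
  rw [h2]
  have h4 : π * (rhoS m * DS m) ≤ π * (1 / 200) := by gcongr
  have h5 : rhoS m ^ 2 ≤ rhoS m := by nlinarith
  have h6 : π ^ 2 * rhoS m ^ 2 ≤ 10 * rhoS m := by
    have : 0 ≤ rhoS m ^ 2 := by positivity
    nlinarith
  linarith

lemma step_t (m : ℕ) (t : ℝ) (htge : ((1 : ℝ) / 3) ^ m ≤ |t|) :
    ((1 : ℝ) / 3) ^ (m + 1) ≤ |t * (1 - beta ^ (-(kS m : ℤ)))| := by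
  have hk : JS m + lS m + 1 ≤ kS m := (kOf_bounds m (JS m)).1
  have hkpos : 1 ≤ kS m := by omega
  have h1 : beta ^ (-(kS m : ℤ)) ≤ 8 / 15 := by
    rw [zpow_neg, zpow_natCast, ← inv_pow]
    calc beta⁻¹ ^ kS m ≤ beta⁻¹ ^ 1 := pow_le_pow_of_le_one lam_pos.le lam_le_one hkpos
      _ = beta⁻¹ := pow_one _
      _ ≤ 8 / 15 := lam_le
  have h2 : (1 / 3 : ℝ) ≤ |1 - beta ^ (-(kS m : ℤ))| := by
    have : (1 / 3 : ℝ) ≤ 1 - beta ^ (-(kS m : ℤ)) := by linarith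
    exact this.trans (le_abs_self _)
  rw [abs_mul, pow_succ]
  exact mul_le_mul htge h2 (by norm_num) (abs_nonneg _)

lemma step_c (m : ℕ) : cS (m + 1) ≤ cS m - 3 * π * rhoS m := by
  have hρ := rhoS_pos m
  have hpi := Real.pi_lt_d2
  have h1 := lam_eS_small m
  have h2 : cS (m + 1) = 1 / 10 + 10 * (beta⁻¹ ^ eS m * rhoS m) := by
    unfold cS; rw [rhoS_succ]
  rw [h2]
  unfold cS
  have h3 : beta⁻¹ ^ eS m * rhoS m ≤ (1 / 10 ^ 13) * rhoS m := by gcongr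
  norm_num at h3
  nlinarith

lemma step_D (m : ℕ) :
    2 * DS m + 12 * π * rhoS m * eS m + 8 * π * rhoS m * kS m +
        (3 * π * rhoS m * (JS m + lS m + 1 : ℕ) + 4 * rhoS m) /
          (cS m * (cS m - 3 * π * rhoS m)) ≤ DS (m + 1) := by
  have hρ := rhoS_pos m
  have hρs := rhoS_small' m
  have hpi := Real.pi_lt_d2
  have hpi0 := Real.pi_pos
  have hDs := rhoS_DS_small m
  have hcc : (1 / 10 : ℝ) ≤ cS m := by
    unfold cS; linarith
  have hcc' : (1 / 10 : ℝ) ≤ cS m - 3 * π * rhoS m := by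
    unfold cS; nlinarith
  have hprod : (1 / 100 : ℝ) ≤ cS m * (cS m - 3 * π * rhoS m) := by nlinarith
  have hD : DS (m + 1) = 4 / rhoS m := rfl
  rw [hD, le_div_iff₀ hρ]
  have h1 := rho2_eS m
  have h2 := rho2_kS m
  have h3 := rho2_Z m
  set Z : ℝ := ((JS m + lS m + 1 : ℕ) : ℝ) with hZ
  have hZ0 : 0 ≤ Z := Nat.cast_nonneg _
  have h4 : (3 * π * rhoS m * Z + 4 * rhoS m) / (cS m * (cS m - 3 * π * rhoS m)) * rhoS m
      ≤ 100 * (3 * π * rhoS m + 4 * rhoS m) := by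
    have hpos : 0 < cS m * (cS m - 3 * π * rhoS m) := by linarith
    rw [div_mul_eq_mul_div, div_le_iff₀ hpos]
    have h5 : 3 * π * (rhoS m ^ 2 * Z) ≤ 3 * π * rhoS m := by gcongr
    have h55 : rhoS m ^ 2 ≤ rhoS m := by nlinarith
    have h6 : (3 * π * rhoS m * Z + 4 * rhoS m) * rhoS m ≤ 3 * π * rhoS m + 4 * rhoS m := by
      have h7 : (3 * π * rhoS m * Z + 4 * rhoS m) * rhoS m
          = 3 * π * (rhoS m ^ 2 * Z) + 4 * rhoS m ^ 2 := by ring
      rw [h7]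
      linarith
    have h8 : 0 ≤ 3 * π * rhoS m + 4 * rhoS m := by positivity
    calc (3 * π * rhoS m * Z + 4 * rhoS m) * rhoS m ≤ 3 * π * rhoS m + 4 * rhoS m := h6
      _ = 100 * (3 * π * rhoS m + 4 * rhoS m) * (1 / 100) := by ring
      _ ≤ 100 * (3 * π * rhoS m + 4 * rhoS m) * (cS m * (cS m - 3 * π * rhoS m)) := by
          gcongr
  have h5 : (2 * DS m + 12 * π * rhoS m * eS m + 8 * π * rhoS m * kS m +
      (3 * π * rhoS m * Z + 4 * rhoS m) / (cS m * (cS m - 3 * π * rhoS m))) * rhoS m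
      = 2 * (rhoS m * DS m) + 12 * π * (rhoS m ^ 2 * eS m) + 8 * π * (rhoS m ^ 2 * kS m)
        + (3 * π * rhoS m * Z + 4 * rhoS m) / (cS m * (cS m - 3 * π * rhoS m)) * rhoS m := by
    ring
  rw [h5]
  have h6 : 12 * π * (rhoS m ^ 2 * eS m) ≤ 12 * π * rhoS m := by gcongr
  have h7 : 8 * π * (rhoS m ^ 2 * kS m) ≤ 8 * π * (2 * (8 / 15) ^ 13) := by gcongr
  have h8 : 8 * π * (2 * (8 / 15 : ℝ) ^ 13) ≤ 1 := by
    have : (2 * (8 / 15 : ℝ) ^ 13) ≤ 1 / 1000 := by norm_num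
    nlinarith
  nlinarith

/-- Lattice elements at all levels. -/
theorem level_exists (a₀ : ℝ) (t₀ u₀ : ℝ) (z₀ : ℂ) (ha : 0 < a₀) (hE : IsElt t₀ u₀ z₀)
    (ht : 1 ≤ |t₀|) (hI : Inv t₀ u₀ z₀ 98 (beta ^ 48) (beta⁻¹ ^ 50) (1 / 10 + 10 * beta⁻¹ ^ 50) a₀ 2000)
    (m : ℕ) :
    ∃ (t u : ℝ) (z : ℂ), IsElt t u z ∧ (1 / 3) ^ m ≤ |t| ∧
      Inv t u z (JS m) (beta ^ 48) (rhoS m) (cS m) (aS a₀ m) (DS m) := by
  induction m with
  | zero =>
    refine ⟨t₀, u₀, z₀, hE, by simpa using ht, ?_⟩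
    exact hI
  | succ m ih =>
    obtain ⟨t, u, z, hEt, htge, hIt⟩ := ih
    have key := step_inv hEt (JS m) (lS m) (kS m) (eS m) (beta ^ 48) (rhoS m) (cS m) (aS a₀ m) (DS m)
      (beta⁻¹ ^ eS m) hIt (rhoS_pos m) (kOf_bounds m (JS m)).1 (step_hl m) le_rfl (omega_step m)
      (step_hc m) (step_hρc m) (step_hρs m) (aS_pos a₀ ha m)
      (step_hS1 m) (step_hS2 m) (step_hS3 m) (step_hS4 m)
    refine ⟨_, _, _, hEt.step (kS m), step_t m t htge, ?_⟩
    have hJ : JS (m + 1) = kS m + JS m + eS m := rfl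
    rw [hJ, rhoS_succ]
    exact key.mono (step_c m) le_rfl (step_D m)

/-! ### The merit -/

lemma aS_eq (a₀ : ℝ) (m : ℕ) : aS a₀ m = 2 * (a₀ / 2) ^ 2 ^ m := by
  induction m with
  | zero =>
    have h : aS a₀ 0 = a₀ := rfl
    rw [h, pow_zero, pow_one]
    ring
  | succ m ih =>
    rw [aS, ih, mul_pow, ← pow_mul, pow_succ 2 m]
    ring

lemma yS_real_ge (m : ℕ) : (50 : ℝ) * (17 / 8) ^ m ≤ yS m := by
  induction m with
  | zero =>
    have h : yS 0 = 50 := rfl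
    rw [h]
    norm_num
  | succ m ih =>
    have h := yS_ge m
    have h1 : 17 * yS m ≤ 8 * yS (m + 1) := by
      rw [yS]; omega
    have h2 : (17 : ℝ) * yS m ≤ 8 * yS (m + 1) := by exact_mod_cast h1
    rw [pow_succ]
    nlinarith

/-- The merit tends to infinity: `β^(y_m) a_m^2 → ∞`. -/
theorem merit_tendsto (a₀ : ℝ) (ha : 0 < a₀) (ha1 : a₀ ≤ 1) :
    Tendsto (fun m => beta ^ yS m * (aS a₀ m) ^ 2) atTop atTop := by
  have hb : 0 < a₀ / 2 := by positivity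
  obtain ⟨W, hW⟩ := pow_unbounded_of_one_lt (1 / (a₀ / 2)) one_lt_beta
  have hW' : 1 ≤ (a₀ / 2) * beta ^ W := by
    rw [div_lt_iff₀ hb] at hW
    linarith
  -- large `m`
  have h1 : Tendsto (fun m : ℕ => (50 : ℝ) * (17 / 16) ^ m) atTop atTop :=
    (tendsto_pow_atTop_atTop_of_one_lt (by norm_num)).const_mul_atTop (by norm_num)
  obtain ⟨m₀, hm₀⟩ := (tendsto_atTop.1 h1 (2 * W + 1)).exists_forall_of_atTop
  refine tendsto_atTop_mono' atTop ?_ (tendsto_pow_atTop_atTop_of_one_lt one_lt_beta)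
  filter_upwards [eventually_ge_atTop m₀] with m hm
  have h2 := hm₀ m hm
  have h3 : ((W * 2 ^ (m + 1) + m : ℕ) : ℝ) ≤ yS m := by
    have h4 := yS_real_ge m
    have h5 : (50 : ℝ) * (17 / 8) ^ m = (50 * (17 / 16) ^ m) * 2 ^ m := by
      rw [mul_assoc, ← mul_pow]; norm_num
    have h6 : (m : ℝ) ≤ 2 ^ m := by
      exact_mod_cast (Nat.lt_two_pow_self (n := m)).le
    have h7 : (0 : ℝ) < 2 ^ m := by positivity
    push_cast
    rw [h5] at h4
    have h8 : (2 * (W : ℝ) + 1) * 2 ^ m ≤ (50 * (17 / 16) ^ m) * 2 ^ m := by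
      apply mul_le_mul_of_nonneg_right _ h7.le
      exact_mod_cast h2
    rw [pow_succ]
    nlinarith
  have h4 : W * 2 ^ (m + 1) + m ≤ yS m := by exact_mod_cast h3
  -- lower bound
  have h5 : 1 ≤ (a₀ / 2) ^ 2 ^ (m + 1) * beta ^ (W * 2 ^ (m + 1)) := by
    rw [pow_mul, ← mul_pow]
    exact one_le_pow₀ hW'
  have h6 : aS a₀ m ^ 2 = 4 * (a₀ / 2) ^ 2 ^ (m + 1) := by
    rw [aS_eq, mul_pow, ← pow_mul, pow_succ 2 m]
    norm_num
  rw [h6]
  have h7 : beta ^ m * beta ^ (W * 2 ^ (m + 1)) ≤ beta ^ yS m := by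
    rw [← pow_add, add_comm]
    exact beta_pow_mono h4
  have h8 : (0 : ℝ) < (a₀ / 2) ^ 2 ^ (m + 1) := by positivity
  have h9 := pow_pos beta_pos m
  calc beta ^ m = beta ^ m * 1 := (mul_one _).symm
    _ ≤ beta ^ m * ((a₀ / 2) ^ 2 ^ (m + 1) * beta ^ (W * 2 ^ (m + 1))) := by gcongr
    _ = (beta ^ m * beta ^ (W * 2 ^ (m + 1))) * (a₀ / 2) ^ 2 ^ (m + 1) := by ring
    _ ≤ beta ^ yS m * (a₀ / 2) ^ 2 ^ (m + 1) := by gcongr
    _ ≤ beta ^ yS m * (4 * (a₀ / 2) ^ 2 ^ (m + 1)) := by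
        have h10 := pow_pos beta_pos (yS m)
        nlinarith [mul_pos h10 h8]

theorem yS_tendsto : Tendsto yS atTop atTop := by
  refine tendsto_atTop_mono (fun m => ?_) tendsto_id
  have := yS_ge_mul m
  simp only [id]
  omega

end Vale.Agent.Lib.P105
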