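import Vale.Agent.Lib.P105.Trig

/-!
The double excursion step.
-/

open Real Finset

namespace Vale.Agent.Lib.P105

theorem Th_step (t : ℝ) (k i : ℤ) : Th (t * (1 - beta ^ (-k))) i = Th t i - Th t (i - k) := by
  unfold Th
  have hb : beta ≠ 0 := beta_pos.ne'
  have : beta ^ (i - k) = beta ^ (-k) * beta ^ i := by
    rw [← zpow_add₀ hb]; congr 1; ring
  rw [this]; ring

theorem Nn_step (u : ℝ) (z : ℂ) (k i : ℤ) :
    Nn (u * (1 - beta ^ k)) (z * (1 - omega ^ (-k))) i = Nn u z i - Nn u z (i - k) := by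
  unfold Nn
  have hb : beta ≠ 0 := beta_pos.ne'
  have hw : omega ≠ 0 := omega_ne_zero
  have h1 : beta ^ (-(i - k)) = beta ^ k * beta ^ (-i) := by
    rw [← zpow_add₀ hb]; congr 1; ring
  have h2 : omega ^ (i - k) = omega ^ (-k) * omega ^ i := by
    rw [← zpow_add₀ hw]; congr 1; ring
  have h3 : z * (1 - omega ^ (-k)) * omega ^ i = z * omega ^ i - z * omega ^ (i - k) := by
    rw [h2]; ring
  rw [h1, h3, Complex.sub_re]
  ring

/-- The step preserves lattice elements. -/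
theorem IsElt.step {t u : ℝ} {z : ℂ} (h : IsElt t u z) (k : ℤ) :
    IsElt (t * (1 - beta ^ (-k))) (u * (1 - beta ^ k)) (z * (1 - omega ^ (-k))) := by
  intro i
  obtain ⟨m, hm⟩ := h i
  obtain ⟨m', hm'⟩ := h (i - k)
  refine ⟨m - m', ?_⟩
  rw [Th_step, Nn_step]
  push_cast
  linarith

theorem nn_bound {t u : ℝ} {z : ℂ} {J : ℕ} {T ρ c a D : ℝ} (hI : Inv t u z J T ρ c a D)
    (i : ℤ) (hi : (J : ℤ) ≤ i) : |Nn u z i| ≤ 3 * ρ := by
  have hb1 : 1 ≤ beta := one_lt_beta.le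
  have h1 : |u * beta ^ (-i)| ≤ ρ := by
    rw [abs_mul, abs_of_pos (zpow_pos beta_pos _)]
    refine le_trans ?_ hI.u_le
    apply mul_le_mul_of_nonneg_left _ (abs_nonneg _)
    exact zpow_le_zpow_right₀ hb1 (by omega)
  have h2 : |(z * omega ^ i).re| ≤ ρ := by
    refine le_trans (Complex.abs_re_le_norm _) ?_
    rw [norm_mul, norm_zpow, norm_omega, one_zpow, mul_one]
    exact hI.z_le
  unfold Nn
  have h3 := abs_add_le (u * beta ^ (-i)) (2 * (z * omega ^ i).re)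
  have h4 : |2 * (z * omega ^ i).re| = 2 * |(z * omega ^ i).re| := by
    rw [abs_mul, abs_two]
  linarith

theorem cong_sub {t u : ℝ} {z : ℂ} (hE : IsElt t u z) (i i' : ℤ) :
    Cong (Th t i - Th t i') (Nn u z i - Nn u z i') := by
  obtain ⟨m, hm⟩ := hE i
  obtain ⟨m', hm'⟩ := hE i'
  refine ⟨m - m', Or.inr ?_⟩
  push_cast
  linarith

theorem cong_sub_th {t u : ℝ} {z : ℂ} (hE : IsElt t u z) (i : ℤ) (w : ℝ) :
    Cong (Th t i - w) (w + Nn u z i) := by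
  obtain ⟨m, hm⟩ := hE i
  refine ⟨m, Or.inr ?_⟩
  linarith

theorem beta_inv_pos' : 0 < beta⁻¹ := inv_pos.mpr beta_pos

theorem beta_inv_le : beta⁻¹ ≤ 8 / 15 := by
  have := beta_gt
  rw [inv_le_comm₀ beta_pos (by norm_num)]
  norm_num
  linarith

theorem beta_inv_le_one : beta⁻¹ ≤ 1 := by
  have := beta_inv_le; linarith

theorem th_tail {t u : ℝ} {z : ℂ} {J : ℕ} {T ρ c a D : ℝ} (hI : Inv t u z J T ρ c a D)
    (l : ℕ) (hl : T * beta ^ (-(l : ℤ)) ≤ ρ) (i : ℤ) (j : ℕ) (h : i ≤ -(l : ℤ) - 1 - j) :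
    |Th t i| ≤ ρ * beta⁻¹ ^ (j + 1) := by
  have hb1 : 1 ≤ beta := one_lt_beta.le
  have hbz : beta ≠ 0 := beta_pos.ne'
  have hT : 0 ≤ T := le_trans (abs_nonneg _) hI.t_le
  unfold Th
  rw [abs_mul, abs_of_pos (zpow_pos beta_pos _)]
  have h1 : beta ^ i ≤ beta ^ (-(l : ℤ)) * beta⁻¹ ^ (j + 1) := by
    have : beta ^ (-(l : ℤ)) * beta⁻¹ ^ (j + 1) = beta ^ (-(l : ℤ) - 1 - j) := by
      rw [inv_pow, ← zpow_natCast, ← zpow_neg, ← zpow_add₀ hbz]
      congr 1; push_cast; ring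
    rw [this]
    exact zpow_le_zpow_right₀ hb1 h
  calc |t| * beta ^ i ≤ T * (beta ^ (-(l : ℤ)) * beta⁻¹ ^ (j + 1)) :=
        mul_le_mul hI.t_le h1 (zpow_pos beta_pos _).le hT
    _ = (T * beta ^ (-(l : ℤ))) * beta⁻¹ ^ (j + 1) := by ring
    _ ≤ ρ * beta⁻¹ ^ (j + 1) := by
        exact mul_le_mul_of_nonneg_right hl (pow_pos beta_inv_pos' _).le

theorem geom_sum_le (n : ℕ) : ∑ j ∈ range n, beta⁻¹ ^ (j + 1) ≤ 8 / 7 := by
  have key : ∀ n : ℕ, ∑ j ∈ range n, beta⁻¹ ^ (j + 1) ≤ 8 / 7 * (1 - beta⁻¹ ^ n) := by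
    intro n
    induction n with
    | zero => simp
    | succ n ih =>
      rw [sum_range_succ]
      have hq := beta_inv_le
      have hq0 := beta_inv_pos'
      have hp : 0 ≤ beta⁻¹ ^ n := (pow_pos hq0 n).le
      have : beta⁻¹ ^ (n + 1) * (15 / 8) ≤ beta⁻¹ ^ n := by
        rw [pow_succ]
        nlinarith
      linarith
  have h := key n
  have hp : 0 ≤ beta⁻¹ ^ n := (pow_pos beta_inv_pos' n).le
  linarith

theorem prod_G_anti (g : ℕ → ℝ) {n n' : ℕ} (h : n ≤ n') :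
    ∏ j ∈ range n', G (g j) ≤ ∏ j ∈ range n, G (g j) := by
  induction n', h using Nat.le_induction with
  | base => exact le_rfl
  | succ m hm ih =>
    rw [prod_range_succ]
    have h0 : 0 ≤ ∏ j ∈ range m, G (g j) := prod_nonneg fun _ _ => G_nonneg _
    have := G_le_one (g m)
    nlinarith [G_nonneg (g m)]

theorem sum_V_mono (g : ℕ → ℝ) {n n' : ℕ} (h : n ≤ n') :
    ∑ j ∈ range n, V (g j) ≤ ∑ j ∈ range n', V (g j) := by
  apply sum_le_sum_of_subset_of_nonneg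
  · intro x hx
    simp only [mem_range] at hx ⊢
    omega
  · intro _ _ _
    exact V_nonneg _

/-- The four blocks of the descending orbit of the new element. -/
theorem step_blocks {t u : ℝ} {z : ℂ} (hE : IsElt t u z) (J l r e : ℕ) (T ρ c a D : ℝ)
    (hI : Inv t u z J T ρ c a D) (hρ : 0 < ρ)
    (hl : T * beta ^ (-(l : ℤ)) ≤ ρ) :
    let k : ℕ := J + l + 1 + r
    let F : ℕ → ℝ := fun j => Th (t * (1 - beta ^ (-(k : ℤ)))) (((k + J + e : ℕ) : ℤ) - j)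
    (∀ j < e, Cong (F j) (Nn u z ((k : ℤ) + J + e - j) - Nn u z ((J : ℤ) + e - j)) ∧
        |Nn u z ((k : ℤ) + J + e - j) - Nn u z ((J : ℤ) + e - j)| ≤ 6 * ρ) ∧
    (∀ j < J + l + 1, Cong (F (e + j)) (Th t ((J : ℤ) - j) + Nn u z ((k : ℤ) + J - j)) ∧
        |Nn u z ((k : ℤ) + J - j)| ≤ 3 * ρ) ∧
    (∀ j < r, Cong (F (e + (J + l + 1) + j))
        (Th t (-(l : ℤ) - 1 - j) + Nn u z ((k : ℤ) - l - 1 - j)) ∧
        |Th t (-(l : ℤ) - 1 - j) + Nn u z ((k : ℤ) - l - 1 - j)| ≤ 4 * ρ) ∧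
    (∀ j, F (e + (J + l + 1) + r + j) = Th t ((J : ℤ) - j) + (- Th t ((J : ℤ) - j - k)) ∧
        |- Th t ((J : ℤ) - j - k)| ≤ ρ * beta⁻¹ ^ (j + 1)) := by
  intro k F
  have hkz : (k : ℤ) = (J : ℤ) + l + 1 + r := by simp [k]
  refine ⟨?_, ?_, ?_, ?_⟩
  · intro j hj
    have hFj : F j = Th t ((k : ℤ) + J + e - j) - Th t ((J : ℤ) + e - j) := by
      simp only [F]
      rw [Th_step]
      have h1 : (((k + J + e : ℕ) : ℤ) - (j : ℤ)) = (k : ℤ) + J + e - j := by push_cast; ring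
      have h2 : (k : ℤ) + J + e - j - k = (J : ℤ) + e - j := by ring
      rw [h1, h2]
    rw [hFj]
    refine ⟨cong_sub hE _ _, ?_⟩
    have h1 := nn_bound hI ((k : ℤ) + J + e - j) (by omega)
    have h2 := nn_bound hI ((J : ℤ) + e - j) (by omega)
    have h3 := abs_sub (Nn u z ((k : ℤ) + J + e - j)) (Nn u z ((J : ℤ) + e - j))
    linarith
  · intro j hj
    have hFj : F (e + j) = Th t ((k : ℤ) + J - j) - Th t ((J : ℤ) - j) := by
      simp only [F]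
      rw [Th_step]
      have h1 : (((k + J + e : ℕ) : ℤ) - ((e + j : ℕ) : ℤ)) = (k : ℤ) + J - j := by push_cast; ring
      have h2 : (k : ℤ) + J - j - k = (J : ℤ) - j := by ring
      rw [h1, h2]
    rw [hFj]
    refine ⟨cong_sub_th hE _ _, ?_⟩
    exact nn_bound hI _ (by omega)
  · intro j hj
    have hFj : F (e + (J + l + 1) + j) =
        Th t ((k : ℤ) - l - 1 - j) - Th t (-(l : ℤ) - 1 - j) := by
      simp only [F]
      rw [Th_step]
      have h1 : (((k + J + e : ℕ) : ℤ) - ((e + (J + l + 1) + j : ℕ) : ℤ)) =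
          (k : ℤ) - l - 1 - j := by push_cast; ring
      have h2 : (k : ℤ) - l - 1 - j - k = -(l : ℤ) - 1 - j := by ring
      rw [h1, h2]
    rw [hFj]
    refine ⟨cong_sub_th hE _ _, ?_⟩
    have h1 := nn_bound hI ((k : ℤ) - l - 1 - j) (by omega)
    have h2 := th_tail hI l hl (-(l : ℤ) - 1 - j) j le_rfl
    have h3 := abs_add_le (Th t (-(l : ℤ) - 1 - j)) (Nn u z ((k : ℤ) - l - 1 - j))
    have h4 : ρ * beta⁻¹ ^ (j + 1) ≤ ρ := by
      have := pow_le_one₀ (n := j + 1) beta_inv_pos'.le beta_inv_le_one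
      nlinarith
    linarith
  · intro j
    constructor
    · simp only [F]
      rw [Th_step]
      have h1 : (((k + J + e : ℕ) : ℤ) - ((e + (J + l + 1) + r + j : ℕ) : ℤ)) = (J : ℤ) - j := by
        push_cast; rw [hkz]; ring
      rw [h1]; ring
    · rw [abs_neg]
      exact th_tail hI l hl _ j (by omega)

theorem G_ge_of_small (θ Y : ℝ) (h : |θ| ≤ Y) : 1 - π * Y ≤ G θ := by
  have h1 := G_lipschitz 0 θ
  have h2 : G 0 = 1 := by simp [G]
  rw [zero_add, h2] at h1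
  have : π * |θ| ≤ π * Y := mul_le_mul_of_nonneg_left h pi_pos.le
  linarith

/-- (I3) for the new element. -/
theorem step_cos {t u : ℝ} {z : ℂ} (hE : IsElt t u z) (J l r e : ℕ) (T ρ c a D : ℝ)
    (hI : Inv t u z J T ρ c a D) (hρ : 0 < ρ)
    (hl : T * beta ^ (-(l : ℤ)) ≤ ρ) (hc : c ≤ 1 / 2) (hρs : 6 * π * ρ ≤ 1 / 2) (j : ℕ) :
    c - 3 * π * ρ ≤ G (Th (t * (1 - beta ^ (-((J + l + 1 + r : ℕ) : ℤ))))
      ((((J + l + 1 + r) + J + e : ℕ) : ℤ) - j)) := by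
  obtain ⟨h1, h2, h3, h4⟩ := step_blocks hE J l r e T ρ c a D hI hρ hl
  have hpi := pi_pos
  by_cases hj1 : j < e
  · obtain ⟨hC, hB⟩ := h1 j hj1
    rw [G_cong hC]
    have := G_ge_of_small _ _ hB
    nlinarith
  by_cases hj2 : j < e + (J + l + 1)
  · obtain ⟨j', rfl⟩ : ∃ j', j = e + j' := ⟨j - e, by omega⟩
    obtain ⟨hC, hB⟩ := h2 j' (by omega)
    rw [G_cong hC]
    have h5 := G_lipschitz (Th t ((J : ℤ) - j')) (Nn u z (((J + l + 1 + r : ℕ) : ℤ) + J - j'))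
    have h6 := hI.cos_ge j'
    have h7 : π * |Nn u z (((J + l + 1 + r : ℕ) : ℤ) + J - j')| ≤ π * (3 * ρ) :=
      mul_le_mul_of_nonneg_left hB hpi.le
    linarith
  by_cases hj3 : j < e + (J + l + 1) + r
  · obtain ⟨j', rfl⟩ : ∃ j', j = e + (J + l + 1) + j' := ⟨j - (e + (J + l + 1)), by omega⟩
    obtain ⟨hC, hB⟩ := h3 j' (by omega)
    rw [G_cong hC]
    have := G_ge_of_small _ _ hB
    nlinarith
  · obtain ⟨j', rfl⟩ : ∃ j', j = e + (J + l + 1) + r + j' :=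
      ⟨j - (e + (J + l + 1) + r), by omega⟩
    obtain ⟨hC, hB⟩ := h4 j'
    beta_reduce at hC
    rw [hC]
    have h5 := G_lipschitz (Th t ((J : ℤ) - j')) (- Th t ((J : ℤ) - j' - ((J + l + 1 + r : ℕ) : ℤ)))
    have h6 := hI.cos_ge j'
    have h8 : beta⁻¹ ^ (j' + 1) ≤ 1 := pow_le_one₀ beta_inv_pos'.le beta_inv_le_one
    have h7 : π * |- Th t ((J : ℤ) - j' - ((J + l + 1 + r : ℕ) : ℤ))| ≤ π * (3 * ρ) := by
      apply mul_le_mul_of_nonneg_left _ hpi.le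
      nlinarith
    linarith

theorem small_block_cong (n : ℕ) (F θ : ℕ → ℝ) (Y : ℝ) (hY1 : π * Y ≤ 1)
    (hC : ∀ j < n, Cong (F j) (θ j)) (hθ : ∀ j < n, |θ j| ≤ Y) :
    1 - n * (π * Y) ^ 2 / 2 ≤ ∏ j ∈ range n, G (F j) ∧
      ∑ j ∈ range n, V (F j) ≤ 2 * π * n * Y := by
  have h := block_small n θ Y hY1 hθ
  have h1 : ∏ j ∈ range n, G (F j) = ∏ j ∈ range n, G (θ j) :=
    prod_congr rfl fun j hj => G_cong (hC j (mem_range.mp hj))
  have h2 : ∑ j ∈ range n, V (F j) = ∑ j ∈ range n, V (θ j) :=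
    sum_congr rfl fun j hj => V_cong (hC j (mem_range.mp hj))
  rw [h1, h2]
  exact h

theorem pert_block_uniform (n : ℕ) (F A b : ℕ → ℝ) (c Y a D : ℝ)
    (hY : 0 ≤ Y) (hc : 0 < c) (hc' : 0 < c - π * Y) (ha : 0 ≤ a)
    (hC : ∀ j < n, Cong (F j) (A j + b j)) (hb : ∀ j < n, |b j| ≤ Y)
    (hA : ∀ j < n, c ≤ G (A j)) (hP : a ≤ ∏ j ∈ range n, G (A j))
    (hD : ∑ j ∈ range n, V (A j) ≤ D)
    (hsmall : π * Y * D + n * ((π * Y) ^ 2 / 2) ≤ 1 / 8) :
    a * (7 / 8) ≤ ∏ j ∈ range n, G (F j) ∧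
      ∑ j ∈ range n, V (F j) ≤ D + n * (π * Y) / (c * (c - π * Y)) := by
  have hpi := pi_pos
  have h1 : ∏ j ∈ range n, G (F j) = ∏ j ∈ range n, G (A j + b j) :=
    prod_congr rfl fun j hj => G_cong (hC j (mem_range.mp hj))
  have h2 : ∑ j ∈ range n, V (F j) = ∑ j ∈ range n, V (A j + b j) :=
    sum_congr rfl fun j hj => V_cong (hC j (mem_range.mp hj))
  rw [h1, h2]
  have hbπ : ∀ j < n, π * |b j| ≤ π * Y := fun j hj =>
    mul_le_mul_of_nonneg_left (hb j hj) hpi.le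
  have hsum : ∑ j ∈ range n, (π * |b j| * V (A j) + (π * b j) ^ 2 / 2) ≤
      π * Y * D + n * ((π * Y) ^ 2 / 2) := by
    calc _ ≤ ∑ j ∈ range n, (π * Y * V (A j) + (π * Y) ^ 2 / 2) := by
          apply sum_le_sum
          intro j hj
          have hj' := mem_range.mp hj
          have hV := V_nonneg (A j)
          have h3 := mul_le_mul_of_nonneg_right (hbπ j hj') hV
          have h4 : (π * b j) ^ 2 ≤ (π * Y) ^ 2 := by
            have h5 : (π * b j) ^ 2 = (π * |b j|) ^ 2 := by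
              rw [mul_pow, mul_pow, sq_abs]
            rw [h5]
            exact pow_le_pow_left₀ (by positivity) (hbπ j hj') 2
          linarith
      _ = π * Y * ∑ j ∈ range n, V (A j) + n * ((π * Y) ^ 2 / 2) := by
          rw [sum_add_distrib, mul_sum, sum_const, card_range, nsmul_eq_mul]
      _ ≤ _ := by
          have hY0 : 0 ≤ π * Y := by positivity
          have := mul_le_mul_of_nonneg_left hD hY0
          linarith
  have hb' := block_pert n A b c (c - π * Y) hc hc' hA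
    (fun j hj => by
      have h5 := G_lipschitz (A j) (b j)
      have h6 := hA j hj
      have h7 := hbπ j hj
      linarith)
    (by linarith)
  constructor
  · refine le_trans ?_ hb'.1
    apply mul_le_mul hP (by linarith) (by norm_num) (le_trans ha hP)
  · refine le_trans hb'.2 ?_
    have hcc : 0 < c * (c - π * Y) := mul_pos hc hc'
    have h8 : ∑ j ∈ range n, π * |b j| ≤ n * (π * Y) := by
      calc _ ≤ ∑ j ∈ range n, π * Y := sum_le_sum fun j hj => hbπ j (mem_range.mp hj)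
        _ = _ := by rw [sum_const, card_range, nsmul_eq_mul]
    have h9 := div_le_div_of_nonneg_right h8 hcc.le
    linarith

theorem pert_block_geom (n : ℕ) (F A b : ℕ → ℝ) (c ρ a D c' : ℝ)
    (hc : 0 < c) (hρ : 0 < ρ) (hc' : 0 < c') (hcc' : c' ≤ c - π * ρ) (ha : 0 ≤ a)
    (hC : ∀ j < n, F j = A j + b j) (hb : ∀ j < n, |b j| ≤ ρ * beta⁻¹ ^ (j + 1))
    (hA : ∀ j < n, c ≤ G (A j)) (hP : a ≤ ∏ j ∈ range n, G (A j))
    (hD : ∑ j ∈ range n, V (A j) ≤ D)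
    (hsmall : π * ρ * D + π ^ 2 * ρ ^ 2 ≤ 1 / 8) :
    a * (7 / 8) ≤ ∏ j ∈ range n, G (F j) ∧
      ∑ j ∈ range n, V (F j) ≤ D + 4 * ρ / (c * c') := by
  have hpi := pi_pos
  have h1 : ∏ j ∈ range n, G (F j) = ∏ j ∈ range n, G (A j + b j) :=
    prod_congr rfl fun j hj => by rw [hC j (mem_range.mp hj)]
  have h2 : ∑ j ∈ range n, V (F j) = ∑ j ∈ range n, V (A j + b j) :=
    sum_congr rfl fun j hj => by rw [hC j (mem_range.mp hj)]
  rw [h1, h2]
  have hq0 : ∀ j : ℕ, 0 < beta⁻¹ ^ (j + 1) := fun j => pow_pos beta_inv_pos' _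
  have hq1 : ∀ j : ℕ, beta⁻¹ ^ (j + 1) ≤ 1 := fun j =>
    pow_le_one₀ beta_inv_pos'.le beta_inv_le_one
  have hbρ : ∀ j < n, |b j| ≤ ρ := fun j hj => by
    have := hb j hj
    have h3 := hq1 j
    nlinarith
  have hsum : ∑ j ∈ range n, (π * |b j| * V (A j) + (π * b j) ^ 2 / 2) ≤
      π * ρ * D + π ^ 2 * ρ ^ 2 := by
    calc _ ≤ ∑ j ∈ range n, (π * ρ * V (A j) + π ^ 2 * ρ ^ 2 / 2 * beta⁻¹ ^ (j + 1)) := by
          apply sum_le_sum
          intro j hj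
          have hj' := mem_range.mp hj
          have hV := V_nonneg (A j)
          have h3 : π * |b j| * V (A j) ≤ π * ρ * V (A j) := by
            apply mul_le_mul_of_nonneg_right _ hV
            exact mul_le_mul_of_nonneg_left (hbρ j hj') hpi.le
          have h4 : (π * b j) ^ 2 / 2 ≤ π ^ 2 * ρ ^ 2 / 2 * beta⁻¹ ^ (j + 1) := by
            have h5 : (b j) ^ 2 ≤ ρ ^ 2 * beta⁻¹ ^ (j + 1) := by
              rw [← sq_abs (b j)]
              have h6 : |b j| ^ 2 ≤ (ρ * beta⁻¹ ^ (j + 1)) ^ 2 :=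
                pow_le_pow_left₀ (abs_nonneg _) (hb j hj') 2
              have h7 : (ρ * beta⁻¹ ^ (j + 1)) ^ 2 ≤ ρ ^ 2 * beta⁻¹ ^ (j + 1) := by
                have h8 : ρ ^ 2 * beta⁻¹ ^ (j + 1) * beta⁻¹ ^ (j + 1) ≤
                    ρ ^ 2 * beta⁻¹ ^ (j + 1) * 1 :=
                  mul_le_mul_of_nonneg_left (hq1 j) (mul_nonneg (by positivity) (hq0 j).le)
                nlinarith
              linarith
            have h6 : (π * b j) ^ 2 = π ^ 2 * (b j) ^ 2 := by ring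
            rw [h6]
            have h7 : π ^ 2 * (b j) ^ 2 ≤ π ^ 2 * (ρ ^ 2 * beta⁻¹ ^ (j + 1)) :=
              mul_le_mul_of_nonneg_left h5 (by positivity)
            linarith
          linarith
      _ = π * ρ * ∑ j ∈ range n, V (A j) +
          π ^ 2 * ρ ^ 2 / 2 * ∑ j ∈ range n, beta⁻¹ ^ (j + 1) := by
          rw [sum_add_distrib, mul_sum, mul_sum]
      _ ≤ _ := by
          have h3 : π * ρ * ∑ j ∈ range n, V (A j) ≤ π * ρ * D :=
            mul_le_mul_of_nonneg_left hD (by positivity)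
          have h4 : π ^ 2 * ρ ^ 2 / 2 * ∑ j ∈ range n, beta⁻¹ ^ (j + 1) ≤
              π ^ 2 * ρ ^ 2 / 2 * (8 / 7) :=
            mul_le_mul_of_nonneg_left (geom_sum_le n) (by positivity)
          have h5 : 0 ≤ π ^ 2 * ρ ^ 2 := by positivity
          linarith
  have hb' := block_pert n A b c c' hc hc' hA
    (fun j hj => by
      have h5 := G_lipschitz (A j) (b j)
      have h6 := hA j hj
      have h7 : π * |b j| ≤ π * ρ := mul_le_mul_of_nonneg_left (hbρ j hj) hpi.le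
      linarith)
    (by linarith)
  constructor
  · refine le_trans ?_ hb'.1
    apply mul_le_mul hP (by linarith) (by norm_num) (le_trans ha hP)
  · refine le_trans hb'.2 ?_
    have hcc : 0 < c * c' := mul_pos hc hc'
    have h8 : ∑ j ∈ range n, π * |b j| ≤ 4 * ρ := by
      calc _ ≤ ∑ j ∈ range n, π * (ρ * beta⁻¹ ^ (j + 1)) :=
            sum_le_sum fun j hj => mul_le_mul_of_nonneg_left (hb j (mem_range.mp hj)) hpi.le
        _ = π * ρ * ∑ j ∈ range n, beta⁻¹ ^ (j + 1) := by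
            rw [mul_sum]; apply sum_congr rfl; intro j _; ring
        _ ≤ π * ρ * (8 / 7) := mul_le_mul_of_nonneg_left (geom_sum_le n) (by positivity)
        _ ≤ 4 * ρ := by
            have := pi_lt_d2
            nlinarith
    have h9 := div_le_div_of_nonneg_right h8 hcc.le
    linarith

/-- The product and tangent sum bounds for the new element, over the four blocks. -/
theorem step_bounds {t u : ℝ} {z : ℂ} (hE : IsElt t u z) (J l r e : ℕ) (T ρ c a D : ℝ)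
    (hI : Inv t u z J T ρ c a D) (hρ : 0 < ρ)
    (hl : T * beta ^ (-(l : ℤ)) ≤ ρ) (hρc : 3 * π * ρ < c) (hρs : 6 * π * ρ ≤ 1 / 2)
    (ha : 0 < a)
    (hS1 : 18 * π ^ 2 * ρ ^ 2 * e ≤ 1 / 8)
    (hS2 : 8 * π ^ 2 * ρ ^ 2 * (J + l + 1 + r : ℕ) ≤ 1 / 8)
    (hS3 : 3 * π * ρ * D + 9 / 2 * π ^ 2 * ρ ^ 2 * (J + l + 1 : ℕ) ≤ 1 / 8)
    (hS4 : π * ρ * D + π ^ 2 * ρ ^ 2 ≤ 1 / 8) (n : ℕ) :
    let F : ℕ → ℝ := fun j => Th (t * (1 - beta ^ (-((J + l + 1 + r : ℕ) : ℤ))))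
      ((((J + l + 1 + r) + J + e : ℕ) : ℤ) - j)
    (7 / 8 ≤ ∏ j ∈ range e, G (F j) ∧ ∑ j ∈ range e, V (F j) ≤ 12 * π * ρ * e) ∧
    (a * (7 / 8) ≤ ∏ j ∈ range (J + l + 1), G (F (e + j)) ∧
      ∑ j ∈ range (J + l + 1), V (F (e + j)) ≤
        D + (J + l + 1 : ℕ) * (3 * π * ρ) / (c * (c - 3 * π * ρ))) ∧
    (7 / 8 ≤ ∏ j ∈ range r, G (F (e + (J + l + 1) + j)) ∧
      ∑ j ∈ range r, V (F (e + (J + l + 1) + j)) ≤ 8 * π * ρ * (J + l + 1 + r : ℕ)) ∧
    (a * (7 / 8) ≤ ∏ j ∈ range n, G (F (e + (J + l + 1) + r + j)) ∧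
      ∑ j ∈ range n, V (F (e + (J + l + 1) + r + j)) ≤
        D + 4 * ρ / (c * (c - 3 * π * ρ))) := by
  intro F
  obtain ⟨h1, h2, h3, h4⟩ := step_blocks hE J l r e T ρ c a D hI hρ hl
  have hpi := pi_pos
  have hc0 : 0 < c := lt_trans (by positivity) hρc
  have hc'0 : 0 < c - 3 * π * ρ := by linarith
  have hπρ : π * (3 * ρ) = 3 * π * ρ := by ring
  refine ⟨?_, ?_, ?_, ?_⟩
  · have := small_block_cong e F _ (6 * ρ) (by nlinarith) (fun j hj => (h1 j hj).1)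
      (fun j hj => (h1 j hj).2)
    refine ⟨?_, ?_⟩
    · have h9 : (e : ℝ) * (π * (6 * ρ)) ^ 2 / 2 = 18 * π ^ 2 * ρ ^ 2 * e := by ring
      linarith [this.1]
    · have h9 : 2 * π * (e : ℝ) * (6 * ρ) = 12 * π * ρ * e := by ring
      linarith [this.2]
  · have := pert_block_uniform (J + l + 1) (fun j => F (e + j))
      (fun j : ℕ => Th t ((J : ℤ) - j))
      (fun j : ℕ => Nn u z (((J + l + 1 + r : ℕ) : ℤ) + J - j)) c (3 * ρ) a D
      (by positivity) hc0 (by rw [hπρ]; exact hc'0) ha.le (fun j hj => (h2 j hj).1)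
      (fun j hj => (h2 j hj).2) (fun j _ => hI.cos_ge j) (hI.prod_ge _) (hI.tan_le _)
      (by
        have h9 : π * (3 * ρ) * D + ((J + l + 1 : ℕ) : ℝ) * ((π * (3 * ρ)) ^ 2 / 2) =
            3 * π * ρ * D + 9 / 2 * π ^ 2 * ρ ^ 2 * (J + l + 1 : ℕ) := by ring
        rw [h9]; exact hS3)
    rw [hπρ] at this
    exact this
  · have := small_block_cong r (fun j => F (e + (J + l + 1) + j)) _ (4 * ρ) (by nlinarith)
      (fun j hj => (h3 j hj).1) (fun j hj => (h3 j hj).2)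
    have hr : (r : ℝ) ≤ (J + l + 1 + r : ℕ) := by
      exact_mod_cast (by omega : r ≤ J + l + 1 + r)
    refine ⟨?_, ?_⟩
    · have h9 : (r : ℝ) * (π * (4 * ρ)) ^ 2 / 2 = 8 * π ^ 2 * ρ ^ 2 * r := by ring
      have h10 : 8 * π ^ 2 * ρ ^ 2 * (r : ℝ) ≤ 8 * π ^ 2 * ρ ^ 2 * (J + l + 1 + r : ℕ) :=
        mul_le_mul_of_nonneg_left hr (by positivity)
      linarith [this.1]
    · have h9 : 2 * π * (r : ℝ) * (4 * ρ) = 8 * π * ρ * r := by ring
      have h10 : 8 * π * ρ * (r : ℝ) ≤ 8 * π * ρ * (J + l + 1 + r : ℕ) :=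
        mul_le_mul_of_nonneg_left hr (by positivity)
      linarith [this.2]
  · exact pert_block_geom n (fun j => F (e + (J + l + 1) + r + j))
      (fun j : ℕ => Th t ((J : ℤ) - j))
      (fun j : ℕ => - Th t ((J : ℤ) - j - ((J + l + 1 + r : ℕ) : ℤ))) c ρ a D (c - 3 * π * ρ)
      hc0 hρ hc'0 (by nlinarith) ha.le (fun j _ => (h4 j).1) (fun j _ => (h4 j).2)
      (fun j _ => hI.cos_ge j) (hI.prod_ge _) (hI.tan_le _) hS4

/-- The main step lemma. -/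
theorem step_inv {t u : ℝ} {z : ℂ} (hE : IsElt t u z) (J l k e : ℕ) (T ρ c a D δ : ℝ)
    (hI : Inv t u z J T ρ c a D) (hρ : 0 < ρ) (hk : J + l + 1 ≤ k)
    (hl : T * beta ^ (-(l : ℤ)) ≤ ρ)
    (hδe : beta⁻¹ ^ e ≤ δ) (hδω : ‖1 - omega ^ (-(k : ℤ))‖ ≤ δ)
    (hc : c ≤ 1 / 2) (hρc : 3 * π * ρ < c) (hρs : 6 * π * ρ ≤ 1 / 2)
    (ha : 0 < a)
    (hS1 : 18 * π ^ 2 * ρ ^ 2 * e ≤ 1 / 8)
    (hS2 : 8 * π ^ 2 * ρ ^ 2 * k ≤ 1 / 8)
    (hS3 : 3 * π * ρ * D + 9 / 2 * π ^ 2 * ρ ^ 2 * (J + l + 1 : ℕ) ≤ 1 / 8)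
    (hS4 : π * ρ * D + π ^ 2 * ρ ^ 2 ≤ 1 / 8) :
    Inv (t * (1 - beta ^ (-(k : ℤ)))) (u * (1 - beta ^ (k : ℤ))) (z * (1 - omega ^ (-(k : ℤ))))
      (k + J + e) T (δ * ρ) (c - 3 * π * ρ) (a ^ 2 / 2)
      (2 * D + 12 * π * ρ * e + 8 * π * ρ * k +
        (3 * π * ρ * (J + l + 1 : ℕ) + 4 * ρ) / (c * (c - 3 * π * ρ))) := by
  obtain ⟨r, rfl⟩ : ∃ r, k = J + l + 1 + r := ⟨k - (J + l + 1), by omega⟩
  have hb1 : 1 ≤ beta := one_lt_beta.le
  have hbz : beta ≠ 0 := beta_pos.ne'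
  have hδ0 : 0 < δ := lt_of_lt_of_le (pow_pos beta_inv_pos' _) hδe
  refine ⟨?_, ?_, ?_, ?_, ?_, ?_⟩
  · -- t_le
    rw [abs_mul]
    have h1 : 0 < beta ^ (-((J + l + 1 + r : ℕ) : ℤ)) := zpow_pos beta_pos _
    have h2 : beta ^ (-((J + l + 1 + r : ℕ) : ℤ)) ≤ 1 := by
      apply zpow_le_one_of_nonpos₀ hb1
      omega
    rw [abs_of_nonneg (by linarith : (0 : ℝ) ≤ 1 - beta ^ (-((J + l + 1 + r : ℕ) : ℤ)))]
    have h3 := hI.t_le
    have h4 := abs_nonneg t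
    nlinarith
  · -- u_le
    have h1 : (1 : ℝ) ≤ beta ^ ((J + l + 1 + r : ℕ) : ℤ) := one_le_zpow₀ hb1 (by omega)
    have h2 : |1 - beta ^ ((J + l + 1 + r : ℕ) : ℤ)| ≤ beta ^ ((J + l + 1 + r : ℕ) : ℤ) := by
      rw [abs_of_nonpos (by linarith)]
      linarith
    have h3 : beta ^ ((J + l + 1 + r : ℕ) : ℤ) * beta ^ (-(((J + l + 1 + r) + J + e : ℕ) : ℤ)) =
        beta ^ (-(J : ℤ)) * beta⁻¹ ^ e := by
      rw [inv_pow, ← zpow_natCast beta e, ← zpow_neg, ← zpow_add₀ hbz, ← zpow_add₀ hbz]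
      congr 1; push_cast; ring
    rw [abs_mul]
    have hz : 0 < beta ^ (-(((J + l + 1 + r) + J + e : ℕ) : ℤ)) := zpow_pos beta_pos _
    calc |u| * |1 - beta ^ ((J + l + 1 + r : ℕ) : ℤ)| * beta ^ (-(((J + l + 1 + r) + J + e : ℕ) : ℤ))
        ≤ |u| * beta ^ ((J + l + 1 + r : ℕ) : ℤ) * beta ^ (-(((J + l + 1 + r) + J + e : ℕ) : ℤ)) := by
          apply mul_le_mul_of_nonneg_right _ hz.le
          exact mul_le_mul_of_nonneg_left h2 (abs_nonneg _)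
      _ = (|u| * beta ^ (-(J : ℤ))) * beta⁻¹ ^ e := by
          rw [mul_assoc, h3]; ring
      _ ≤ ρ * δ := by
          apply mul_le_mul hI.u_le hδe (pow_pos beta_inv_pos' _).le hρ.le
      _ = δ * ρ := by ring
  · -- z_le
    rw [norm_mul, mul_comm δ ρ]
    exact mul_le_mul hI.z_le hδω (norm_nonneg _) hρ.le
  · -- cos_ge
    intro j
    exact step_cos hE J l r e T ρ c a D hI hρ hl hc hρs j
  · -- prod_ge
    intro n
    have hB := step_bounds hE J l r e T ρ c a D hI hρ hl hρc hρs ha hS1 hS2 hS3 hS4 n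
    set F : ℕ → ℝ := fun j => Th (t * (1 - beta ^ (-((J + l + 1 + r : ℕ) : ℤ))))
      ((((J + l + 1 + r) + J + e : ℕ) : ℤ) - j) with hF
    obtain ⟨⟨p1, -⟩, ⟨p2, -⟩, ⟨p3, -⟩, ⟨p4, -⟩⟩ := hB
    change a ^ 2 / 2 ≤ ∏ j ∈ range n, G (F j)
    refine le_trans ?_ (prod_G_anti F (n := n) (n' := e + (J + l + 1) + r + n) (by omega))
    rw [prod_range_add, prod_range_add, prod_range_add]
    have hA : 0 < a * (7 / 8) := by positivity
    have e1 : 0 ≤ ∏ j ∈ range e, G (F j) := le_trans (by norm_num) p1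
    have e2 : 0 ≤ ∏ j ∈ range (J + l + 1), G (F (e + j)) := le_trans hA.le p2
    have e3 : 0 ≤ ∏ j ∈ range r, G (F (e + (J + l + 1) + j)) := le_trans (by norm_num) p3
    calc a ^ 2 / 2 ≤ (7 / 8) * (a * (7 / 8)) * (7 / 8) * (a * (7 / 8)) := by
          nlinarith [sq_nonneg a]
      _ ≤ _ := by
        apply mul_le_mul _ p4 hA.le (mul_nonneg (mul_nonneg e1 e2) e3)
        apply mul_le_mul _ p3 (by norm_num) (mul_nonneg e1 e2)
        exact mul_le_mul p1 p2 hA.le e1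
  · -- tan_le
    intro n
    have hB := step_bounds hE J l r e T ρ c a D hI hρ hl hρc hρs ha hS1 hS2 hS3 hS4 n
    set F : ℕ → ℝ := fun j => Th (t * (1 - beta ^ (-((J + l + 1 + r : ℕ) : ℤ))))
      ((((J + l + 1 + r) + J + e : ℕ) : ℤ) - j) with hF
    obtain ⟨⟨-, s1⟩, ⟨-, s2⟩, ⟨-, s3⟩, ⟨-, s4⟩⟩ := hB
    change ∑ j ∈ range n, V (F j) ≤ _
    refine le_trans (sum_V_mono F (n := n) (n' := e + (J + l + 1) + r + n) (by omega)) ?_
    rw [sum_range_add, sum_range_add, sum_range_add]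
    have h9 : (3 * π * ρ * ((J + l + 1 : ℕ) : ℝ) + 4 * ρ) / (c * (c - 3 * π * ρ)) =
        ((J + l + 1 : ℕ) : ℝ) * (3 * π * ρ) / (c * (c - 3 * π * ρ)) +
          4 * ρ / (c * (c - 3 * π * ρ)) := by
      rw [← add_div]; congr 1; ring
    rw [h9]
    linarith

end Vale.Agent.Lib.P105
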