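import Vale.Agent.Lib.P105.Elt

/-!
Elementary facts on `G x = |cos (π x)|` and `V x = |tan (π x)|`, and block estimates.
-/

open Real Finset

namespace Vale.Agent.Lib.P105

/-- `x ≡ ± y` modulo `1`. -/
def Cong (x y : ℝ) : Prop := ∃ m : ℤ, x = y + m ∨ x = -y + m

theorem G_neg (x : ℝ) : G (-x) = G x := by
  simp [G]

theorem V_neg (x : ℝ) : V (-x) = V x := by
  simp [V, Real.tan_neg]

theorem G_add_int (x : ℝ) (m : ℤ) : G (x + m) = G x := by
  unfold G
  have : π * (x + m) = π * x + m * π := by ring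
  rw [this, Real.cos_add_int_mul_pi, abs_mul, abs_zpow, abs_neg, abs_one, one_zpow, one_mul]

theorem V_add_int (x : ℝ) (m : ℤ) : V (x + m) = V x := by
  unfold V
  have : π * (x + m) = π * x + m * π := by ring
  rw [this, Real.tan_add_int_mul_pi]

theorem G_cong {x y : ℝ} (h : Cong x y) : G x = G y := by
  obtain ⟨m, h | h⟩ := h
  · rw [h, G_add_int]
  · rw [h, G_add_int, G_neg]

theorem V_cong {x y : ℝ} (h : Cong x y) : V x = V y := by
  obtain ⟨m, h | h⟩ := h
  · rw [h, V_add_int]
  · rw [h, V_add_int, V_neg]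

theorem G_nonneg (x : ℝ) : 0 ≤ G x := abs_nonneg _

theorem V_nonneg (x : ℝ) : 0 ≤ V x := abs_nonneg _

theorem G_le_one (x : ℝ) : G x ≤ 1 := by
  simpa [G] using Real.abs_cos_le_one (π * x)

/-- `|cos (π (A + b))| ≥ |cos (π A)| (1 - π |b| |tan (π A)| - (π b)^2 / 2)`. -/
theorem G_pert (A b : ℝ) (hA : G A ≠ 0) :
    G A * (1 - (π * |b| * V A + (π * b) ^ 2 / 2)) ≤ G (A + b) := by
  unfold G V at *
  have hc : cos (π * A) ≠ 0 := by simpa using hA
  have hexp : π * (A + b) = π * A + π * b := by ring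
  rw [hexp, Real.cos_add]
  have h1 : 1 - (π * b) ^ 2 / 2 ≤ cos (π * b) := Real.one_sub_sq_div_two_le_cos
  have h2 : |sin (π * b)| ≤ |π * b| := Real.abs_sin_le_abs
  have hpi : |π * b| = π * |b| := by rw [abs_mul, abs_of_pos Real.pi_pos]
  rw [hpi] at h2
  have hsin : |sin (π * A)| = |cos (π * A)| * |tan (π * A)| := by
    rw [← abs_mul, Real.tan_eq_sin_div_cos, mul_div_cancel₀ _ hc]
  have hcpos : 0 ≤ |cos (π * A)| := abs_nonneg _
  have h3 : |cos (π * A)| * (1 - (π * b) ^ 2 / 2) ≤ |cos (π * A)| * cos (π * b) :=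
    mul_le_mul_of_nonneg_left h1 hcpos
  have h4 : |sin (π * A) * sin (π * b)| ≤ |cos (π * A)| * |tan (π * A)| * (π * |b|) := by
    rw [abs_mul, hsin]
    exact mul_le_mul_of_nonneg_left h2 (by positivity)
  have h5 : |cos (π * A) * cos (π * b)| ≥ |cos (π * A)| * cos (π * b) := by
    rw [abs_mul]
    exact mul_le_mul_of_nonneg_left (le_abs_self _) hcpos
  have h6 : |cos (π * A) * cos (π * b)| - |sin (π * A) * sin (π * b)| ≤
      |cos (π * A) * cos (π * b) - sin (π * A) * sin (π * b)| := abs_sub_abs_le_abs_sub _ _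
  nlinarith

theorem G_lipschitz (A b : ℝ) : G A - π * |b| ≤ G (A + b) := by
  unfold G
  have h : |cos (π * A) - cos (π * (A + b))| ≤ |π * A - π * (A + b)| := Real.abs_cos_sub_cos_le _ _
  have h2 : π * A - π * (A + b) = -(π * b) := by ring
  rw [h2, abs_neg, abs_mul, abs_of_pos Real.pi_pos] at h
  have h3 : |cos (π * A)| - |cos (π * (A + b))| ≤ |cos (π * A) - cos (π * (A + b))| :=
    abs_sub_abs_le_abs_sub _ _
  linarith

/-- `|tan a' - tan a| ≤ |a' - a| / (|cos a| |cos a'|)`. -/
theorem V_pert (A b : ℝ) (h1 : G A ≠ 0) (h2 : G (A + b) ≠ 0) :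
    V (A + b) ≤ V A + π * |b| / (G A * G (A + b)) := by
  unfold G V at *
  have hc : cos (π * A) ≠ 0 := by simpa using h1
  have hc' : cos (π * (A + b)) ≠ 0 := by simpa using h2
  have hkey : tan (π * (A + b)) - tan (π * A) =
      sin (π * b) / (cos (π * A) * cos (π * (A + b))) := by
    rw [Real.tan_eq_sin_div_cos, Real.tan_eq_sin_div_cos]
    have hs : sin (π * b) = sin (π * (A + b)) * cos (π * A) - cos (π * (A + b)) * sin (π * A) := by
      have : π * b = π * (A + b) - π * A := by ring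
      rw [this, Real.sin_sub]
    rw [hs]
    field_simp
  have h3 : |tan (π * (A + b))| - |tan (π * A)| ≤ |tan (π * (A + b)) - tan (π * A)| :=
    abs_sub_abs_le_abs_sub _ _
  rw [hkey, abs_div, abs_mul] at h3
  have h4 : |sin (π * b)| ≤ π * |b| := by
    have := @Real.abs_sin_le_abs (π * b)
    rwa [abs_mul, abs_of_pos Real.pi_pos] at this
  have hpos : 0 < |cos (π * A)| * |cos (π * (A + b))| := by positivity
  have h5 : |sin (π * b)| / (|cos (π * A)| * |cos (π * (A + b))|) ≤
      π * |b| / (|cos (π * A)| * |cos (π * (A + b))|) := by gcongr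
  linarith

theorem V_small (θ : ℝ) (h : π * |θ| ≤ 1) : V θ ≤ 2 * π * |θ| := by
  unfold V
  have hx : |π * θ| = π * |θ| := by rw [abs_mul, abs_of_pos Real.pi_pos]
  set x := π * θ with hxdef
  have h1 : |sin x| ≤ |x| := Real.abs_sin_le_abs
  have h2 : 1 - x ^ 2 / 2 ≤ cos x := Real.one_sub_sq_div_two_le_cos
  have hxle : |x| ≤ 1 := by rw [hx]; exact h
  have hxsq : x ^ 2 ≤ 1 := by
    have := abs_le.mp hxle
    nlinarith [this.1, this.2]
  have hc : (1 : ℝ) / 2 ≤ cos x := by linarith
  have hcpos : 0 < cos x := by linarith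
  rw [Real.tan_eq_sin_div_cos, abs_div, abs_of_pos hcpos, div_le_iff₀ hcpos]
  have h3 : 2 * π * |θ| = 2 * |x| := by rw [hx]; ring
  rw [h3]
  nlinarith [abs_nonneg x]

theorem V_le_inv_G (x : ℝ) (h : G x ≠ 0) : V x ≤ 1 / G x := by
  unfold G V at *
  have hc : cos (π * x) ≠ 0 := by simpa using h
  rw [Real.tan_eq_sin_div_cos, abs_div]
  have hpos : 0 < |cos (π * x)| := abs_pos.mpr hc
  gcongr
  exact Real.abs_sin_le_one _

theorem G_small (θ : ℝ) : 1 - (π * θ) ^ 2 / 2 ≤ G θ := by
  unfold G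
  have : 1 - (π * θ) ^ 2 / 2 ≤ cos (π * θ) := Real.one_sub_sq_div_two_le_cos
  exact this.trans (le_abs_self _)

/-- Weierstrass product inequality, with each factor in `[0,1]`. -/
theorem weierstrass_prod (y : ℕ → ℝ) (n : ℕ) (h0 : ∀ j < n, 0 ≤ y j) (h1 : ∀ j < n, y j ≤ 1) :
    1 - ∑ j ∈ range n, y j ≤ ∏ j ∈ range n, (1 - y j) := by
  induction n with
  | zero => simp
  | succ n ih =>
    have ih' := ih (fun j hj => h0 j (by omega)) (fun j hj => h1 j (by omega))
    rw [Finset.sum_range_succ, Finset.prod_range_succ]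
    have hy0 := h0 n (by omega)
    have hy1 := h1 n (by omega)
    have hp : 0 ≤ ∏ j ∈ range n, (1 - y j) :=
      Finset.prod_nonneg (fun j hj => by
        have := h1 j (by have := Finset.mem_range.mp hj; omega); linarith)
    have hp1 : ∏ j ∈ range n, (1 - y j) ≤ 1 :=
      Finset.prod_le_one (fun j hj => by
        have := h1 j (by have := Finset.mem_range.mp hj; omega); linarith)
        (fun j hj => by
        have := h0 j (by have := Finset.mem_range.mp hj; omega); linarith)
    nlinarith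

theorem one_sub_sum_le_prod (y : ℕ → ℝ) (n : ℕ) (h0 : ∀ j < n, 0 ≤ y j)
    (h1 : ∑ j ∈ range n, y j ≤ 1) :
    1 - ∑ j ∈ range n, y j ≤ ∏ j ∈ range n, (1 - y j) := by
  refine weierstrass_prod y n h0 (fun j hj => ?_)
  have hle : y j ≤ ∑ i ∈ range n, y i :=
    Finset.single_le_sum (f := y) (fun i hi => h0 i (Finset.mem_range.mp hi)) (Finset.mem_range.mpr hj)
  linarith

/-- A block of uniformly small angles. -/
theorem block_small (n : ℕ) (θ : ℕ → ℝ) (Y : ℝ) (hY1 : π * Y ≤ 1)
    (hθ : ∀ j < n, |θ j| ≤ Y) :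
    1 - n * (π * Y) ^ 2 / 2 ≤ ∏ j ∈ range n, G (θ j) ∧
      ∑ j ∈ range n, V (θ j) ≤ 2 * π * n * Y := by
  constructor
  · have hy : ∀ j < n, (π * θ j) ^ 2 / 2 ≤ (π * Y) ^ 2 / 2 := by
      intro j hj
      have h1 := hθ j hj
      have h2 : |π * θ j| ≤ π * Y := by
        rw [abs_mul, abs_of_pos Real.pi_pos]
        exact mul_le_mul_of_nonneg_left h1 Real.pi_pos.le
      have h3 : (π * θ j) ^ 2 ≤ (π * Y) ^ 2 := by
        rw [← sq_abs (π * θ j)]
        exact pow_le_pow_left₀ (abs_nonneg _) h2 2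
      linarith
    have hw := weierstrass_prod (fun j => (π * θ j) ^ 2 / 2) n (fun j _ => by positivity)
      (fun j hj => by
        have h1 := hy j hj
        have h2 : |π * θ j| ≤ π * Y := by
          rw [abs_mul, abs_of_pos Real.pi_pos]
          exact mul_le_mul_of_nonneg_left (hθ j hj) Real.pi_pos.le
        have h0 : 0 ≤ π * Y := (abs_nonneg _).trans h2
        have h3 : (π * Y) ^ 2 ≤ 1 := by nlinarith
        linarith)
    have hsum : ∑ j ∈ range n, (π * θ j) ^ 2 / 2 ≤ n * ((π * Y) ^ 2 / 2) := by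
      have := Finset.sum_le_card_nsmul (range n) (fun j => (π * θ j) ^ 2 / 2) ((π * Y) ^ 2 / 2)
        (fun j hj => hy j (Finset.mem_range.mp hj))
      simpa using this
    have hprod : ∏ j ∈ range n, (1 - (π * θ j) ^ 2 / 2) ≤ ∏ j ∈ range n, G (θ j) := by
      apply Finset.prod_le_prod
      · intro j hj
        have hj' := Finset.mem_range.mp hj
        have h1 := hy j hj'
        have h2 : |π * θ j| ≤ π * Y := by
          rw [abs_mul, abs_of_pos Real.pi_pos]
          exact mul_le_mul_of_nonneg_left (hθ j hj') Real.pi_pos.le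
        have h0 : 0 ≤ π * Y := (abs_nonneg _).trans h2
        have h3 : (π * Y) ^ 2 ≤ 1 := by nlinarith
        linarith
      · intro j _
        exact G_small (θ j)
    have : 1 - n * (π * Y) ^ 2 / 2 = 1 - n * ((π * Y) ^ 2 / 2) := by ring
    rw [this]
    linarith
  · have hV : ∀ j ∈ range n, V (θ j) ≤ 2 * π * Y := by
      intro j hj
      have hj' := Finset.mem_range.mp hj
      have h1 := hθ j hj'
      have hpi : π * |θ j| ≤ 1 := (mul_le_mul_of_nonneg_left h1 Real.pi_pos.le).trans hY1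
      have h2 := V_small (θ j) hpi
      have h3 : 2 * π * |θ j| ≤ 2 * π * Y :=
        mul_le_mul_of_nonneg_left h1 (by positivity)
      linarith
    have := Finset.sum_le_card_nsmul (range n) (fun j => V (θ j)) (2 * π * Y) hV
    simp only [Finset.card_range, nsmul_eq_mul] at this
    calc ∑ j ∈ range n, V (θ j) ≤ n * (2 * π * Y) := this
      _ = 2 * π * n * Y := by ring

/-- A block of perturbed angles. -/
theorem block_pert (n : ℕ) (A b : ℕ → ℝ) (c c' : ℝ) (hc : 0 < c) (hc' : 0 < c')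
    (hA : ∀ j < n, c ≤ G (A j)) (hb : ∀ j < n, c' ≤ G (A j + b j))
    (hY : ∑ j ∈ range n, (π * |b j| * V (A j) + (π * b j) ^ 2 / 2) ≤ 1) :
    (∏ j ∈ range n, G (A j)) * (1 - ∑ j ∈ range n, (π * |b j| * V (A j) + (π * b j) ^ 2 / 2))
        ≤ ∏ j ∈ range n, G (A j + b j) ∧
      ∑ j ∈ range n, V (A j + b j) ≤
        ∑ j ∈ range n, V (A j) + (∑ j ∈ range n, π * |b j|) / (c * c') := by
  set e : ℕ → ℝ := fun j => π * |b j| * V (A j) + (π * b j) ^ 2 / 2 with he
  have he0 : ∀ j, 0 ≤ e j := fun j => by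
    have := V_nonneg (A j)
    have hp := Real.pi_pos
    simp only [he]
    positivity
  have he1 : ∀ j < n, e j ≤ 1 := fun j hj => by
    have hle : e j ≤ ∑ i ∈ range n, e i :=
      Finset.single_le_sum (f := e) (fun i _ => he0 i) (Finset.mem_range.mpr hj)
    linarith
  have hGA : ∀ j < n, G (A j) ≠ 0 := fun j hj => by
    have := hA j hj
    intro h0
    rw [h0] at this
    linarith
  constructor
  · have h1 : (∏ j ∈ range n, G (A j)) * ∏ j ∈ range n, (1 - e j) ≤ ∏ j ∈ range n, G (A j + b j) := by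
      rw [← Finset.prod_mul_distrib]
      apply Finset.prod_le_prod
      · intro j hj
        have hj' := Finset.mem_range.mp hj
        have := he1 j hj'
        exact mul_nonneg (G_nonneg _) (by linarith)
      · intro j hj
        exact G_pert (A j) (b j) (hGA j (Finset.mem_range.mp hj))
    have h2 := weierstrass_prod e n (fun j _ => he0 j) he1
    have h3 : 0 ≤ ∏ j ∈ range n, G (A j) := Finset.prod_nonneg (fun j _ => G_nonneg _)
    calc (∏ j ∈ range n, G (A j)) * (1 - ∑ j ∈ range n, e j)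
        ≤ (∏ j ∈ range n, G (A j)) * ∏ j ∈ range n, (1 - e j) :=
          mul_le_mul_of_nonneg_left h2 h3
      _ ≤ _ := h1
  · have hcc : 0 < c * c' := mul_pos hc hc'
    have hterm : ∀ j ∈ range n, V (A j + b j) ≤ V (A j) + (π * |b j|) / (c * c') := by
      intro j hj
      have hj' := Finset.mem_range.mp hj
      have h1 := hA j hj'
      have h2 := hb j hj'
      have hne2 : G (A j + b j) ≠ 0 := by
        intro h0
        rw [h0] at h2
        linarith
      have h3 := V_pert (A j) (b j) (hGA j hj') hne2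
      have h4 : π * |b j| / (G (A j) * G (A j + b j)) ≤ π * |b j| / (c * c') := by
        apply div_le_div_of_nonneg_left (by positivity) hcc
        exact mul_le_mul h1 h2 hc'.le (G_nonneg _)
      linarith
    calc ∑ j ∈ range n, V (A j + b j)
        ≤ ∑ j ∈ range n, (V (A j) + (π * |b j|) / (c * c')) := Finset.sum_le_sum hterm
      _ = ∑ j ∈ range n, V (A j) + (∑ j ∈ range n, π * |b j|) / (c * c') := by
        rw [Finset.sum_add_distrib, Finset.sum_div]

end Vale.Agent.Lib.P105
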